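import Vale.Agent.H34.MaureyH

/-!
# Sampling with signs: a counting lemma

`maurey_tail` is the tail form of Maurey's empirical method (Hoeffding's inequality with a union
bound over finitely many coordinates).  `sampling_count` is a counting lemma: functions
`p s : X → [-1, 1]` that are pairwise separated with respect to finitely many bounded test
functions `c j : X → [-R, R]` (under a probability weight `μ` on `X`) are at most `2^(k+1)` in
number, where `k ≥ 2 R² log (4 |ι|) / η²`.  The proof samples `k` points of `X` according to `μ`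
together with random signs of mean `p s`; the empirical averages of the signed test functions do
not depend on `s`, so every sample is a good estimate for at most one `s`.
-/

namespace Vale.Agent.H34

open Finset

/-- **Tail bound for Maurey's empirical method**: the total weight of the `k`-tuples whose
empirical average is not within `η` of the mean in every coordinate is at most
`2 |ι| exp (- k η² / (2 R²))`. -/
theorem maurey_tail {J ι : Type*} [Fintype J] [Fintype ι]
    (w : J → ℝ) (hw0 : ∀ j, 0 ≤ w j) (hw1 : ∑ j, w j = 1)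
    (a : J → ι → ℝ) (R : ℝ) (hR : 0 < R) (ha : ∀ j i, |a j i| ≤ R)
    (η : ℝ) (hη : 0 < η) (k : ℕ) (hk : 0 < k) :
    ∑ τ : Fin k → J, (∏ t, w (τ t)) *
        (if ∀ i, |∑ j, w j * a j i - (∑ t, a (τ t) i) / k| ≤ η then (0 : ℝ) else 1)
      ≤ 2 * (Fintype.card ι : ℝ) * Real.exp (-(k * η ^ 2 / (2 * R ^ 2))) := by
  classical
  have hkpos : (0 : ℝ) < k := by exact_mod_cast hk
  -- means and centred values
  set abar : ι → ℝ := fun i => ∑ j, w j * a j i with habar
  set b : J → ι → ℝ := fun j i => a j i - abar i with hb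
  have hbI : ∀ j i, b j i ∈ Set.Icc (-R - abar i) (R - abar i) := by
    intro j i
    have h := abs_le.mp (ha j i)
    constructor
    · simp only [hb]
      linarith [h.1]
    · simp only [hb]
      linarith [h.2]
  have hbmean : ∀ i, ∑ j, w j * b j i = 0 := by
    intro i
    simp only [hb, mul_sub, Finset.sum_sub_distrib, ← Finset.sum_mul, hw1, one_mul]
    simp [habar]
  set s : ℝ := η / R ^ 2 with hs
  have hspos : 0 < s := by positivity
  -- weights of tuples
  set W : (Fin k → J) → ℝ := fun τ => ∏ t, w (τ t) with hW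
  have hW0 : ∀ τ, 0 ≤ W τ := fun τ => Finset.prod_nonneg fun t _ => hw0 (τ t)
  set S : (Fin k → J) → ι → ℝ := fun τ i => ∑ t, b (τ t) i with hS
  -- exponential moment identity
  have hmgf : ∀ (s' : ℝ) (i : ι),
      ∑ τ, W τ * Real.exp (s' * S τ i) = (∑ j, w j * Real.exp (s' * b j i)) ^ k := by
    intro s' i
    rw [← sum_prod_weight]
    apply Finset.sum_congr rfl
    intro τ _
    rw [hW, hS]
    simp only
    rw [Finset.mul_sum, Real.exp_sum, ← Finset.prod_mul_distrib]
  have hmgf_le : ∀ (s' : ℝ) (i : ι),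
      ∑ τ, W τ * Real.exp (s' * S τ i) ≤ Real.exp (k * (R ^ 2 * s' ^ 2 / 2)) := by
    intro s' i
    rw [hmgf, Real.exp_nat_mul]
    apply pow_le_pow_left₀ (Finset.sum_nonneg fun j _ => mul_nonneg (hw0 j) (Real.exp_pos _).le)
    have h := sum_weight_exp_le_hoeffding w hw0 hw1 (fun j => b j i) (-R - abar i) (R - abar i)
      (fun j => hbI j i) (hbmean i) s'
    have e : ((R - abar i - (-R - abar i)) / 2) ^ 2 = R ^ 2 := by ring
    rw [e] at h
    exact h
  set G : (Fin k → J) → ℝ := fun τ =>
    ∑ i, (Real.exp (s * S τ i) + Real.exp (-s * S τ i)) with hG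
  set B : ℝ := 2 * (Fintype.card ι : ℝ) * Real.exp (k * (R ^ 2 * s ^ 2 / 2)) with hB
  have hsum : ∑ τ, W τ * G τ ≤ B := by
    have h1 : ∑ τ, W τ * G τ
        = ∑ i, (∑ τ, W τ * Real.exp (s * S τ i) + ∑ τ, W τ * Real.exp (-s * S τ i)) := by
      simp only [hG, Finset.mul_sum, mul_add, Finset.sum_add_distrib]
      rw [Finset.sum_comm]
      congr 1
      rw [Finset.sum_comm]
    rw [h1]
    have h2 : ∀ i, ∑ τ, W τ * Real.exp (s * S τ i) + ∑ τ, W τ * Real.exp (-s * S τ i)
        ≤ 2 * Real.exp (k * (R ^ 2 * s ^ 2 / 2)) := by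
      intro i
      have e1 := hmgf_le s i
      have e2 := hmgf_le (-s) i
      have e3 : (-s) ^ 2 = s ^ 2 := by ring
      rw [e3] at e2
      linarith
    calc ∑ i, (∑ τ, W τ * Real.exp (s * S τ i) + ∑ τ, W τ * Real.exp (-s * S τ i))
        ≤ ∑ _i : ι, 2 * Real.exp (k * (R ^ 2 * s ^ 2 / 2)) := Finset.sum_le_sum fun i _ => h2 i
      _ = B := by
        rw [Finset.sum_const, Finset.card_univ, nsmul_eq_mul, hB]
        ring
  have hterm : ∀ τ i', 0 ≤ Real.exp (s * S τ i') + Real.exp (-s * S τ i') :=
    fun τ i' => add_nonneg (Real.exp_pos _).le (Real.exp_pos _).le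
  have hG0 : ∀ τ, 0 ≤ G τ := fun τ => Finset.sum_nonneg fun i _ => hterm τ i
  -- pointwise comparison of the indicator of a bad tuple with `G`
  have hpt : ∀ τ, W τ *
      (if ∀ i, |∑ j, w j * a j i - (∑ t, a (τ t) i) / k| ≤ η then (0 : ℝ) else 1)
      ≤ W τ * G τ * Real.exp (-(s * (k * η))) := by
    intro τ
    by_cases hgood : ∀ i, |∑ j, w j * a j i - (∑ t, a (τ t) i) / k| ≤ η
    · rw [if_pos hgood, mul_zero]
      exact mul_nonneg (mul_nonneg (hW0 τ) (hG0 τ)) (Real.exp_pos _).le
    · rw [if_neg hgood, mul_one]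
      obtain ⟨i, hi⟩ := not_forall.mp hgood
      have hi' : η < |∑ j, w j * a j i - (∑ t, a (τ t) i) / k| := not_le.mp hi
      have hSeq : S τ i = ∑ t, a (τ t) i - k * abar i := by
        simp only [hS, hb, Finset.sum_sub_distrib, Finset.sum_const, Finset.card_univ,
          Fintype.card_fin, nsmul_eq_mul]
      have hfinal : ∑ j, w j * a j i - (∑ t, a (τ t) i) / k = -(S τ i) / k := by
        rw [hSeq]
        field_simp
        ring
      rw [hfinal, abs_div, abs_neg, abs_of_pos hkpos, lt_div_iff₀ hkpos] at hi'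
      have hGi : Real.exp (s * (k * η)) ≤ G τ := by
        have h1 : Real.exp (s * (k * η)) ≤
            Real.exp (s * S τ i) + Real.exp (-s * S τ i) := by
          rcases le_abs.mp hi'.le with h | h
          · have : Real.exp (s * (k * η)) ≤ Real.exp (s * S τ i) :=
              Real.exp_le_exp.mpr (mul_le_mul_of_nonneg_left (by linarith) hspos.le)
            linarith [Real.exp_pos (-s * S τ i)]
          · have : Real.exp (s * (k * η)) ≤ Real.exp (-s * S τ i) := by
              apply Real.exp_le_exp.mpr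
              have : s * (k * η) ≤ s * (-(S τ i)) :=
                mul_le_mul_of_nonneg_left (by linarith) hspos.le
              linarith
            linarith [Real.exp_pos (s * S τ i)]
        exact h1.trans (Finset.single_le_sum (fun i' _ => hterm τ i') (Finset.mem_univ i))
      calc W τ = W τ * (Real.exp (s * (k * η)) * Real.exp (-(s * (k * η)))) := by
            rw [← Real.exp_add, add_neg_cancel, Real.exp_zero, mul_one]
        _ ≤ W τ * (G τ * Real.exp (-(s * (k * η)))) :=
            mul_le_mul_of_nonneg_left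
              (mul_le_mul_of_nonneg_right hGi (Real.exp_pos _).le) (hW0 τ)
        _ = W τ * G τ * Real.exp (-(s * (k * η))) := by ring
  calc ∑ τ : Fin k → J, (∏ t, w (τ t)) *
        (if ∀ i, |∑ j, w j * a j i - (∑ t, a (τ t) i) / k| ≤ η then (0 : ℝ) else 1)
      ≤ ∑ τ, W τ * G τ * Real.exp (-(s * (k * η))) := Finset.sum_le_sum fun τ _ => hpt τ
    _ = (∑ τ, W τ * G τ) * Real.exp (-(s * (k * η))) := by rw [Finset.sum_mul]
    _ ≤ B * Real.exp (-(s * (k * η))) :=
        mul_le_mul_of_nonneg_right hsum (Real.exp_pos _).le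
    _ = 2 * (Fintype.card ι : ℝ) * Real.exp (-(k * η ^ 2 / (2 * R ^ 2))) := by
        rw [hB, mul_assoc, ← Real.exp_add]
        congr 2
        rw [hs]
        field_simp
        ring

/-- **Counting lemma.**  Let `μ` be a probability weight on a finite set `X`, let the functions
`p s : X → [-1, 1]` be pairwise more than `2 η` apart in one of the pairings
`∑ x, μ x * p s x * c j x` with finitely many test functions `c j : X → [-R, R]`, and let
`k ≥ 2 R² log (4 |ι|) / η²`.  Then there are at most `2^(k+1)` functions `p s`. -/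
theorem sampling_count {X ι Sx : Type*} [Fintype X] [Fintype ι] [Fintype Sx]
    (μ : X → ℝ) (hμ0 : ∀ x, 0 ≤ μ x) (hμ1 : ∑ x, μ x = 1)
    (p : Sx → X → ℝ) (hp : ∀ s x, |p s x| ≤ 1)
    (c : ι → X → ℝ) (R : ℝ) (hR : 0 < R) (hc : ∀ j x, |c j x| ≤ R)
    (η : ℝ) (hη : 0 < η)
    (hsep : ∀ s s', s ≠ s' →
      ∃ j, 2 * η < |∑ x, μ x * p s x * c j x - ∑ x, μ x * p s' x * c j x|)
    (k : ℕ) (hk : 0 < k)
    (hkη : 2 * R ^ 2 * Real.log (4 * (Fintype.card ι : ℝ)) ≤ η ^ 2 * k) :
    Fintype.card Sx ≤ 2 ^ (k + 1) := by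
  classical
  -- trivial case: no test functions
  rcases isEmpty_or_nonempty ι with hι | hι
  · have hsub : Subsingleton Sx := ⟨fun s s' => by
      by_contra hne
      obtain ⟨j, _⟩ := hsep s s' hne
      exact hι.elim j⟩
    calc Fintype.card Sx ≤ 1 := Fintype.card_le_one_iff_subsingleton.mpr hsub
      _ ≤ 2 ^ (k + 1) := Nat.one_le_two_pow
  have hkpos : (0 : ℝ) < k := by exact_mod_cast hk
  have hcard : (1 : ℝ) ≤ Fintype.card ι := by exact_mod_cast Fintype.card_pos
  -- sign of a Boolean
  set sg : Bool → ℝ := fun b => if b then 1 else -1 with hsg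
  have hsg1 : ∀ b, |sg b| = 1 := by
    intro b
    cases b <;> simp [hsg]
  -- the sampling distribution for `s` and the signed test functions
  set w : Sx → X × Bool → ℝ := fun s z => μ z.1 * ((1 + sg z.2 * p s z.1) / 2) with hw
  set a : X × Bool → ι → ℝ := fun z j => sg z.2 * c j z.1 with ha
  have hq0 : ∀ s (z : X × Bool), 0 ≤ (1 + sg z.2 * p s z.1) / 2 := by
    intro s z
    have h : |sg z.2 * p s z.1| ≤ 1 := by
      rw [abs_mul, hsg1, one_mul]
      exact hp s z.1
    have h2 := abs_le.mp h
    linarith [h2.1]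
  have hq1 : ∀ s (z : X × Bool), (1 + sg z.2 * p s z.1) / 2 ≤ 1 := by
    intro s z
    have h : |sg z.2 * p s z.1| ≤ 1 := by
      rw [abs_mul, hsg1, one_mul]
      exact hp s z.1
    have h2 := abs_le.mp h
    linarith [h2.2]
  have hw0 : ∀ s z, 0 ≤ w s z := fun s z => mul_nonneg (hμ0 z.1) (hq0 s z)
  have hw1 : ∀ s, ∑ z, w s z = 1 := by
    intro s
    rw [Fintype.sum_prod_type, ← hμ1]
    apply Finset.sum_congr rfl
    intro x _
    simp only [hw, Fintype.sum_bool, hsg]
    simp
    ring
  have haR : ∀ z j, |a z j| ≤ R := by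
    intro z j
    simp only [ha]
    rw [abs_mul, hsg1, one_mul]
    exact hc j z.1
  have hmean : ∀ s j, ∑ z, w s z * a z j = ∑ x, μ x * p s x * c j x := by
    intro s j
    rw [Fintype.sum_prod_type]
    apply Finset.sum_congr rfl
    intro x _
    simp only [hw, ha, Fintype.sum_bool, hsg]
    simp
    ring
  -- good samples, their weights, and the weights of the underlying points
  set good : Sx → (Fin k → X × Bool) → Prop := fun s τ =>
    ∀ j, |∑ z, w s z * a z j - (∑ t, a (τ t) j) / k| ≤ η with hgood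
  set W : Sx → (Fin k → X × Bool) → ℝ := fun s τ => ∏ t, w s (τ t) with hW
  set U : (Fin k → X × Bool) → ℝ := fun τ => ∏ t, μ (τ t).1 with hU
  have hWU : ∀ s τ, W s τ ≤ U τ := by
    intro s τ
    apply Finset.prod_le_prod (fun t _ => hw0 s (τ t))
    intro t _
    calc w s (τ t) = μ (τ t).1 * ((1 + sg (τ t).2 * p s (τ t).1) / 2) := rfl
      _ ≤ μ (τ t).1 * 1 := mul_le_mul_of_nonneg_left (hq1 s (τ t)) (hμ0 _)
      _ = μ (τ t).1 := mul_one _
  have hWsum : ∀ s, ∑ τ, W s τ = 1 := by
    intro s
    simp only [hW]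
    rw [sum_prod_weight, hw1, one_pow]
  have hUsum : ∑ τ, U τ = 2 ^ k := by
    have h2 : ∑ z : X × Bool, μ z.1 = 2 := by
      rw [Fintype.sum_prod_type]
      simp only [Fintype.sum_bool]
      rw [Finset.sum_add_distrib, hμ1]
      norm_num
    simp only [hU]
    rw [sum_prod_weight k (fun z : X × Bool => μ z.1), h2]
  -- each `s` has good samples of total weight at least `1/2`
  have hhalf : ∀ s, (1 / 2 : ℝ) ≤ ∑ τ, W s τ * (if good s τ then (1 : ℝ) else 0) := by
    intro s
    have htail : ∑ τ, W s τ * (if good s τ then (0 : ℝ) else 1)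
        ≤ 2 * (Fintype.card ι : ℝ) * Real.exp (-(k * η ^ 2 / (2 * R ^ 2))) :=
      maurey_tail (w s) (hw0 s) (hw1 s) a R hR haR η hη k hk
    have hbad : 2 * (Fintype.card ι : ℝ) * Real.exp (-(k * η ^ 2 / (2 * R ^ 2))) ≤ 1 / 2 := by
      have h1 : Real.log (4 * (Fintype.card ι : ℝ)) ≤ k * η ^ 2 / (2 * R ^ 2) := by
        rw [le_div_iff₀ (by positivity)]
        linarith
      have h2 : Real.exp (-(k * η ^ 2 / (2 * R ^ 2))) ≤
          Real.exp (-Real.log (4 * (Fintype.card ι : ℝ))) :=
        Real.exp_le_exp.mpr (by linarith)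
      have h3 : Real.exp (-Real.log (4 * (Fintype.card ι : ℝ))) =
          (4 * (Fintype.card ι : ℝ))⁻¹ := by
        rw [Real.exp_neg, Real.exp_log (by positivity)]
      rw [h3] at h2
      calc 2 * (Fintype.card ι : ℝ) * Real.exp (-(k * η ^ 2 / (2 * R ^ 2)))
          ≤ 2 * (Fintype.card ι : ℝ) * (4 * (Fintype.card ι : ℝ))⁻¹ :=
            mul_le_mul_of_nonneg_left h2 (by positivity)
        _ = 1 / 2 := by
            field_simp
            ring
    have hsplit : ∑ τ, W s τ * (if good s τ then (1 : ℝ) else 0) +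
        ∑ τ, W s τ * (if good s τ then (0 : ℝ) else 1) = 1 := by
      rw [← Finset.sum_add_distrib]
      have hpt : ∀ τ, W s τ * (if good s τ then (1 : ℝ) else 0) +
          W s τ * (if good s τ then (0 : ℝ) else 1) = W s τ := by
        intro τ
        by_cases h : good s τ
        · rw [if_pos h, if_pos h]
          ring
        · rw [if_neg h, if_neg h]
          ring
      rw [Finset.sum_congr rfl (fun τ _ => hpt τ)]
      exact hWsum s
    linarith
  -- a sample is good for at most one `s`
  have hone : ∀ τ, ∑ s, W s τ * (if good s τ then (1 : ℝ) else 0) ≤ U τ := by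
    intro τ
    by_cases hex : ∃ s₀, good s₀ τ
    · obtain ⟨s₀, hs₀⟩ := hex
      have huniq : ∀ s, s ≠ s₀ → ¬ good s τ := by
        intro s hne hgs
        obtain ⟨j, hj⟩ := hsep s s₀ hne
        have h1 := hgs j
        have h2 := hs₀ j
        rw [hmean] at h1 h2
        have h3 := abs_sub_le (∑ x, μ x * p s x * c j x) ((∑ t, a (τ t) j) / k)
          (∑ x, μ x * p s₀ x * c j x)
        rw [abs_sub_comm ((∑ t, a (τ t) j) / k) _] at h3
        linarith
      calc ∑ s, W s τ * (if good s τ then (1 : ℝ) else 0)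
          = W s₀ τ * (if good s₀ τ then (1 : ℝ) else 0) := by
            apply Finset.sum_eq_single s₀
            · intro s _ hne
              rw [if_neg (huniq s hne), mul_zero]
            · intro h
              exact absurd (Finset.mem_univ s₀) h
        _ = W s₀ τ := by rw [if_pos hs₀, mul_one]
        _ ≤ U τ := hWU s₀ τ
    · have hno : ∀ s, ¬ good s τ := fun s h => hex ⟨s, h⟩
      calc ∑ s, W s τ * (if good s τ then (1 : ℝ) else 0) = 0 := by
            apply Finset.sum_eq_zero
            intro s _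
            rw [if_neg (hno s), mul_zero]
        _ ≤ U τ := Finset.prod_nonneg fun t _ => hμ0 _
  have hfinal : (Fintype.card Sx : ℝ) / 2 ≤ 2 ^ k := by
    calc (Fintype.card Sx : ℝ) / 2 = ∑ _s : Sx, (1 / 2 : ℝ) := by
          rw [Finset.sum_const, Finset.card_univ, nsmul_eq_mul]
          ring
      _ ≤ ∑ s, ∑ τ, W s τ * (if good s τ then (1 : ℝ) else 0) :=
          Finset.sum_le_sum fun s _ => hhalf s
      _ = ∑ τ, ∑ s, W s τ * (if good s τ then (1 : ℝ) else 0) := Finset.sum_comm
      _ ≤ ∑ τ, U τ := Finset.sum_le_sum fun τ _ => hone τ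
      _ = 2 ^ k := hUsum
  have hreal : (Fintype.card Sx : ℝ) ≤ 2 ^ (k + 1) := by
    rw [pow_succ]
    linarith
  exact_mod_cast hreal

end Vale.Agent.H34
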