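import Vale.Agent.H34.Entropy
import Vale.Agent.H34.Sampling

/-!
# Duality of metric entropy for coordinatewise bounded sets

Supporting file for problem P126.  Let `A, B ⊆ ℝⁿ` with `|x i| ≤ α i` on `A` and `|y i| ≤ β i` on
`B`, and put `R = ∑ i, α i * β i`.  Then, with `B^ε = {z : |⟨y, z⟩| ≤ ε for all y ∈ B}`,
`log N(A, B^ε) ≤ 33 (R/ε)² (1 + log N(B, A^(ε/8)))`.
For origin-symmetric convex bodies `K = A`, `L° = B` this reads
`log N(K, ε L) ≤ 33 (R/ε)² (1 + log N(L°, (ε/8) K°))`.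
-/

namespace Vale.Agent.H34

open Set
open scoped Pointwise

section General

variable {E : Type*} [NormedAddCommGroup E] [InnerProductSpace ℝ E]

omit [InnerProductSpace ℝ E] in
/-- If some finite cover exists, the covering number is attained. -/
theorem coveringNumber_spec_of_cover {A B : Set E} (T₀ : Finset E)
    (hT₀ : A ⊆ ⋃ x ∈ T₀, (x +ᵥ B)) :
    ∃ s : Finset E, s.card = coveringNumber A B ∧ A ⊆ ⋃ x ∈ s, (x +ᵥ B) :=
  Nat.sInf_mem (⟨T₀.card, T₀, rfl, hT₀⟩ :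
    {m : ℕ | ∃ s : Finset E, s.card = m ∧ A ⊆ ⋃ x ∈ s, (x +ᵥ B)}.Nonempty)

/-- For a symmetric set `K`, the set of `z` with `|⟨x, z⟩| ≤ δ` on `K` is `δ K°`. -/
theorem absPolar_eq_smul_polarBody {K : Set E} (hKs : ∀ x ∈ K, -x ∈ K) {δ : ℝ} (hδ : 0 < δ) :
    {z : E | ∀ x ∈ K, |inner ℝ x z| ≤ δ} = δ • polarBody K := by
  ext z
  rw [mem_smul_set_iff_inv_smul_mem₀ hδ.ne']
  constructor
  · intro hz x hx
    rw [real_inner_smul_right, inv_mul_le_iff₀ hδ, mul_one]
    exact (le_abs_self _).trans (hz x hx)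
  · intro hz x hx
    have h1 := hz x hx
    have h2 := hz (-x) (hKs x hx)
    rw [real_inner_smul_right, inv_mul_le_iff₀ hδ, mul_one] at h1 h2
    rw [inner_neg_left] at h2
    rw [abs_le]
    constructor <;> linarith

end General

variable {n : ℕ}

/-- The inner product of `ℝⁿ` in coordinates. -/
theorem inner_eq_sum_mul (x y : EuclideanSpace ℝ (Fin n)) : inner ℝ x y = ∑ i, x i * y i := by
  rw [PiLp.inner_apply]
  apply Finset.sum_congr rfl
  intro i _
  simp [mul_comm]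

/-- A set with bounded coordinates lies in a closed ball. -/
theorem subset_closedBall_of_coord_le (A : Set (EuclideanSpace ℝ (Fin n))) (α : Fin n → ℝ)
    (hA : ∀ x ∈ A, ∀ i, |x i| ≤ α i) :
    A ⊆ Metric.closedBall (0 : EuclideanSpace ℝ (Fin n)) (Real.sqrt (∑ i, α i ^ 2)) := by
  intro x hx
  rw [Metric.mem_closedBall, dist_zero_right, EuclideanSpace.norm_eq]
  apply Real.sqrt_le_sqrt
  apply Finset.sum_le_sum
  intro i _
  rw [Real.norm_eq_abs]
  have h := hA x hx i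
  have h0 := abs_nonneg (x i)
  nlinarith

/-- Families in `A` that are `ε`-separated by elements of `B` are small, when `B` is covered by
few translates of `{z : |⟨x, z⟩| ≤ ε/8 on A}`. -/
theorem card_separated_le (A B : Set (EuclideanSpace ℝ (Fin n))) (α β : Fin n → ℝ)
    (hA : ∀ x ∈ A, ∀ i, |x i| ≤ α i) (hB : ∀ y ∈ B, ∀ i, |y i| ≤ β i)
    (ε : ℝ) (hε : 0 < ε) (hRpos : 0 < ∑ i, α i * β i)
    (T : Finset (EuclideanSpace ℝ (Fin n)))
    (hT : B ⊆ ⋃ c ∈ T, (c +ᵥ {z : EuclideanSpace ℝ (Fin n) | ∀ x ∈ A, |inner ℝ x z| ≤ ε / 8}))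
    (k : ℕ) (hk : 0 < k)
    (hkε : 32 * (∑ i, α i * β i) ^ 2 * Real.log (4 * (T.card : ℝ)) ≤ ε ^ 2 * k)
    (F : Finset (EuclideanSpace ℝ (Fin n))) (hFA : ∀ f ∈ F, f ∈ A)
    (hFsep : ∀ f ∈ F, ∀ f' ∈ F, f ≠ f' → ∃ y ∈ B, ε < |inner ℝ y (f - f')|) :
    F.card ≤ 2 ^ (k + 1) := by
  classical
  -- trivial case
  rcases Nat.lt_or_ge F.card 2 with hsmall | hbig
  · calc F.card ≤ 1 := by omega
      _ ≤ 2 ^ (k + 1) := Nat.one_le_two_pow
  obtain ⟨f₁, hf₁, f₂, hf₂, hne⟩ := Finset.one_lt_card.mp (by omega : 1 < F.card)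
  obtain ⟨y₀, hy₀, _⟩ := hFsep f₁ hf₁ f₂ hf₂ hne
  have hα0 : ∀ i, 0 ≤ α i := fun i => (abs_nonneg _).trans (hA f₁ (hFA f₁ hf₁) i)
  have hβ0 : ∀ i, 0 ≤ β i := fun i => (abs_nonneg _).trans (hB y₀ hy₀ i)
  set R : ℝ := ∑ i, α i * β i with hRdef
  set S : Set (EuclideanSpace ℝ (Fin n)) := {z | ∀ x ∈ A, |inner ℝ x z| ≤ ε / 8} with hS
  -- centres inside `B`
  set T' : Finset (EuclideanSpace ℝ (Fin n)) := T.filter (fun c => ∃ y ∈ B, y ∈ c +ᵥ S) with hT'
  let g : EuclideanSpace ℝ (Fin n) → EuclideanSpace ℝ (Fin n) := fun c =>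
    if h : ∃ y ∈ B, y ∈ c +ᵥ S then h.choose else 0
  have hg : ∀ c ∈ T', g c ∈ B ∧ g c ∈ c +ᵥ S := by
    intro c hc
    rw [hT', Finset.mem_filter] at hc
    have hgc : g c = hc.2.choose := dif_pos hc.2
    rw [hgc]
    exact hc.2.choose_spec
  have hclose : ∀ c ∈ T', ∀ y ∈ B, y ∈ c +ᵥ S → ∀ x ∈ A, |inner ℝ x (y - g c)| ≤ ε / 4 := by
    intro c hc y hy hyc x hx
    obtain ⟨_, hgc⟩ := hg c hc
    rw [mem_vadd_set] at hyc hgc
    obtain ⟨z₁, hz₁, hz₁eq⟩ := hyc
    obtain ⟨z₂, hz₂, hz₂eq⟩ := hgc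
    rw [vadd_eq_add] at hz₁eq hz₂eq
    have h1 := hz₁ x hx
    have h2 := hz₂ x hx
    have e : y - g c = z₁ - z₂ := by
      rw [← hz₁eq, ← hz₂eq]
      abel
    rw [e, inner_sub_right]
    have h3 := abs_sub (inner ℝ x z₁) (inner ℝ x z₂)
    linarith
  -- the probability weight on the coordinates
  set μ : Fin n → ℝ := fun i => α i * β i / R with hμ
  have hμ0 : ∀ i, 0 ≤ μ i := fun i => div_nonneg (mul_nonneg (hα0 i) (hβ0 i)) hRpos.le
  have hμ1 : ∑ i, μ i = 1 := by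
    simp only [hμ]
    rw [← Finset.sum_div]
    exact div_self hRpos.ne'
  have hpair : ∀ c ∈ T', ∀ f ∈ A,
      ∑ i, μ i * (f i / α i) * (R * (g c i / β i)) = inner ℝ f (g c) := by
    intro c hc f hf
    rw [inner_eq_sum_mul]
    apply Finset.sum_congr rfl
    intro i _
    have hfi := hA f hf i
    have hgi := hB _ (hg c hc).1 i
    rcases eq_or_lt_of_le (hα0 i) with h0 | hαpos
    · have hz : f i = 0 := by
        rw [← h0] at hfi
        exact abs_nonpos_iff.mp hfi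
      simp [hz]
    rcases eq_or_lt_of_le (hβ0 i) with h0 | hβpos
    · have hz : g c i = 0 := by
        rw [← h0] at hgi
        exact abs_nonpos_iff.mp hgi
      simp [hz]
    simp only [hμ]
    field_simp
  have hcount := sampling_count (X := Fin n) (ι := T') (Sx := F) μ hμ0 hμ1
    (fun s i => (s : EuclideanSpace ℝ (Fin n)) i / α i) ?_
    (fun j i => R * (g (j : EuclideanSpace ℝ (Fin n)) i / β i)) R hRpos ?_
    (ε / 4) (by positivity) ?_ k hk ?_
  · rw [Fintype.card_coe] at hcount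
    exact hcount
  · intro s i
    have h := hA s (hFA s s.2) i
    rcases eq_or_lt_of_le (hα0 i) with h0 | hpos
    · rw [← h0, div_zero, abs_zero]
      exact zero_le_one
    · rw [abs_div, abs_of_pos hpos, div_le_one hpos]
      exact h
  · intro j i
    have h := hB _ (hg j j.2).1 i
    rw [abs_mul, abs_of_pos hRpos]
    have h1 : |g (j : EuclideanSpace ℝ (Fin n)) i / β i| ≤ 1 := by
      rcases eq_or_lt_of_le (hβ0 i) with h0 | hpos
      · rw [← h0, div_zero, abs_zero]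
        exact zero_le_one
      · rw [abs_div, abs_of_pos hpos, div_le_one hpos]
        exact h
    nlinarith
  · intro s s' hss'
    have hne' : (s : EuclideanSpace ℝ (Fin n)) ≠ s' := fun h => hss' (Subtype.ext h)
    obtain ⟨y, hy, hysep⟩ := hFsep s s.2 s' s'.2 hne'
    have hmem := hT hy
    simp only [mem_iUnion, exists_prop] at hmem
    obtain ⟨c, hc, hyc⟩ := hmem
    have hcT' : c ∈ T' := by
      rw [hT', Finset.mem_filter]
      exact ⟨hc, y, hy, hyc⟩
    refine ⟨⟨c, hcT'⟩, ?_⟩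
    simp only
    rw [hpair c hcT' s (hFA s s.2), hpair c hcT' s' (hFA s' s'.2), ← inner_sub_left]
    have h1 := hclose c hcT' y hy hyc s (hFA s s.2)
    have h2 := hclose c hcT' y hy hyc s' (hFA s' s'.2)
    have e : inner ℝ ((s : EuclideanSpace ℝ (Fin n)) - s') (g c)
        = inner ℝ y ((s : EuclideanSpace ℝ (Fin n)) - s')
          - (inner ℝ (s : EuclideanSpace ℝ (Fin n)) (y - g c)
            - inner ℝ (s' : EuclideanSpace ℝ (Fin n)) (y - g c)) := by
      rw [inner_sub_left, inner_sub_right, inner_sub_right, inner_sub_right,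
        real_inner_comm (s : EuclideanSpace ℝ (Fin n)) y,
        real_inner_comm (s' : EuclideanSpace ℝ (Fin n)) y]
      ring
    rw [e]
    have h3 := abs_sub_abs_le_abs_sub (inner ℝ y ((s : EuclideanSpace ℝ (Fin n)) - s'))
      (inner ℝ (s : EuclideanSpace ℝ (Fin n)) (y - g c)
        - inner ℝ (s' : EuclideanSpace ℝ (Fin n)) (y - g c))
    have h4 := abs_sub (inner ℝ (s : EuclideanSpace ℝ (Fin n)) (y - g c))
      (inner ℝ (s' : EuclideanSpace ℝ (Fin n)) (y - g c))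
    linarith
  · rw [Fintype.card_coe]
    have hT'card : T'.card ≤ T.card := Finset.card_filter_le _ _
    rcases Nat.eq_zero_or_pos T'.card with h0 | hpos
    · rw [h0]
      simp
      positivity
    · have hpos' : (0 : ℝ) < T'.card := by exact_mod_cast hpos
      have hle : (T'.card : ℝ) ≤ T.card := by exact_mod_cast hT'card
      have hlog : Real.log (4 * (T'.card : ℝ)) ≤ Real.log (4 * (T.card : ℝ)) :=
        Real.log_le_log (by positivity) (by linarith)
      nlinarith [sq_nonneg R]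

/-- A maximal separated family is a cover. -/
theorem exists_cover_of_bounded (A B : Set (EuclideanSpace ℝ (Fin n))) (α β : Fin n → ℝ)
    (hA : ∀ x ∈ A, ∀ i, |x i| ≤ α i) (hB : ∀ y ∈ B, ∀ i, |y i| ≤ β i)
    (ε : ℝ) (hε : 0 < ε) (hRpos : 0 < ∑ i, α i * β i)
    (T : Finset (EuclideanSpace ℝ (Fin n)))
    (hT : B ⊆ ⋃ c ∈ T, (c +ᵥ {z : EuclideanSpace ℝ (Fin n) | ∀ x ∈ A, |inner ℝ x z| ≤ ε / 8}))
    (k : ℕ) (hk : 0 < k)
    (hkε : 32 * (∑ i, α i * β i) ^ 2 * Real.log (4 * (T.card : ℝ)) ≤ ε ^ 2 * k) :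
    ∃ F : Finset (EuclideanSpace ℝ (Fin n)), F.card ≤ 2 ^ (k + 1) ∧
      A ⊆ ⋃ f ∈ F, (f +ᵥ {z : EuclideanSpace ℝ (Fin n) | ∀ y ∈ B, |inner ℝ y z| ≤ ε}) := by
  classical
  set Sep : Finset (EuclideanSpace ℝ (Fin n)) → Prop := fun F =>
    (∀ f ∈ F, f ∈ A) ∧ ∀ f ∈ F, ∀ f' ∈ F, f ≠ f' → ∃ y ∈ B, ε < |inner ℝ y (f - f')| with hSep
  have hbound : ∀ F, Sep F → F.card ≤ 2 ^ (k + 1) := fun F hF =>
    card_separated_le A B α β hA hB ε hε hRpos T hT k hk hkε F hF.1 hF.2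
  set P : ℕ → Prop := fun m => ∃ F, Sep F ∧ F.card = m with hP
  have hP0 : P 0 := ⟨∅, ⟨by simp, by simp⟩, rfl⟩
  obtain ⟨F, hF, hcard⟩ := Nat.findGreatest_spec (Nat.zero_le (2 ^ (k + 1))) hP0
  refine ⟨F, hbound F hF, ?_⟩
  intro x hx
  by_contra hcon
  simp only [mem_iUnion, exists_prop, not_exists, not_and] at hcon
  have hfar : ∀ f ∈ F, ∃ y ∈ B, ε < |inner ℝ y (x - f)| := by
    intro f hf
    by_contra hno
    apply hcon f hf
    rw [mem_vadd_set]
    refine ⟨x - f, ?_, by simp⟩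
    intro y hy
    by_contra hlt
    exact hno ⟨y, hy, not_le.mp hlt⟩
  have hxF : x ∉ F := by
    intro hxF
    obtain ⟨y, _, hy⟩ := hfar x hxF
    rw [sub_self, inner_zero_right, abs_zero] at hy
    linarith
  have hSep' : Sep (insert x F) := by
    refine ⟨?_, ?_⟩
    · intro f hf
      rw [Finset.mem_insert] at hf
      rcases hf with hf | hf
      · rw [hf]
        exact hx
      · exact hF.1 f hf
    · intro f hf f' hf' hne
      rw [Finset.mem_insert] at hf hf'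
      rcases hf with hf | hf <;> rcases hf' with hf' | hf'
      · rw [hf, hf'] at hne
        exact absurd rfl hne
      · rw [hf]
        exact hfar f' hf'
      · rw [hf']
        obtain ⟨y, hy, hlt⟩ := hfar f hf
        refine ⟨y, hy, ?_⟩
        rw [← neg_sub, inner_neg_right, abs_neg]
        exact hlt
      · exact hF.2 f hf f' hf' hne
  have hPn : P (Nat.findGreatest P (2 ^ (k + 1)) + 1) :=
    ⟨insert x F, hSep', by rw [Finset.card_insert_of_notMem hxF, hcard]⟩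
  have hle : Nat.findGreatest P (2 ^ (k + 1)) + 1 ≤ 2 ^ (k + 1) := by
    have h := hbound _ hSep'
    rw [Finset.card_insert_of_notMem hxF, hcard] at h
    exact h
  have h := Nat.le_findGreatest hle hPn
  omega

/-- **Duality of metric entropy for coordinatewise bounded sets.**  If `|x i| ≤ α i` on `A` and
`|y i| ≤ β i` on `B`, then
`log N(A, {z : |⟨y, z⟩| ≤ ε on B}) ≤ 33 (∑ α i β i / ε)² (1 + log N(B, {z : |⟨x, z⟩| ≤ ε/8 on A}))`.
-/
theorem bounded_duality_sets (A B : Set (EuclideanSpace ℝ (Fin n))) (α β : Fin n → ℝ)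
    (hA : ∀ x ∈ A, ∀ i, |x i| ≤ α i) (hB : ∀ y ∈ B, ∀ i, |y i| ≤ β i)
    (ε : ℝ) (hε : 0 < ε) :
    Real.log (coveringNumber A
        {z : EuclideanSpace ℝ (Fin n) | ∀ y ∈ B, |inner ℝ y z| ≤ ε} : ℝ) ≤
      33 * ((∑ i, α i * β i) / ε) ^ 2 *
        (1 + Real.log (coveringNumber B
          {z : EuclideanSpace ℝ (Fin n) | ∀ x ∈ A, |inner ℝ x z| ≤ ε / 8} : ℝ)) := by
  classical
  set SB : Set (EuclideanSpace ℝ (Fin n)) := {z | ∀ y ∈ B, |inner ℝ y z| ≤ ε} with hSB
  set SA : Set (EuclideanSpace ℝ (Fin n)) := {z | ∀ x ∈ A, |inner ℝ x z| ≤ ε / 8} with hSA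
  set m : ℕ := coveringNumber B SA with hm
  set R : ℝ := ∑ i, α i * β i with hRdef
  have hℓ0 : 0 ≤ Real.log (m : ℝ) := Real.log_natCast_nonneg m
  have hRHS0 : 0 ≤ 33 * (R / ε) ^ 2 * (1 + Real.log (m : ℝ)) := by positivity
  -- trivial case: every pairing is at most `ε`
  by_cases htriv : ∀ x ∈ A, ∀ y ∈ B, |inner ℝ y x| ≤ ε
  · have hcov : A ⊆ ⋃ f ∈ ({0} : Finset (EuclideanSpace ℝ (Fin n))), (f +ᵥ SB) := by
      intro x hx
      simp only [Finset.mem_singleton, iUnion_iUnion_eq_left, zero_vadd]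
      exact fun y hy => htriv x hx y hy
    have h1 : coveringNumber A SB ≤ 1 := (coveringNumber_le _ hcov).trans (by simp)
    have h2 : Real.log (coveringNumber A SB : ℝ) ≤ 0 :=
      Real.log_nonpos (Nat.cast_nonneg _) (by exact_mod_cast h1)
    linarith
  -- main case
  have htriv' : ∃ x ∈ A, ∃ y ∈ B, ε < |inner ℝ y x| := by
    by_contra hno
    apply htriv
    intro x hx y hy
    by_contra hlt
    exact hno ⟨x, hx, y, hy, not_le.mp hlt⟩
  obtain ⟨x₀, hx₀, y₀, hy₀, hbig⟩ := htriv'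
  have hα0 : ∀ i, 0 ≤ α i := fun i => (abs_nonneg _).trans (hA x₀ hx₀ i)
  have hβ0 : ∀ i, 0 ≤ β i := fun i => (abs_nonneg _).trans (hB y₀ hy₀ i)
  have hRε : ε < R := by
    calc ε < |inner ℝ y₀ x₀| := hbig
      _ = |∑ i, y₀ i * x₀ i| := by rw [inner_eq_sum_mul]
      _ ≤ ∑ i, |y₀ i * x₀ i| := Finset.abs_sum_le_sum_abs _ _
      _ ≤ ∑ i, α i * β i := Finset.sum_le_sum (fun i _ => by
          rw [abs_mul, mul_comm]
          exact mul_le_mul (hA x₀ hx₀ i) (hB y₀ hy₀ i) (abs_nonneg _) (hα0 i))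
  have hRpos : 0 < R := hε.trans hRε
  have hρ1 : 1 ≤ (R / ε) ^ 2 := by
    have h1 : 1 ≤ R / ε := by
      rw [le_div_iff₀ hε]
      linarith
    nlinarith
  -- a finite cover of `B` realising the covering number
  have hSAint : (interior SA).Nonempty := by
    refine ⟨0, ?_⟩
    rw [mem_interior_iff_mem_nhds, Metric.mem_nhds_iff]
    have hAball := subset_closedBall_of_coord_le A α hA
    set ρA : ℝ := Real.sqrt (∑ i, α i ^ 2) with hρA
    have hρA0 : 0 ≤ ρA := Real.sqrt_nonneg _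
    refine ⟨ε / 8 / (ρA + 1), by positivity, ?_⟩
    intro z hz x hx
    rw [Metric.mem_ball, dist_zero_right] at hz
    have hx' := hAball hx
    rw [Metric.mem_closedBall, dist_zero_right] at hx'
    calc |inner ℝ x z| ≤ ‖x‖ * ‖z‖ := abs_real_inner_le_norm x z
      _ ≤ ρA * (ε / 8 / (ρA + 1)) := mul_le_mul hx' hz.le (norm_nonneg _) hρA0
      _ ≤ ε / 8 := by
        rw [← mul_div_assoc, div_le_iff₀ (by positivity)]
        nlinarith
  obtain ⟨T₀, hT₀⟩ := exists_finset_cover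
    (isCompact_closedBall (0 : EuclideanSpace ℝ (Fin n)) (Real.sqrt (∑ i, β i ^ 2))) hSAint
  obtain ⟨T, hTc, hT⟩ := coveringNumber_spec_of_cover T₀
    ((subset_closedBall_of_coord_le B β hB).trans hT₀)
  have hm1 : 1 ≤ m := by
    have h := hT hy₀
    simp only [mem_iUnion, exists_prop] at h
    obtain ⟨c, hc, _⟩ := h
    rw [hm, ← hTc]
    exact Finset.card_pos.mpr ⟨c, hc⟩
  have hm1' : (1 : ℝ) ≤ m := by exact_mod_cast hm1
  have hlog4m : Real.log (4 * (m : ℝ)) = 2 * Real.log 2 + Real.log (m : ℝ) := by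
    rw [Real.log_mul (by norm_num) (by positivity)]
    have h4 : Real.log (4 : ℝ) = 2 * Real.log 2 := by
      rw [show (4 : ℝ) = 2 ^ 2 by norm_num, Real.log_pow]
      norm_num
    rw [h4]
  have hl2a := Real.log_two_gt_d9
  have hl2b := Real.log_two_lt_d9
  have hlog4m_pos : 0 < Real.log (4 * (m : ℝ)) := by
    rw [hlog4m]
    linarith
  set k : ℕ := ⌈32 * (R / ε) ^ 2 * Real.log (4 * (m : ℝ))⌉₊ with hkdef
  have hk : 0 < k := Nat.ceil_pos.mpr (by positivity)
  have hkle : 32 * (R / ε) ^ 2 * Real.log (4 * (m : ℝ)) ≤ k := Nat.le_ceil _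
  have hklt : (k : ℝ) < 32 * (R / ε) ^ 2 * Real.log (4 * (m : ℝ)) + 1 :=
    Nat.ceil_lt_add_one (by positivity)
  have hkε : 32 * R ^ 2 * Real.log (4 * (T.card : ℝ)) ≤ ε ^ 2 * k := by
    rw [hTc]
    have e : 32 * R ^ 2 * Real.log (4 * (m : ℝ))
        = ε ^ 2 * (32 * (R / ε) ^ 2 * Real.log (4 * (m : ℝ))) := by
      field_simp
    rw [e]
    exact mul_le_mul_of_nonneg_left hkle (by positivity)
  obtain ⟨F, hFc, hF⟩ := exists_cover_of_bounded A B α β hA hB ε hε hRpos T hT k hk hkε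
  have hN : coveringNumber A SB ≤ 2 ^ (k + 1) := (coveringNumber_le F hF).trans hFc
  -- the numerical estimate
  have hnum : ((k : ℝ) + 1) * Real.log 2 ≤ 33 * (R / ε) ^ 2 * (1 + Real.log (m : ℝ)) := by
    set ρ2 : ℝ := (R / ε) ^ 2 with hρ2
    set ℓ : ℝ := Real.log (m : ℝ) with hℓ
    have h1 : (k : ℝ) + 1 ≤ ρ2 * (64 * Real.log 2 + 32 * ℓ + 2) := by
      rw [hlog4m] at hklt
      nlinarith
    have h2 : Real.log 2 * (64 * Real.log 2 + 32 * ℓ + 2) ≤ 33 * (1 + ℓ) := by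
      nlinarith
    calc ((k : ℝ) + 1) * Real.log 2
        ≤ ρ2 * (64 * Real.log 2 + 32 * ℓ + 2) * Real.log 2 :=
          mul_le_mul_of_nonneg_right h1 (by linarith)
      _ = ρ2 * (Real.log 2 * (64 * Real.log 2 + 32 * ℓ + 2)) := by ring
      _ ≤ ρ2 * (33 * (1 + ℓ)) := mul_le_mul_of_nonneg_left h2 (by positivity)
      _ = 33 * ρ2 * (1 + ℓ) := by ring
  rcases Nat.eq_zero_or_pos (coveringNumber A SB) with h0 | hpos
  · rw [h0]
    simp only [Nat.cast_zero, Real.log_zero]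
    exact hRHS0
  · have hle : Real.log (coveringNumber A SB : ℝ) ≤ Real.log ((2 : ℝ) ^ (k + 1)) :=
      Real.log_le_log (by exact_mod_cast hpos) (by exact_mod_cast hN)
    rw [Real.log_pow] at hle
    push_cast at hle
    linarith

/-- **Duality of metric entropy for coordinatewise bounded convex bodies.**  If `|x i| ≤ α i` on
`K` and `|y i| ≤ β i` on `L°`, then both duality inequalities hold with scale constant `8` and
factor `33 (∑ α i β i / ε)²`. -/
theorem bounded_duality_bodies {K L : Set (EuclideanSpace ℝ (Fin n))}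
    (hKs : ∀ x ∈ K, -x ∈ K)
    (hLc : IsCompact L) (hLv : Convex ℝ L) (hLi : (interior L).Nonempty)
    (hLs : ∀ x ∈ L, -x ∈ L)
    (α β : Fin n → ℝ) (hK : ∀ x ∈ K, ∀ i, |x i| ≤ α i)
    (hL : ∀ y ∈ polarBody L, ∀ i, |y i| ≤ β i) (ε : ℝ) (hε : 0 < ε) :
    Real.log (coveringNumber K (ε • L) : ℝ) ≤
        33 * ((∑ i, α i * β i) / ε) ^ 2 *
          (1 + Real.log (coveringNumber (polarBody L) ((ε / 8) • polarBody K) : ℝ)) ∧
    Real.log (coveringNumber (polarBody L) (ε • polarBody K) : ℝ) ≤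
        33 * ((∑ i, α i * β i) / ε) ^ 2 *
          (1 + Real.log (coveringNumber K ((ε / 8) • L) : ℝ)) := by
  have h0L : (0 : EuclideanSpace ℝ (Fin n)) ∈ L := zero_mem_of_convex_symm hLv hLi hLs
  have hLL : polarBody (polarBody L) = L := polarBody_polarBody hLv hLc.isClosed h0L
  have hsL := polarBody_symm hLs
  have hε8 : (0 : ℝ) < ε / 8 := by positivity
  constructor
  · have h := bounded_duality_sets K (polarBody L) α β hK hL ε hε
    rw [absPolar_eq_smul_polarBody hsL hε, hLL, absPolar_eq_smul_polarBody hKs hε8] at h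
    exact h
  · have h := bounded_duality_sets (polarBody L) K β α hL hK ε hε
    rw [absPolar_eq_smul_polarBody hKs hε, absPolar_eq_smul_polarBody hsL hε8, hLL] at h
    have e : ∑ i, β i * α i = ∑ i, α i * β i :=
      Finset.sum_congr rfl (fun i _ => mul_comm _ _)
    rw [e] at h
    exact h

end Vale.Agent.H34
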