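import Vale.Agent.H34.EntropyDefs

/-!
# Covering numbers and polars: a dimension-free weak duality

Supporting file for problem P126 (duality conjecture for metric entropy).
-/

namespace Vale.Agent.H34

open Set MeasureTheory
open scoped Pointwise

variable {E : Type*} [NormedAddCommGroup E] [InnerProductSpace ℝ E]

theorem abs_inner_le_one_of_mem_polarBody {L : Set E} (hLs : ∀ x ∈ L, -x ∈ L)
    {y : E} (hy : y ∈ polarBody L) {l : E} (hl : l ∈ L) : |inner ℝ l y| ≤ 1 := by
  rw [abs_le]
  refine ⟨?_, hy l hl⟩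
  have h := hy (-l) (hLs l hl)
  rw [inner_neg_left] at h
  linarith

/-- One-dimensional counting: an interval `[-M, M]` covered by `m` intervals of length `2`
has `M ≤ m`. -/
theorem le_card_of_Icc_subset_biUnion {ι : Type*} (s : Finset ι) (c : ι → ℝ) (M : ℝ)
    (h : Icc (-M) M ⊆ ⋃ i ∈ s, Icc (c i - 1) (c i + 1)) : M ≤ s.card := by
  have h1 : volume (Icc (-M) M) ≤ ∑ i ∈ s, volume (Icc (c i - 1) (c i + 1)) :=
    (measure_mono h).trans (measure_biUnion_finset_le s _)
  simp only [Real.volume_Icc] at h1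
  have h2 : ∀ i ∈ s, ENNReal.ofReal (c i + 1 - (c i - 1)) = ENNReal.ofReal 2 := by
    intro i _
    congr 1
    ring
  rw [Finset.sum_congr rfl h2, Finset.sum_const, nsmul_eq_mul] at h1
  have h3 : (s.card : ENNReal) * ENNReal.ofReal 2 = ENNReal.ofReal (s.card * 2) := by
    rw [ENNReal.ofReal_mul (by positivity), ENNReal.ofReal_natCast]
  rw [h3] at h1
  have h4 := (ENNReal.ofReal_le_ofReal_iff (by positivity)).mp h1
  linarith

/-- In the polar of `L`, every functional is bounded by `m` on a balanced set `K` that is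
covered by `m` translates of `L`. -/
theorem abs_inner_le_card {K L : Set E} (hKbal : ∀ k ∈ K, ∀ t : ℝ, |t| ≤ 1 → t • k ∈ K)
    (hLs : ∀ x ∈ L, -x ∈ L) (s : Finset E) (hs : K ⊆ ⋃ x ∈ s, (x +ᵥ L))
    {y : E} (hy : y ∈ polarBody L) {k : E} (hk : k ∈ K) : |inner ℝ k y| ≤ s.card := by
  apply le_card_of_Icc_subset_biUnion s (fun x => inner ℝ x y)
  intro r hr
  obtain ⟨hr1, hr2⟩ := hr
  -- find `t` with `|t| ≤ 1` and `r = t * inner k y`
  obtain ⟨t, ht, hrt⟩ : ∃ t : ℝ, |t| ≤ 1 ∧ r = t * inner ℝ k y := by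
    by_cases h0 : inner ℝ k y = 0
    · refine ⟨0, by simp, ?_⟩
      rw [h0, abs_zero] at hr1 hr2
      simp only [neg_zero] at hr1
      rw [h0]
      linarith
    · refine ⟨r / inner ℝ k y, ?_, by field_simp⟩
      rw [abs_div, div_le_one (abs_pos.mpr h0), abs_le]
      exact ⟨hr1, hr2⟩
  have hmem := hs (hKbal k hk t ht)
  simp only [mem_iUnion, exists_prop] at hmem
  obtain ⟨x, hx, hxl⟩ := hmem
  rw [mem_vadd_set] at hxl
  obtain ⟨l, hl, hxl⟩ := hxl
  rw [vadd_eq_add] at hxl
  have habs := abs_inner_le_one_of_mem_polarBody hLs hy hl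
  rw [abs_le] at habs
  have hin : r = inner ℝ x y + inner ℝ l y := by
    rw [hrt, ← inner_add_left, hxl, real_inner_smul_left]
  simp only [mem_iUnion, exists_prop, mem_Icc]
  exact ⟨x, hx, by linarith, by linarith⟩

/-- The key covering construction: if a balanced set `K` is covered by the translates of a
symmetric set `L` centred at the points of a finite set `s`, then the polar of `L` is covered by at
most `(|s| + 2) ^ (|s| - 1)` translates of `4 K°`. -/
theorem exists_polar_cover {K L : Set E} (hK0 : (0 : E) ∈ K)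
    (hKbal : ∀ k ∈ K, ∀ t : ℝ, |t| ≤ 1 → t • k ∈ K)
    (hLs : ∀ x ∈ L, -x ∈ L) (s : Finset E) (hs : K ⊆ ⋃ x ∈ s, (x +ᵥ L)) :
    ∃ T : Finset E, T.card ≤ (s.card + 2) ^ (s.card - 1) ∧
      polarBody L ⊆ ⋃ y ∈ T, (y +ᵥ ((4 : ℝ) • polarBody K)) := by
  classical
  -- a centre whose translate contains the origin
  have h0 := hs hK0
  simp only [mem_iUnion, exists_prop] at h0
  obtain ⟨x0, hx0s, hx0⟩ := h0
  have hx0L : ∀ y ∈ polarBody L, |inner ℝ x0 y| ≤ 1 := by
    intro y hy
    rw [mem_vadd_set] at hx0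
    obtain ⟨l, hl, hxl⟩ := hx0
    rw [vadd_eq_add] at hxl
    have hx0l : x0 = -l := eq_neg_of_add_eq_zero_left hxl
    rw [hx0l]
    exact abs_inner_le_one_of_mem_polarBody hLs hy (hLs l hl)
  -- the other centres whose translate meets `K`
  set s' : Finset E := (s.erase x0).filter (fun x => ∃ k ∈ K, k ∈ x +ᵥ L) with hs'
  have hs'card : s'.card ≤ s.card - 1 := by
    calc s'.card ≤ (s.erase x0).card := Finset.card_filter_le _ _
      _ = s.card - 1 := Finset.card_erase_of_mem hx0s
  -- bound on the functionals at the centres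
  have hbound : ∀ y ∈ polarBody L, ∀ x ∈ s', |inner ℝ x y| ≤ (s.card : ℝ) + 1 := by
    intro y hy x hx
    rw [hs', Finset.mem_filter] at hx
    obtain ⟨_, k, hk, hkx⟩ := hx
    rw [mem_vadd_set] at hkx
    obtain ⟨l, hl, hkl⟩ := hkx
    rw [vadd_eq_add] at hkl
    have h1 := abs_inner_le_card hKbal hLs s hs hy hk
    have h2 := abs_inner_le_one_of_mem_polarBody hLs hy hl
    have h3 : inner ℝ x y = inner ℝ k y - inner ℝ l y := by
      rw [← hkl, inner_add_left]
      ring
    rw [h3]
    calc |inner ℝ k y - inner ℝ l y| ≤ |inner ℝ k y| + |inner ℝ l y| := abs_sub _ _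
      _ ≤ (s.card : ℝ) + 1 := add_le_add h1 h2
  -- the cell of a point: cells of side two in each coordinate
  let f : E → (s' → ℤ) := fun y x => ⌊(inner ℝ (x : E) y + ((s.card : ℝ) + 1)) / 2⌋
  let cells : Finset (s' → ℤ) :=
    Fintype.piFinset (fun _ : s' => Finset.Icc (0 : ℤ) ((s.card : ℤ) + 1))
  have hfcell : ∀ y ∈ polarBody L, f y ∈ cells := by
    intro y hy
    rw [Fintype.mem_piFinset]
    intro x
    have hb := hbound y hy x x.2
    rw [abs_le] at hb
    rw [Finset.mem_Icc]
    constructor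
    · apply Int.le_floor.mpr
      push_cast
      linarith [hb.1]
    · have h1 : ⌊(inner ℝ (x : E) y + ((s.card : ℝ) + 1)) / 2⌋ ≤ ⌊((s.card : ℝ) + 1)⌋ :=
        Int.floor_mono (by linarith [hb.2])
      have h2 : ⌊((s.card : ℝ) + 1)⌋ = (s.card : ℤ) + 1 := by
        have : ((s.card : ℝ) + 1) = (((s.card : ℤ) + 1 : ℤ) : ℝ) := by push_cast; ring
        rw [this, Int.floor_intCast]
      rw [h2] at h1
      exact h1
  have hcellscard : cells.card = (s.card + 2) ^ s'.card := by
    rw [Fintype.card_piFinset]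
    simp only [Finset.prod_const, Int.card_Icc, Finset.card_univ, Fintype.card_coe]
    congr 1
  -- representatives
  let g : (s' → ℤ) → E := fun c => if h : ∃ y ∈ polarBody L, f y = c then h.choose else 0
  have hg : ∀ y ∈ polarBody L, g (f y) ∈ polarBody L ∧ f (g (f y)) = f y := by
    intro y hy
    have h : ∃ y' ∈ polarBody L, f y' = f y := ⟨y, hy, rfl⟩
    have hgy : g (f y) = h.choose := dif_pos h
    rw [hgy]
    exact h.choose_spec
  refine ⟨cells.image g, ?_, ?_⟩
  · calc (cells.image g).card ≤ cells.card := Finset.card_image_le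
      _ = (s.card + 2) ^ s'.card := hcellscard
      _ ≤ (s.card + 2) ^ (s.card - 1) := Nat.pow_le_pow_right (by omega) hs'card
  · intro y hy
    simp only [mem_iUnion, exists_prop]
    refine ⟨g (f y), Finset.mem_image_of_mem g (hfcell y hy), ?_⟩
    obtain ⟨hy', hfy'⟩ := hg y hy
    set y' := g (f y) with hy'def
    rw [mem_vadd_set]
    refine ⟨y - y', ?_, by simp⟩
    rw [mem_smul_set]
    refine ⟨(4 : ℝ)⁻¹ • (y - y'), ?_, by simp⟩
    intro k hk
    have hmem := hs hk
    simp only [mem_iUnion, exists_prop] at hmem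
    obtain ⟨x, hx, hxl⟩ := hmem
    have hxl' := hxl
    rw [mem_vadd_set] at hxl
    obtain ⟨l, hl, hxl⟩ := hxl
    rw [vadd_eq_add] at hxl
    have hl1 := abs_inner_le_one_of_mem_polarBody hLs hy hl
    have hl2 := abs_inner_le_one_of_mem_polarBody hLs hy' hl
    rw [abs_le] at hl1 hl2
    -- the functionals at the centre differ by at most two
    have hd : inner ℝ x y - inner ℝ x y' ≤ 2 := by
      by_cases hxx0 : x = x0
      · have h1 := hx0L y hy
        have h2 := hx0L y' hy'
        rw [abs_le] at h1 h2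
        rw [hxx0]
        linarith
      · have hxs' : x ∈ s' := by
          rw [hs', Finset.mem_filter, Finset.mem_erase]
          exact ⟨⟨hxx0, hx⟩, k, hk, hxl'⟩
        have hfl : ⌊(inner ℝ x y' + ((s.card : ℝ) + 1)) / 2⌋
            = ⌊(inner ℝ x y + ((s.card : ℝ) + 1)) / 2⌋ := congrFun hfy' ⟨x, hxs'⟩
        have h1 := Int.floor_le ((inner ℝ x y' + ((s.card : ℝ) + 1)) / 2)
        have h2 := Int.lt_floor_add_one ((inner ℝ x y + ((s.card : ℝ) + 1)) / 2)
        rw [hfl] at h1
        linarith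
    rw [real_inner_smul_right, ← hxl, inner_sub_right, inner_add_left, inner_add_left]
    linarith

/-! ### Symmetric convex bodies and their polars -/

theorem balanced_of_convex_symm {K : Set E} (hKv : Convex ℝ K) (hKs : ∀ x ∈ K, -x ∈ K) :
    ∀ k ∈ K, ∀ t : ℝ, |t| ≤ 1 → t • k ∈ K := by
  intro k hk t ht
  rw [abs_le] at ht
  have h := hKv hk (hKs k hk) (by linarith : (0 : ℝ) ≤ (1 + t) / 2)
    (by linarith : (0 : ℝ) ≤ (1 - t) / 2) (by ring)
  have h2 : ((1 + t) / 2) • k + ((1 - t) / 2) • (-k) = t • k := by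
    rw [smul_neg, ← sub_eq_add_neg, ← sub_smul]
    congr 1
    ring
  rw [h2] at h
  exact h

theorem exists_ball_subset_of_convex_symm {L : Set E} (hLv : Convex ℝ L)
    (hLi : (interior L).Nonempty) (hLs : ∀ x ∈ L, -x ∈ L) :
    ∃ ε : ℝ, 0 < ε ∧ Metric.ball (0 : E) ε ⊆ L := by
  obtain ⟨p, hp⟩ := hLi
  rw [mem_interior_iff_mem_nhds, Metric.mem_nhds_iff] at hp
  obtain ⟨ε, hε, hball⟩ := hp
  refine ⟨ε, hε, ?_⟩
  intro z hz
  rw [Metric.mem_ball, dist_zero_right] at hz
  have h1 : p + z ∈ L := hball (by rw [Metric.mem_ball, dist_eq_norm]; simpa using hz)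
  have h2 : p - z ∈ L := hball (by rw [Metric.mem_ball, dist_eq_norm]; simpa using hz)
  have h3 := hLs _ h2
  have h4 := hLv h1 h3 (by norm_num : (0 : ℝ) ≤ 1 / 2) (by norm_num : (0 : ℝ) ≤ 1 / 2)
    (by norm_num)
  have h5 : (1 / 2 : ℝ) • (p + z) + (1 / 2 : ℝ) • (-(p - z)) = z := by
    rw [← smul_add]
    have : p + z + -(p - z) = (2 : ℝ) • z := by rw [two_smul]; abel
    rw [this, smul_smul]
    norm_num
  rw [h5] at h4
  exact h4

theorem polarBody_symm {K : Set E} (hKs : ∀ x ∈ K, -x ∈ K) :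
    ∀ y ∈ polarBody K, -y ∈ polarBody K := by
  intro y hy x hx
  have h := hy (-x) (hKs x hx)
  rw [inner_neg_left] at h
  rw [inner_neg_right]
  exact h

theorem polarBody_convex (K : Set E) : Convex ℝ (polarBody K) := by
  intro y1 hy1 y2 hy2 a b ha hb hab x hx
  rw [inner_add_right, real_inner_smul_right, real_inner_smul_right]
  have h1 := hy1 x hx
  have h2 := hy2 x hx
  nlinarith

theorem polarBody_isClosed (K : Set E) : IsClosed (polarBody K) := by
  have h : polarBody K = ⋂ x ∈ K, {y : E | inner ℝ x y ≤ 1} := by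
    ext y
    simp [polarBody]
  rw [h]
  exact isClosed_biInter fun x _ =>
    isClosed_le (continuous_const.inner continuous_id) continuous_const

theorem polarBody_subset_closedBall {L : Set E} {ε : ℝ} (hε : 0 < ε)
    (hball : Metric.ball (0 : E) ε ⊆ L) : polarBody L ⊆ Metric.closedBall (0 : E) (2 / ε) := by
  intro y hy
  rw [Metric.mem_closedBall, dist_zero_right]
  by_cases hy0 : y = 0
  · rw [hy0, norm_zero]
    positivity
  have hny : 0 < ‖y‖ := norm_pos_iff.mpr hy0
  have hx : (ε / (2 * ‖y‖)) • y ∈ L := by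
    apply hball
    rw [Metric.mem_ball, dist_zero_right, norm_smul, Real.norm_eq_abs,
      abs_of_pos (by positivity)]
    have : ε / (2 * ‖y‖) * ‖y‖ = ε / 2 := by field_simp
    rw [this]
    linarith
  have h := hy _ hx
  rw [real_inner_smul_left, real_inner_self_eq_norm_sq] at h
  have h2 : ε / (2 * ‖y‖) * ‖y‖ ^ 2 = ε * ‖y‖ / 2 := by field_simp
  rw [h2] at h
  rw [le_div_iff₀ hε]
  linarith

theorem polarBody_isCompact [FiniteDimensional ℝ E] {L : Set E} (hLv : Convex ℝ L)
    (hLi : (interior L).Nonempty) (hLs : ∀ x ∈ L, -x ∈ L) : IsCompact (polarBody L) := by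
  obtain ⟨ε, hε, hball⟩ := exists_ball_subset_of_convex_symm hLv hLi hLs
  exact Metric.isCompact_of_isClosed_isBounded (polarBody_isClosed L)
    (Metric.isBounded_closedBall.subset (polarBody_subset_closedBall hε hball))

theorem ball_subset_polarBody {K : Set E} {R : ℝ} (hR : 0 < R)
    (hK : K ⊆ Metric.closedBall (0 : E) R) : Metric.ball (0 : E) (1 / R) ⊆ polarBody K := by
  intro y hy x hx
  rw [Metric.mem_ball, dist_zero_right] at hy
  have hx' := hK hx
  rw [Metric.mem_closedBall, dist_zero_right] at hx'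
  calc inner ℝ x y ≤ ‖x‖ * ‖y‖ := real_inner_le_norm x y
    _ ≤ R * (1 / R) := mul_le_mul hx' hy.le (norm_nonneg _) hR.le
    _ = 1 := by field_simp

theorem interior_smul_polarBody_nonempty {K : Set E} (hKc : IsCompact K) {c : ℝ} (hc : 0 < c) :
    (interior (c • polarBody K)).Nonempty := by
  obtain ⟨R, hR, hKR⟩ := hKc.isBounded.subset_closedBall_lt 0 (0 : E)
  have h1 := ball_subset_polarBody hR hKR
  refine ⟨0, ?_⟩
  rw [mem_interior_iff_mem_nhds, Metric.mem_nhds_iff]
  refine ⟨c * (1 / R), by positivity, ?_⟩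
  intro y hy
  rw [Metric.mem_ball, dist_zero_right] at hy
  rw [mem_smul_set]
  refine ⟨c⁻¹ • y, h1 ?_, by rw [smul_smul, mul_inv_cancel₀ hc.ne', one_smul]⟩
  rw [Metric.mem_ball, dist_zero_right, norm_smul, Real.norm_eq_abs, abs_of_pos (by positivity)]
  rw [inv_mul_lt_iff₀ hc]
  exact hy

/-- Bipolar theorem for closed convex sets containing the origin. -/
theorem polarBody_polarBody [CompleteSpace E] {K : Set E} (hKv : Convex ℝ K) (hKc : IsClosed K)
    (h0 : (0 : E) ∈ K) : polarBody (polarBody K) = K := by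
  apply Subset.antisymm
  · intro x hx
    by_contra hxK
    obtain ⟨f, u, hfu, hux⟩ := geometric_hahn_banach_closed_point hKv hKc hxK
    have hu : 0 < u := by simpa using hfu 0 h0
    set w : E := (InnerProductSpace.toDual ℝ E).symm f with hw
    have hwf : ∀ v : E, inner ℝ w v = f v := fun v => InnerProductSpace.toDual_symm_apply
    have hy : u⁻¹ • w ∈ polarBody K := by
      intro k hk
      rw [real_inner_smul_right, real_inner_comm, hwf]
      have := hfu k hk
      rw [inv_mul_le_iff₀ hu]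
      linarith
    have h := hx _ hy
    rw [real_inner_smul_left, hwf, inv_mul_le_iff₀ hu] at h
    linarith
  · intro x hx y hy
    rw [real_inner_comm]
    exact hy x hx

theorem polarBody_inv_smul (K : Set E) {c : ℝ} (hc : 0 < c) :
    polarBody (c⁻¹ • K) = c • polarBody K := by
  ext y
  rw [mem_smul_set_iff_inv_smul_mem₀ hc.ne']
  constructor
  · intro hy x hx
    have h := hy (c⁻¹ • x) (smul_mem_smul_set hx)
    rw [real_inner_smul_left] at h
    rw [real_inner_smul_right]
    exact h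
  · intro hy x hx
    rw [mem_smul_set] at hx
    obtain ⟨k, hk, rfl⟩ := hx
    have h := hy k hk
    rw [real_inner_smul_right] at h
    rw [real_inner_smul_left]
    exact h

omit [InnerProductSpace ℝ E] in
/-- A compact set is covered by finitely many translates of a set with nonempty interior. -/
theorem exists_finset_cover {A B : Set E} (hA : IsCompact A) (hB : (interior B).Nonempty) :
    ∃ s : Finset E, A ⊆ ⋃ x ∈ s, (x +ᵥ B) := by
  classical
  obtain ⟨t, ht⟩ := compact_covered_by_add_left_translates hA hB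
  refine ⟨t.image (fun g => -g), ?_⟩
  intro a ha
  have h := ht ha
  simp only [mem_iUnion, exists_prop, mem_preimage] at h
  obtain ⟨g, hg, hga⟩ := h
  simp only [mem_iUnion, exists_prop]
  refine ⟨-g, Finset.mem_image_of_mem _ hg, ?_⟩
  rw [mem_vadd_set]
  exact ⟨g + a, hga, by simp⟩

omit [InnerProductSpace ℝ E] in
theorem coveringNumber_spec {A B : Set E} (hA : IsCompact A) (hB : (interior B).Nonempty) :
    ∃ s : Finset E, s.card = coveringNumber A B ∧ A ⊆ ⋃ x ∈ s, (x +ᵥ B) := by
  obtain ⟨s, hs⟩ := exists_finset_cover hA hB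
  have hne : {m : ℕ | ∃ s : Finset E, s.card = m ∧ A ⊆ ⋃ x ∈ s, (x +ᵥ B)}.Nonempty :=
    ⟨s.card, s, rfl, hs⟩
  exact Nat.sInf_mem hne

omit [InnerProductSpace ℝ E] in
theorem coveringNumber_le {A B : Set E} (T : Finset E) (hT : A ⊆ ⋃ x ∈ T, (x +ᵥ B)) :
    coveringNumber A B ≤ T.card :=
  Nat.sInf_le ⟨T, rfl, hT⟩

theorem zero_mem_of_convex_symm {K : Set E} (hKv : Convex ℝ K)
    (hKi : (interior K).Nonempty) (hKs : ∀ x ∈ K, -x ∈ K) : (0 : E) ∈ K := by
  obtain ⟨ε, hε, hball⟩ := exists_ball_subset_of_convex_symm hKv hKi hKs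
  exact hball (Metric.mem_ball_self hε)

theorem zero_mem_polarBody (K : Set E) : (0 : E) ∈ polarBody K := by
  intro x _
  rw [inner_zero_right]
  exact zero_le_one

/-- **Dimension-free weak duality of metric entropy**, first half. -/
theorem weak_duality_left [FiniteDimensional ℝ E] {K L : Set E}
    (hKc : IsCompact K) (hKv : Convex ℝ K) (hKi : (interior K).Nonempty) (hKs : ∀ x ∈ K, -x ∈ K)
    (hLi : (interior L).Nonempty) (hLs : ∀ x ∈ L, -x ∈ L) :
    coveringNumber (polarBody L) ((4 : ℝ) • polarBody K) ≤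
      (coveringNumber K L + 2) ^ (coveringNumber K L - 1) := by
  obtain ⟨s, hsc, hs⟩ := coveringNumber_spec hKc hLi
  obtain ⟨T, hTc, hT⟩ := exists_polar_cover (zero_mem_of_convex_symm hKv hKi hKs)
    (balanced_of_convex_symm hKv hKs) hLs s hs
  rw [hsc] at hTc
  exact (coveringNumber_le T hT).trans hTc

/-- **Dimension-free weak duality of metric entropy**, second half. -/
theorem weak_duality_right [FiniteDimensional ℝ E] {K L : Set E}
    (hKc : IsCompact K) (hKv : Convex ℝ K) (hKi : (interior K).Nonempty) (hKs : ∀ x ∈ K, -x ∈ K)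
    (hLc : IsCompact L) (hLv : Convex ℝ L) (hLi : (interior L).Nonempty) (hLs : ∀ x ∈ L, -x ∈ L) :
    coveringNumber K L ≤
      (coveringNumber (polarBody L) ((4 : ℝ)⁻¹ • polarBody K) + 2) ^
        (coveringNumber (polarBody L) ((4 : ℝ)⁻¹ • polarBody K) - 1) := by
  classical
  have hLpc : IsCompact (polarBody L) := polarBody_isCompact hLv hLi hLs
  have hKpi : (interior ((4 : ℝ)⁻¹ • polarBody K)).Nonempty :=
    interior_smul_polarBody_nonempty hKc (by norm_num)
  obtain ⟨s, hsc, hs⟩ := coveringNumber_spec hLpc hKpi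
  have hsymm : ∀ x ∈ (4 : ℝ)⁻¹ • polarBody K, -x ∈ (4 : ℝ)⁻¹ • polarBody K := by
    intro x hx
    rw [mem_smul_set] at hx ⊢
    obtain ⟨y, hy, rfl⟩ := hx
    exact ⟨-y, polarBody_symm hKs y hy, by rw [smul_neg]⟩
  obtain ⟨T, hTc, hT⟩ := exists_polar_cover (zero_mem_polarBody L)
    (balanced_of_convex_symm (polarBody_convex L) (polarBody_symm hLs)) hsymm s hs
  rw [hsc] at hTc
  -- identify the polars
  have h0K : (0 : E) ∈ K := zero_mem_of_convex_symm hKv hKi hKs
  have h0L : (0 : E) ∈ L := zero_mem_of_convex_symm hLv hLi hLs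
  rw [polarBody_inv_smul _ (by norm_num : (0 : ℝ) < 4),
    polarBody_polarBody hKv hKc.isClosed h0K, polarBody_polarBody hLv hLc.isClosed h0L] at hT
  -- rescale the cover
  have hcov : K ⊆ ⋃ y ∈ T.image (fun y => (4 : ℝ)⁻¹ • y), (y +ᵥ L) := by
    intro k hk
    have h := hT (smul_mem_smul_set hk : (4 : ℝ) • k ∈ (4 : ℝ) • K)
    simp only [mem_iUnion, exists_prop] at h
    obtain ⟨y, hy, hyk⟩ := h
    rw [mem_vadd_set] at hyk
    obtain ⟨z, hz, hyz⟩ := hyk
    rw [mem_smul_set] at hz
    obtain ⟨l, hl, rfl⟩ := hz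
    rw [vadd_eq_add] at hyz
    simp only [mem_iUnion, exists_prop]
    refine ⟨(4 : ℝ)⁻¹ • y, Finset.mem_image_of_mem _ hy, ?_⟩
    rw [mem_vadd_set]
    refine ⟨l, hl, ?_⟩
    rw [vadd_eq_add]
    have : k = (4 : ℝ)⁻¹ • ((4 : ℝ) • k) := by rw [smul_smul]; norm_num
    rw [this, ← hyz, smul_add, smul_smul]
    norm_num
  exact ((coveringNumber_le _ hcov).trans Finset.card_image_le).trans hTc

end Vale.Agent.H34
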