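import Mathlib

/-!
# Covering numbers and polars (definitions for problem P126)
-/

namespace Vale.Agent.H34

open Set
open scoped Pointwise

/-- The covering number `N(A,B)`: the least number of translates `x + B` (with `x` arbitrary)
whose union contains `A`. -/
noncomputable def coveringNumber {E : Type*} [AddCommGroup E] (A B : Set E) : ℕ :=
  sInf {m : ℕ | ∃ s : Finset E, s.card = m ∧ A ⊆ ⋃ x ∈ s, (x +ᵥ B)}

/-- The polar `K° = {y : ⟨x, y⟩ ≤ 1 for all x ∈ K}`. -/
def polarBody {E : Type*} [NormedAddCommGroup E] [InnerProductSpace ℝ E] (K : Set E) : Set E :=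
  {y | ∀ x ∈ K, inner ℝ x y ≤ 1}

end Vale.Agent.H34
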