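import Mathlib

/-!
# Hoeffding's lemma for finite weighted sums

A centred finite distribution supported in an interval of length `2 R` has moment generating
function at most `exp ((s R)² / 2)`.  This is Hoeffding's lemma from Mathlib, transported to
finite weighted sums.
-/

namespace Vale.Agent.H34

open MeasureTheory ProbabilityTheory

/-- Hoeffding's lemma for a finite weighted sum. -/
theorem sum_weight_exp_le_hoeffding {J : Type*} [Fintype J] (w : J → ℝ) (hw0 : ∀ j, 0 ≤ w j)
    (hw1 : ∑ j, w j = 1) (b : J → ℝ) (A B : ℝ) (hb : ∀ j, b j ∈ Set.Icc A B)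
    (hmean : ∑ j, w j * b j = 0) (s : ℝ) :
    ∑ j, w j * Real.exp (s * b j) ≤ Real.exp (((B - A) / 2) ^ 2 * s ^ 2 / 2) := by
  classical
  let _inst : MeasurableSpace J := ⊤
  set μ : Measure J := ∑ j, ENNReal.ofReal (w j) • Measure.dirac j with hμ
  have hint : ∀ f : J → ℝ, ∫ x, f x ∂μ = ∑ j, w j * f j := by
    intro f
    rw [hμ, integral_finsetSum_measure]
    · apply Finset.sum_congr rfl
      intro j _
      rw [integral_smul_measure, integral_dirac, ENNReal.toReal_ofReal (hw0 j), smul_eq_mul]
    · intro j _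
      exact (integrable_dirac (by simp)).smul_measure ENNReal.ofReal_ne_top
  have hprob : IsProbabilityMeasure μ := by
    constructor
    rw [hμ, Measure.coe_finsetSum, Finset.sum_apply]
    simp only [Measure.smul_apply, measure_univ, smul_eq_mul, mul_one]
    rw [← ENNReal.ofReal_sum_of_nonneg (fun j _ => hw0 j), hw1, ENNReal.ofReal_one]
  have hm : AEMeasurable b μ := (measurable_from_top).aemeasurable
  have hbI : ∀ᵐ ω ∂μ, b ω ∈ Set.Icc A B := Filter.Eventually.of_forall hb
  have hc : ∫ x, b x ∂μ = 0 := by rw [hint, hmean]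
  have h := (hasSubgaussianMGF_of_mem_Icc_of_integral_eq_zero hm hbI hc).mgf_le s
  have hAB : A ≤ B := (hb (Classical.choice (by
    by_contra hne
    rw [not_nonempty_iff] at hne
    simp at hw1))).1.trans (hb _).2
  rw [mgf, hint] at h
  have hcoe : (((‖B - A‖₊ / 2) ^ 2 : NNReal) : ℝ) = ((B - A) / 2) ^ 2 := by
    push_cast
    rw [Real.norm_of_nonneg (by linarith)]
  rw [hcoe] at h
  exact h

end Vale.Agent.H34
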