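import Mathlib

/-!
# Maurey's empirical method in the sup norm (finite, elementary version)

Any convex combination of finitely many vectors of `[-R, R]^ι` is approximated, uniformly in all
coordinates up to `ε`, by an average of `k` of the vectors (with repetition), as soon as
`8 R² log (2 |ι|) ≤ ε² k`.
-/

namespace Vale.Agent.H34

open Finset

/-- Chord bound for the exponential function on `[-D, D]`. -/
theorem exp_mul_le_cosh_add (s D b : ℝ) (hD : 0 < D) (hb : |b| ≤ D) :
    Real.exp (s * b) ≤ Real.cosh (s * D) + b / D * Real.sinh (s * D) := by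
  have hb' := abs_le.mp hb
  have h0 : 0 ≤ (D + b) / (2 * D) := div_nonneg (by linarith) (by linarith)
  have h1 : 0 ≤ (D - b) / (2 * D) := div_nonneg (by linarith) (by linarith)
  have hsum : (D + b) / (2 * D) + (D - b) / (2 * D) = 1 := by field_simp; ring
  have hconv := convexOn_exp.2 (Set.mem_univ (s * D)) (Set.mem_univ (-(s * D))) h0 h1 hsum
  simp only [smul_eq_mul] at hconv
  have hcomb : (D + b) / (2 * D) * (s * D) + (D - b) / (2 * D) * (-(s * D)) = s * b := by
    field_simp
    ring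
  rw [hcomb] at hconv
  rw [Real.cosh_eq, Real.sinh_eq]
  calc Real.exp (s * b) ≤ (D + b) / (2 * D) * Real.exp (s * D)
        + (D - b) / (2 * D) * Real.exp (-(s * D)) := hconv
    _ = (Real.exp (s * D) + Real.exp (-(s * D))) / 2
        + b / D * ((Real.exp (s * D) - Real.exp (-(s * D))) / 2) := by
      field_simp
      ring

/-- Moment generating function bound for a centred finite distribution supported in
`[-D, D]`. -/
theorem sum_weight_exp_le {J : Type*} [Fintype J] (w : J → ℝ) (hw0 : ∀ j, 0 ≤ w j)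
    (hw1 : ∑ j, w j = 1) (b : J → ℝ) (D : ℝ) (hD : 0 < D) (hb : ∀ j, |b j| ≤ D)
    (hmean : ∑ j, w j * b j = 0) (s : ℝ) :
    ∑ j, w j * Real.exp (s * b j) ≤ Real.exp ((s * D) ^ 2 / 2) := by
  calc ∑ j, w j * Real.exp (s * b j)
      ≤ ∑ j, w j * (Real.cosh (s * D) + b j / D * Real.sinh (s * D)) :=
        Finset.sum_le_sum fun j _ =>
          mul_le_mul_of_nonneg_left (exp_mul_le_cosh_add s D (b j) hD (hb j)) (hw0 j)
    _ = Real.cosh (s * D) := by
        have h2 : ∀ j, w j * (Real.cosh (s * D) + b j / D * Real.sinh (s * D))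
            = w j * Real.cosh (s * D) + (w j * b j) * (Real.sinh (s * D) / D) := by
          intro j
          ring
        simp only [h2, Finset.sum_add_distrib, ← Finset.sum_mul, hw1, hmean]
        ring
    _ ≤ Real.exp ((s * D) ^ 2 / 2) := Real.cosh_le_exp_half_sq (s * D)

/-- The weight of a `k`-tuple of indices under the product distribution. -/
theorem sum_prod_weight {J : Type*} [Fintype J] (k : ℕ) (f : J → ℝ) :
    ∑ τ : Fin k → J, ∏ t, f (τ t) = (∑ j, f j) ^ k := by
  classical
  rw [Finset.sum_pow', Fintype.piFinset_univ]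

/-- **Maurey's empirical method in the sup norm.** -/
theorem maurey_sup {J ι : Type*} [Fintype J] [Fintype ι]
    (w : J → ℝ) (hw0 : ∀ j, 0 ≤ w j) (hw1 : ∑ j, w j = 1)
    (a : J → ι → ℝ) (R : ℝ) (hR : 0 < R) (ha : ∀ j i, |a j i| ≤ R)
    (ε : ℝ) (hε : 0 < ε) (k : ℕ) (hk : 0 < k)
    (hkε : 8 * R ^ 2 * Real.log (2 * (Fintype.card ι : ℝ)) ≤ ε ^ 2 * k) :
    ∃ τ : Fin k → J, ∀ i, |∑ j, w j * a j i - (∑ t, a (τ t) i) / k| ≤ ε := by
  classical
  have hkpos : (0 : ℝ) < k := by exact_mod_cast hk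
  -- means and centred values
  set abar : ι → ℝ := fun i => ∑ j, w j * a j i with habar
  have habar_le : ∀ i, |abar i| ≤ R := by
    intro i
    calc |abar i| ≤ ∑ j, |w j * a j i| := Finset.abs_sum_le_sum_abs _ _
      _ ≤ ∑ j, w j * R := Finset.sum_le_sum fun j _ => by
          rw [abs_mul, abs_of_nonneg (hw0 j)]
          exact mul_le_mul_of_nonneg_left (ha j i) (hw0 j)
      _ = R := by rw [← Finset.sum_mul, hw1, one_mul]
  set b : J → ι → ℝ := fun j i => a j i - abar i with hb
  set D : ℝ := 2 * R with hDdef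
  have hD : 0 < D := by positivity
  have hbD : ∀ j i, |b j i| ≤ D := by
    intro j i
    calc |b j i| ≤ |a j i| + |abar i| := abs_sub _ _
      _ ≤ R + R := add_le_add (ha j i) (habar_le i)
      _ = D := by rw [hDdef]; ring
  have hbmean : ∀ i, ∑ j, w j * b j i = 0 := by
    intro i
    simp only [hb, mul_sub, Finset.sum_sub_distrib, ← Finset.sum_mul, hw1, one_mul]
    simp [habar]
  set s : ℝ := ε / D ^ 2 with hs
  have hspos : 0 < s := by positivity
  -- weights of tuples
  set W : (Fin k → J) → ℝ := fun τ => ∏ t, w (τ t) with hW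
  have hW0 : ∀ τ, 0 ≤ W τ := fun τ => Finset.prod_nonneg fun t _ => hw0 (τ t)
  have hW1 : ∑ τ, W τ = 1 := by
    rw [hW, sum_prod_weight, hw1, one_pow]
  set S : (Fin k → J) → ι → ℝ := fun τ i => ∑ t, b (τ t) i with hS
  -- exponential moment identity
  have hmgf : ∀ (s' : ℝ) (i : ι),
      ∑ τ, W τ * Real.exp (s' * S τ i) = (∑ j, w j * Real.exp (s' * b j i)) ^ k := by
    intro s' i
    rw [← sum_prod_weight]
    apply Finset.sum_congr rfl
    intro τ _
    rw [hW, hS]
    simp only
    rw [Finset.mul_sum, Real.exp_sum, ← Finset.prod_mul_distrib]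
  have hmgf_le : ∀ (s' : ℝ) (i : ι),
      ∑ τ, W τ * Real.exp (s' * S τ i) ≤ Real.exp (k * ((s' * D) ^ 2 / 2)) := by
    intro s' i
    rw [hmgf, Real.exp_nat_mul]
    apply pow_le_pow_left₀ (Finset.sum_nonneg fun j _ => mul_nonneg (hw0 j) (Real.exp_pos _).le)
    exact sum_weight_exp_le w hw0 hw1 (fun j => b j i) D hD (fun j => hbD j i) (hbmean i) s'
  set G : (Fin k → J) → ℝ := fun τ =>
    ∑ i, (Real.exp (s * S τ i) + Real.exp (-s * S τ i)) with hG
  set B : ℝ := 2 * (Fintype.card ι : ℝ) * Real.exp (k * ((s * D) ^ 2 / 2)) with hB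
  have hsum : ∑ τ, W τ * G τ ≤ B := by
    have h1 : ∑ τ, W τ * G τ
        = ∑ i, (∑ τ, W τ * Real.exp (s * S τ i) + ∑ τ, W τ * Real.exp (-s * S τ i)) := by
      simp only [hG, Finset.mul_sum, mul_add, Finset.sum_add_distrib]
      rw [Finset.sum_comm]
      congr 1
      rw [Finset.sum_comm]
    rw [h1]
    have h2 : ∀ i, ∑ τ, W τ * Real.exp (s * S τ i) + ∑ τ, W τ * Real.exp (-s * S τ i)
        ≤ 2 * Real.exp (k * ((s * D) ^ 2 / 2)) := by
      intro i
      have e1 := hmgf_le s i
      have e2 := hmgf_le (-s) i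
      have e3 : (-s * D) ^ 2 = (s * D) ^ 2 := by ring
      rw [e3] at e2
      linarith
    calc ∑ i, (∑ τ, W τ * Real.exp (s * S τ i) + ∑ τ, W τ * Real.exp (-s * S τ i))
        ≤ ∑ _i : ι, 2 * Real.exp (k * ((s * D) ^ 2 / 2)) := Finset.sum_le_sum fun i _ => h2 i
      _ = B := by
        rw [Finset.sum_const, Finset.card_univ, nsmul_eq_mul, hB]
        ring
  -- a good tuple exists
  obtain ⟨τ, hτ⟩ : ∃ τ, G τ ≤ B := by
    by_contra hcon
    have hcon : ∀ τ, B < G τ := fun τ => not_le.mp fun h => hcon ⟨τ, h⟩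
    obtain ⟨τ0, hτ0⟩ : ∃ τ, 0 < W τ := by
      by_contra hno
      have hno : ∀ τ, W τ ≤ 0 := fun τ => not_lt.mp fun h => hno ⟨τ, h⟩
      have hz : ∑ τ, W τ = 0 :=
        Finset.sum_eq_zero fun τ _ => le_antisymm (hno τ) (hW0 τ)
      rw [hW1] at hz
      exact one_ne_zero hz
    have hlt : ∑ τ, W τ * B < ∑ τ, W τ * G τ := by
      apply Finset.sum_lt_sum
      · intro τ _
        exact mul_le_mul_of_nonneg_left (hcon τ).le (hW0 τ)
      · exact ⟨τ0, Finset.mem_univ _, mul_lt_mul_of_pos_left (hcon τ0) hτ0⟩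
    rw [← Finset.sum_mul, hW1, one_mul] at hlt
    linarith
  refine ⟨τ, fun i => ?_⟩
  -- from the bound on G to the bound on S
  have hcard : (1 : ℝ) ≤ (Fintype.card ι : ℝ) := by
    have : 0 < Fintype.card ι := Fintype.card_pos_iff.mpr ⟨i⟩
    exact_mod_cast this
  have hBpos : 0 < B := by positivity
  have hterm : ∀ i', 0 ≤ Real.exp (s * S τ i') + Real.exp (-s * S τ i') :=
    fun i' => add_nonneg (Real.exp_pos _).le (Real.exp_pos _).le
  have hGi : Real.exp (s * S τ i) + Real.exp (-s * S τ i) ≤ B :=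
    (Finset.single_le_sum (fun i' _ => hterm i') (Finset.mem_univ i)).trans hτ
  have hlogB : Real.log B = Real.log (2 * (Fintype.card ι : ℝ)) + k * ((s * D) ^ 2 / 2) := by
    rw [hB, Real.log_mul (by positivity) (Real.exp_pos _).ne', Real.log_exp]
  have hup : s * S τ i ≤ Real.log B := by
    have : Real.exp (s * S τ i) ≤ B := by linarith [Real.exp_pos (-s * S τ i)]
    calc s * S τ i = Real.log (Real.exp (s * S τ i)) := (Real.log_exp _).symm
      _ ≤ Real.log B := Real.log_le_log (Real.exp_pos _) this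
  have hdown : -s * S τ i ≤ Real.log B := by
    have : Real.exp (-s * S τ i) ≤ B := by linarith [Real.exp_pos (s * S τ i)]
    calc -s * S τ i = Real.log (Real.exp (-s * S τ i)) := (Real.log_exp _).symm
      _ ≤ Real.log B := Real.log_le_log (Real.exp_pos _) this
  -- the final arithmetic
  have hsD : s * D ^ 2 = ε := by
    rw [hs]
    field_simp
  have hD2 : D ^ 2 = 4 * R ^ 2 := by rw [hDdef]; ring
  have hkey : Real.log B ≤ s * (k * ε) := by
    rw [hlogB]
    have e1 : (k : ℝ) * ((s * D) ^ 2 / 2) = s * (k * ε) / 2 := by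
      have : (s * D) ^ 2 = s * (s * D ^ 2) := by ring
      rw [this, hsD]
      ring
    rw [e1]
    have e2 : Real.log (2 * (Fintype.card ι : ℝ)) ≤ s * (k * ε) / 2 := by
      have e3 : s * (k * ε) / 2 = ε ^ 2 * k / (2 * D ^ 2) := by
        rw [hs]
        field_simp
      rw [e3, le_div_iff₀ (by positivity), hD2]
      linarith
    linarith
  have hSabs : |S τ i| ≤ k * ε := by
    rw [abs_le]
    constructor
    · have : -s * S τ i ≤ s * (k * ε) := hdown.trans hkey
      have h3 : s * (-(S τ i)) ≤ s * (k * ε) := by linarith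
      have := le_of_mul_le_mul_left h3 hspos
      linarith
    · have : s * S τ i ≤ s * (k * ε) := hup.trans hkey
      exact le_of_mul_le_mul_left this hspos
  have hSeq : S τ i = ∑ t, a (τ t) i - k * abar i := by
    simp only [hS, hb, Finset.sum_sub_distrib, Finset.sum_const, Finset.card_univ,
      Fintype.card_fin, nsmul_eq_mul]
  have hfinal : ∑ j, w j * a j i - (∑ t, a (τ t) i) / k = -(S τ i) / k := by
    rw [hSeq]
    field_simp
    ring
  rw [hfinal, abs_div, abs_neg, abs_of_pos hkpos, div_le_iff₀ hkpos]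
  linarith

end Vale.Agent.H34
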