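import Vale.Agent.H34.QuasiDuality
import Vale.Agent.H34.MaureyH

/-!
# Dimension-free duality of metric entropy up to a quadratic loss

Supporting file for problem P126.  For origin-symmetric convex bodies `K, L`,
`log N(L°, 32 K°) ≤ 2600 (1 + log N(K, L))²`.

The proof localises at dyadic scales `ρ`: the part of `L°` inside `ρ K°` is covered by translates
of `(ρ/4) K°`, the number of translates being controlled (through convexly separated sequences
and Maurey's empirical method) by the number `m_ρ` of translates of `(L + K/ρ)/2` needed to cover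
`(127/(4ρ)) K`.  A packing argument gives `m_ρ N(K/ρ, L) ≤ N(128 K/ρ, L)`, so that the product
of the `m_ρ` over dyadic scales telescopes and is at most `N(K, L)^8`.
-/

namespace Vale.Agent.H34

open Set
open scoped Pointwise

variable {E : Type*} [NormedAddCommGroup E] [InnerProductSpace ℝ E]

/-- A convexly separated sequence with witnesses and threshold `τ`, stored with the latest
element first: each pair `(k, y)` has `k ∈ K`, `y ∈ Y`, and `⟨k, y - y'⟩ ≥ τ` for every earlier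
`y'`. -/
def SepSeqT (τ : ℝ) (K Y : Set E) (l : List (E × E)) : Prop :=
  (∀ p ∈ l, p.1 ∈ K ∧ p.2 ∈ Y) ∧ l.Pairwise (fun a b => τ ≤ inner ℝ a.1 (a.2 - b.2))

/-- Convexly separated sequences are short when `K` is covered by few translates of a set `D`
on which the elements of `Y` are bounded by one, with centres bounded by `R` on `Y`. -/
theorem SepSeqT.length_le {τ : ℝ} (hτ : 2 < τ) {K D Y : Set E}
    (hDY : ∀ v ∈ D, ∀ y ∈ Y, |inner ℝ v y| ≤ 1) (s : Finset E)
    (hs : K ⊆ ⋃ x ∈ s, (x +ᵥ D)) (R : ℝ)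
    (hR : ∀ x ∈ s, ∀ y ∈ Y, |inner ℝ x y| ≤ R)
    (l : List (E × E)) (hl : SepSeqT τ K Y l) :
    l.length ≤ s.card * (⌊2 * R / (τ - 2)⌋₊ + 1) := by
  classical
  have hτ2 : 0 < τ - 2 := by linarith
  obtain ⟨hmem, hpair⟩ := hl
  rw [List.pairwise_iff_get] at hpair
  -- colour of each index
  have hcol : ∀ i : Fin l.length, ∃ x ∈ s, ∃ v ∈ D, x + v = (l.get i).1 := by
    intro i
    have h1 := hs (hmem (l.get i) (List.get_mem l i)).1
    simp only [mem_iUnion, exists_prop] at h1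
    obtain ⟨x, hx, hxl⟩ := h1
    rw [mem_vadd_set] at hxl
    obtain ⟨v, hv, hxv⟩ := hxl
    exact ⟨x, hx, v, hv, hxv⟩
  choose col hcols v hvL hcolv using hcol
  have hy : ∀ i : Fin l.length, (l.get i).2 ∈ Y :=
    fun i => (hmem (l.get i) (List.get_mem l i)).2
  set t : Fin l.length → ℝ := fun i => inner ℝ (col i) (l.get i).2 with ht
  have htR : ∀ i, |t i| ≤ R := fun i => hR (col i) (hcols i) _ (hy i)
  set φ : Fin l.length → E × ℕ := fun i => (col i, ⌊(t i + R) / (τ - 2)⌋₊) with hφ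
  -- strict separation within a colour class
  have hsep : ∀ i j : Fin l.length, i < j → φ i ≠ φ j := by
    intro i j hij heq
    have h4 := hpair i j hij
    have hc : col i = col j := congrArg Prod.fst heq
    have hf : ⌊(t i + R) / (τ - 2)⌋₊ = ⌊(t j + R) / (τ - 2)⌋₊ := congrArg Prod.snd heq
    have hv1 := hDY (v i) (hvL i) _ (hy i)
    have hv2 := hDY (v i) (hvL i) _ (hy j)
    rw [abs_le] at hv1 hv2
    have hge : t j + (τ - 2) ≤ t i := by
      have e1 : inner ℝ (l.get i).1 ((l.get i).2 - (l.get j).2)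
          = t i - inner ℝ (col i) (l.get j).2 + inner ℝ (v i) (l.get i).2
            - inner ℝ (v i) (l.get j).2 := by
        rw [← hcolv i, inner_sub_right, inner_add_left, inner_add_left]
        ring
      have e2 : inner ℝ (col i) (l.get j).2 = t j := by rw [hc]
      rw [e1, e2] at h4
      linarith
    have hRj := abs_le.mp (htR j)
    have h0 : 0 ≤ (t j + R) / (τ - 2) := div_nonneg (by linarith [hRj.1]) hτ2.le
    have hfl : ⌊(t j + R) / (τ - 2)⌋₊ + 1 ≤ ⌊(t i + R) / (τ - 2)⌋₊ := by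
      rw [← Nat.floor_add_one h0]
      apply Nat.floor_mono
      rw [div_add_one hτ2.ne']
      exact div_le_div_of_nonneg_right (by linarith) hτ2.le
    omega
  have hinj : Function.Injective φ := by
    intro i j heq
    rcases lt_trichotomy i j with h | h | h
    · exact absurd heq (hsep i j h)
    · exact h
    · exact absurd heq.symm (hsep j i h)
  have hmaps : ∀ i ∈ (Finset.univ : Finset (Fin l.length)),
      φ i ∈ s ×ˢ Finset.range (⌊2 * R / (τ - 2)⌋₊ + 1) := by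
    intro i _
    rw [Finset.mem_product, Finset.mem_range]
    refine ⟨hcols i, Nat.lt_succ_of_le (Nat.floor_mono ?_)⟩
    have := abs_le.mp (htR i)
    exact div_le_div_of_nonneg_right (by linarith [this.2]) hτ2.le
  have hcard := Finset.card_le_card_of_injOn φ hmaps (fun a _ b _ h => hinj h)
  rw [Finset.card_univ, Fintype.card_fin, Finset.card_product, Finset.card_range] at hcard
  exact hcard

/-- A maximal convexly separated sequence exists when the lengths are bounded. -/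
theorem exists_maximal_sepSeqT {τ : ℝ} {K Y : Set E} (hK0 : (0 : E) ∈ K) (hY0 : (0 : E) ∈ Y)
    (N : ℕ) (hN : ∀ l, SepSeqT τ K Y l → l.length ≤ N) :
    ∃ l, SepSeqT τ K Y l ∧ l ≠ [] ∧ ∀ p, ¬ SepSeqT τ K Y (p :: l) := by
  classical
  set P : ℕ → Prop := fun n => ∃ l, SepSeqT τ K Y l ∧ l.length = n with hP
  have h1 : P 1 := by
    refine ⟨[((0 : E), (0 : E))], ⟨?_, List.pairwise_singleton _ _⟩, rfl⟩
    intro p hp
    rw [List.mem_singleton] at hp
    rw [hp]
    exact ⟨hK0, hY0⟩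
  have hN1 : 1 ≤ N := by
    obtain ⟨l, hl, hlen⟩ := h1
    have := hN l hl
    omega
  obtain ⟨l, hl, hlen⟩ := Nat.findGreatest_spec hN1 h1
  have hge : 1 ≤ Nat.findGreatest P N := Nat.le_findGreatest hN1 h1
  refine ⟨l, hl, ?_, ?_⟩
  · intro h
    rw [h] at hlen
    simp at hlen
    omega
  · intro p hp
    have hPn : P (Nat.findGreatest P N + 1) := ⟨p :: l, hp, by simp [hlen]⟩
    have hle : Nat.findGreatest P N + 1 ≤ N := by
      have := hN (p :: l) hp
      simp [hlen] at this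
      exact this
    have := Nat.le_findGreatest hle hPn
    omega

/-- If a convexly separated sequence cannot be extended, then every point of `Y` lies in the
convex hull of the sequence plus `τ K°`. -/
theorem mem_convexHull_add_of_maximalT [CompleteSpace E] [DecidableEq E] {τ : ℝ} (hτ : 0 < τ)
    {K Y : Set E} (hKv : Convex ℝ K) (hKc : IsClosed K) (hK0 : (0 : E) ∈ K)
    (l : List (E × E)) (hl : SepSeqT τ K Y l) (hne : l ≠ [])
    (hmax : ∀ p : E × E, ¬ SepSeqT τ K Y (p :: l)) (y : E) (hy : y ∈ Y) :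
    y ∈ convexHull ℝ (↑(l.map Prod.snd).toFinset : Set E) + τ • polarBody K := by
  by_contra hyC
  set F : Finset E := (l.map Prod.snd).toFinset with hF
  have hCconv : Convex ℝ (convexHull ℝ (↑F : Set E) + τ • polarBody K) :=
    (convex_convexHull ℝ _).add ((polarBody_convex K).smul τ)
  have hCclosed : IsClosed (convexHull ℝ (↑F : Set E) + τ • polarBody K) :=
    ((polarBody_isClosed K).smul_of_ne_zero hτ.ne').add_left_of_isCompact
      (Set.Finite.isCompact_convexHull ℝ F.finite_toSet)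
  obtain ⟨f, u, hfu, hux⟩ := geometric_hahn_banach_closed_point hCconv hCclosed hyC
  set w : E := (InnerProductSpace.toDual ℝ E).symm f with hw
  have hwf : ∀ v : E, inner ℝ w v = f v := fun v => InnerProductSpace.toDual_symm_apply
  -- every point of the sequence plus `τ z` is in the convex set
  have hC : ∀ p ∈ l, ∀ z ∈ polarBody K, f p.2 + τ * f z < u := by
    intro p hp z hz
    have hmem : p.2 + τ • z ∈ convexHull ℝ (↑F : Set E) + τ • polarBody K := by
      apply Set.add_mem_add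
      · apply subset_convexHull
        rw [Finset.mem_coe, hF, List.mem_toFinset, List.mem_map]
        exact ⟨p, hp, rfl⟩
      · exact Set.smul_mem_smul_set hz
    have := hfu _ hmem
    rw [map_add, map_smul, smul_eq_mul] at this
    exact this
  -- the element of the sequence closest to `y` in the direction `w`
  have hlne : l.toFinset.Nonempty := by
    obtain ⟨p, hp⟩ := List.exists_mem_of_ne_nil l hne
    exact ⟨p, List.mem_toFinset.mpr hp⟩
  obtain ⟨p0, hp0, hp0min⟩ := Finset.exists_min_image l.toFinset (fun p => f y - f p.2) hlne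
  rw [List.mem_toFinset] at hp0
  set μ : ℝ := f y - f p0.2 with hμ
  have hμpos : 0 < μ := by
    have := hC p0 hp0 0 (zero_mem_polarBody K)
    rw [map_zero, mul_zero, add_zero] at this
    linarith
  -- the new witness
  have hk'K : (τ / μ) • w ∈ K := by
    rw [← polarBody_polarBody hKv hKc hK0]
    intro z hz
    rw [real_inner_smul_right, real_inner_comm, hwf]
    have := hC p0 hp0 z hz
    rw [div_mul_eq_mul_div, div_le_one hμpos]
    linarith
  apply hmax ((τ / μ) • w, y)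
  refine ⟨?_, ?_⟩
  · intro p hp
    rw [List.mem_cons] at hp
    rcases hp with rfl | hp
    · exact ⟨hk'K, hy⟩
    · exact hl.1 p hp
  · rw [List.pairwise_cons]
    refine ⟨?_, hl.2⟩
    intro b hb
    have hmin := hp0min b (List.mem_toFinset.mpr hb)
    rw [real_inner_smul_left, hwf, map_sub]
    rw [div_mul_eq_mul_div, le_div_iff₀ hμpos]
    nlinarith

/-- The local covering lemma: if `K` is covered by the translates of `D` centred at `s`, the
convex set `Y` is bounded by one on `D` and by `R` on the centres, then `Y` is covered by at most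
`(|s| (⌊2R/(τ-2)⌋ + 1))^k` translates of `(τ + ε + 2) K°`, where `k ≥ 2 R² log (2 |s|) / ε²`. -/
theorem local_cover [CompleteSpace E] {K D Y : Set E}
    (hKv : Convex ℝ K) (hKc : IsClosed K) (hK0 : (0 : E) ∈ K)
    (hYv : Convex ℝ Y) (hY0 : (0 : E) ∈ Y)
    (hDY : ∀ v ∈ D, ∀ y ∈ Y, |inner ℝ v y| ≤ 1) (s : Finset E)
    (hs : K ⊆ ⋃ x ∈ s, (x +ᵥ D))
    (R : ℝ) (hRpos : 0 < R) (hR : ∀ x ∈ s, ∀ y ∈ Y, |inner ℝ x y| ≤ R)
    (τ : ℝ) (hτ : 2 < τ) (ε : ℝ) (hε : 0 < ε)
    (k : ℕ) (hk : 0 < k) (hkR : 2 * R ^ 2 * Real.log (2 * (s.card : ℝ)) ≤ ε ^ 2 * k) :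
    ∃ T : Finset E, T.card ≤ (s.card * (⌊2 * R / (τ - 2)⌋₊ + 1)) ^ k ∧
      Y ⊆ ⋃ q ∈ T, (q +ᵥ ((τ + ε + 2) • polarBody K)) := by
  classical
  have hkpos : (0 : ℝ) < k := by exact_mod_cast hk
  have hτpos : 0 < τ := by linarith
  obtain ⟨l, hl, hne, hmax⟩ := exists_maximal_sepSeqT (τ := τ) hK0 hY0
    (s.card * (⌊2 * R / (τ - 2)⌋₊ + 1)) (fun l hl => SepSeqT.length_le hτ hDY s hs R hR l hl)
  set F : Finset E := (l.map Prod.snd).toFinset with hF
  have hFcard : F.card ≤ s.card * (⌊2 * R / (τ - 2)⌋₊ + 1) := by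
    calc F.card ≤ (l.map Prod.snd).length := List.toFinset_card_le _
      _ = l.length := List.length_map _
      _ ≤ s.card * (⌊2 * R / (τ - 2)⌋₊ + 1) := SepSeqT.length_le hτ hDY s hs R hR l hl
  have hFY : ∀ q ∈ F, q ∈ Y := by
    intro q hq
    rw [hF, List.mem_toFinset, List.mem_map] at hq
    obtain ⟨p, hp, rfl⟩ := hq
    exact (hl.1 p hp).2
  refine ⟨(Finset.univ : Finset (Fin k → F)).image
    (fun σ => (k : ℝ)⁻¹ • ∑ t, (σ t : E)), ?_, ?_⟩
  · calc ((Finset.univ : Finset (Fin k → F)).image (fun σ => (k : ℝ)⁻¹ • ∑ t, (σ t : E))).card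
        ≤ (Finset.univ : Finset (Fin k → F)).card := Finset.card_image_le
      _ = F.card ^ k := by
        rw [Finset.card_univ, Fintype.card_fun, Fintype.card_fin, Fintype.card_coe]
      _ ≤ (s.card * (⌊2 * R / (τ - 2)⌋₊ + 1)) ^ k := Nat.pow_le_pow_left hFcard k
  · intro y hy
    have hyC := mem_convexHull_add_of_maximalT hτpos hKv hKc hK0 l hl hne hmax y hy
    rw [Set.mem_add] at hyC
    obtain ⟨q, hq, zτ, hzτ, hyq⟩ := hyC
    rw [mem_smul_set] at hzτ
    obtain ⟨z, hz, rfl⟩ := hzτ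
    have hqY : q ∈ Y :=
      convexHull_min (fun q hq => hFY q (Finset.mem_coe.mp hq)) hYv hq
    rw [← hF, Finset.mem_convexHull'] at hq
    obtain ⟨wt, hwt0, hwt1, hwtq⟩ := hq
    -- Maurey's empirical method on the coordinates given by the centres
    have hw1 : ∑ j : F, wt j = 1 := by
      rw [Finset.sum_coe_sort F wt]
      exact hwt1
    have hM := maurey_sup_hoeffding (J := F) (ι := s) (fun j => wt j) (fun j => hwt0 j j.2) hw1
      (fun j x => inner ℝ (x : E) (j : E)) R hRpos (fun j x => hR x x.2 j (hFY j j.2))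
      ε hε k hk (by
        rw [Fintype.card_coe]
        exact hkR)
    obtain ⟨σ, hσ⟩ := hM
    simp only [mem_iUnion, exists_prop]
    refine ⟨(k : ℝ)⁻¹ • ∑ t, (σ t : E), Finset.mem_image_of_mem _ (Finset.mem_univ σ), ?_⟩
    set q' : E := (k : ℝ)⁻¹ • ∑ t, (σ t : E) with hq'
    -- the two points of the hull are close in the gauge of `K°`
    have hε2 : (0 : ℝ) < ε + 2 := by linarith
    have hz' : (ε + 2)⁻¹ • (q - q') ∈ polarBody K := by
      intro k0 hk0
      have hmem := hs hk0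
      simp only [mem_iUnion, exists_prop] at hmem
      obtain ⟨x, hx, hxl⟩ := hmem
      rw [mem_vadd_set] at hxl
      obtain ⟨v, hv, hxv⟩ := hxl
      rw [vadd_eq_add] at hxv
      have hxq : inner ℝ x q = ∑ j : F, wt j * inner ℝ x (j : E) := by
        rw [← hwtq, inner_sum, ← Finset.sum_coe_sort F]
        apply Finset.sum_congr rfl
        intro j _
        rw [real_inner_smul_right]
      have hxq' : inner ℝ x q' = (∑ t, inner ℝ x (σ t : E)) / k := by
        rw [hq', real_inner_smul_right, inner_sum]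
        field_simp
      have hm := hσ ⟨x, hx⟩
      simp only at hm
      rw [← hxq, ← hxq'] at hm
      have hm' := (abs_le.mp hm).2
      have hvq := (abs_le.mp (hDY v hv q hqY)).2
      have hvq' : -1 ≤ inner ℝ v q' := by
        rw [hq', real_inner_smul_right, inner_sum]
        have hterm : ∀ t ∈ (Finset.univ : Finset (Fin k)), (-1 : ℝ) ≤ inner ℝ v (σ t : E) :=
          fun t _ => (abs_le.mp (hDY v hv _ (hFY (σ t) (σ t).2))).1
        have hsum : ∑ _t : Fin k, (-1 : ℝ) ≤ ∑ t, inner ℝ v (σ t : E) :=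
          Finset.sum_le_sum hterm
        rw [Finset.sum_const, Finset.card_univ, Fintype.card_fin, nsmul_eq_mul] at hsum
        rw [le_inv_mul_iff₀ hkpos]
        linarith
      rw [real_inner_smul_right, ← hxv, inner_add_left, inner_sub_right, inner_sub_right,
        inv_mul_le_iff₀ hε2]
      linarith
    have hsum : 0 < τ + ε + 2 := by linarith
    rw [mem_vadd_set]
    refine ⟨(τ + ε + 2) • ((τ / (τ + ε + 2)) • z + ((ε + 2) / (τ + ε + 2)) •
      ((ε + 2)⁻¹ • (q - q'))), ?_, ?_⟩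
    · refine Set.smul_mem_smul_set
        (polarBody_convex K hz hz' (by positivity) (by positivity) ?_)
      field_simp
      ring
    · rw [vadd_eq_add, ← hyq, smul_add, smul_smul, smul_smul, smul_smul]
      have e1 : (τ + ε + 2) * (τ / (τ + ε + 2)) = τ := by field_simp
      have e2 : (τ + ε + 2) * ((ε + 2) / (τ + ε + 2)) * (ε + 2)⁻¹ = 1 := by field_simp
      rw [e1, e2, one_smul]
      abel

/-- One step at scale `ρ`: given a cover of `(127/(4ρ)) K` by translates of `(L + K/ρ)/2`, the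
part of `L°` inside `ρ K°` is covered by few translates of `(ρ/4) K°`. -/
theorem step_coverQ [CompleteSpace E] {K L : Set E}
    (hKv : Convex ℝ K) (hKc : IsClosed K) (hKs : ∀ x ∈ K, -x ∈ K) (hK0 : (0 : E) ∈ K)
    (hLs : ∀ x ∈ L, -x ∈ L)
    (ρ : ℝ) (hρ : 0 < ρ) (s : Finset E)
    (hs : (127 / (4 * ρ)) • K ⊆ ⋃ x ∈ s, (x +ᵥ ((1 / 2 : ℝ) • L + (1 / (2 * ρ)) • K)))
    (k : ℕ) (hk : 0 < k) (hkR : 158 * Real.log (2 * (s.card : ℝ)) ≤ k) :
    ∃ T : Finset E, T.card ≤ (s.card * 263) ^ k ∧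
      polarBody L ∩ (ρ • polarBody K) ⊆ ⋃ q ∈ T, (q +ᵥ ((ρ / 4) • polarBody K)) := by
  classical
  set c : ℝ := 4 * ρ / 127 with hc
  have hcpos : 0 < c := by positivity
  set K₁ : Set E := c⁻¹ • K with hK₁
  have hcK : (127 / (4 * ρ)) • K = K₁ := by
    rw [hK₁, hc]
    congr 1
    field_simp
  rw [hcK] at hs
  set D : Set E := (1 / 2 : ℝ) • L + (1 / (2 * ρ)) • K with hD
  set Y : Set E := polarBody L ∩ (ρ • polarBody K) with hY
  set s₁ : Finset E := s.filter (fun x => ∃ k₁ ∈ K₁, k₁ ∈ x +ᵥ D) with hs₁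
  have hK₁v : Convex ℝ K₁ := hKv.smul _
  have hK₁c : IsClosed K₁ := hKc.smul_of_ne_zero (inv_ne_zero hcpos.ne')
  have hK₁0 : (0 : E) ∈ K₁ := by
    rw [hK₁, mem_smul_set]
    exact ⟨0, hK0, smul_zero _⟩
  have hYv : Convex ℝ Y := (polarBody_convex L).inter ((polarBody_convex K).smul ρ)
  have hY0 : (0 : E) ∈ Y :=
    ⟨zero_mem_polarBody L, by
      rw [mem_smul_set]
      exact ⟨0, zero_mem_polarBody K, smul_zero _⟩⟩
  -- elements of `Y` are bounded by `ρ` on `K`
  have hYK : ∀ y ∈ Y, ∀ k0 ∈ K, |inner ℝ k0 y| ≤ ρ := by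
    intro y hy k0 hk0
    obtain ⟨_, hy2⟩ := hy
    rw [mem_smul_set] at hy2
    obtain ⟨y', hy', rfl⟩ := hy2
    have h := abs_inner_le_one_of_mem_polarBody hKs hy' hk0
    rw [real_inner_smul_right, abs_mul, abs_of_pos hρ]
    nlinarith [abs_nonneg (inner ℝ k0 y')]
  have hDY : ∀ v ∈ D, ∀ y ∈ Y, |inner ℝ v y| ≤ 1 := by
    intro v hv y hy
    rw [hD, Set.mem_add] at hv
    obtain ⟨a, ha, b, hb, rfl⟩ := hv
    rw [mem_smul_set] at ha hb
    obtain ⟨l0, hl0, rfl⟩ := ha
    obtain ⟨k0, hk0, rfl⟩ := hb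
    have h1 := abs_le.mp (abs_inner_le_one_of_mem_polarBody hLs hy.1 hl0)
    have h2 := abs_le.mp (hYK y hy k0 hk0)
    rw [inner_add_left, real_inner_smul_left, real_inner_smul_left, abs_le]
    have e : 1 / (2 * ρ) * inner ℝ k0 y = (inner ℝ k0 y / ρ) / 2 := by
      field_simp
    rw [e]
    have h3 : inner ℝ k0 y / ρ ≤ 1 := by
      rw [div_le_one hρ]
      exact h2.2
    have h4 : -1 ≤ inner ℝ k0 y / ρ := by
      rw [le_div_iff₀ hρ]
      linarith [h2.1]
    constructor <;> linarith [h1.1, h1.2]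
  have hcov : K₁ ⊆ ⋃ x ∈ s₁, (x +ᵥ D) := by
    intro k₁ hk₁
    have h := hs hk₁
    simp only [mem_iUnion, exists_prop] at h ⊢
    obtain ⟨x, hx, hxl⟩ := h
    refine ⟨x, ?_, hxl⟩
    rw [hs₁, Finset.mem_filter]
    exact ⟨hx, k₁, hk₁, hxl⟩
  have hR : ∀ x ∈ s₁, ∀ y ∈ Y, |inner ℝ x y| ≤ (131 / 4 : ℝ) := by
    intro x hx y hy
    rw [hs₁, Finset.mem_filter] at hx
    obtain ⟨_, k₁, hk₁, hk₁x⟩ := hx
    rw [mem_vadd_set] at hk₁x
    obtain ⟨v, hv, hxv⟩ := hk₁x
    rw [vadd_eq_add] at hxv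
    rw [hK₁, mem_smul_set] at hk₁
    obtain ⟨k0, hk0, hk0eq⟩ := hk₁
    have h1 := abs_le.mp (hYK y hy k0 hk0)
    have h2 := abs_le.mp (hDY v hv y hy)
    have h3 : inner ℝ x y = (127 / 4) * (inner ℝ k0 y / ρ) - inner ℝ v y := by
      have hx' : x = k₁ - v := eq_sub_of_add_eq hxv
      rw [hx', ← hk0eq, inner_sub_left, real_inner_smul_left, hc]
      field_simp
    have h4 : inner ℝ k0 y / ρ ≤ 1 := by
      rw [div_le_one hρ]
      exact h1.2
    have h5 : -1 ≤ inner ℝ k0 y / ρ := by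
      rw [le_div_iff₀ hρ]
      linarith [h1.1]
    rw [h3, abs_le]
    constructor <;> linarith [h2.1, h2.2]
  have hs₁card : s₁.card ≤ s.card := Finset.card_filter_le _ _
  have hs₁pos : 0 < s₁.card := by
    have h := hcov hK₁0
    simp only [mem_iUnion, exists_prop] at h
    obtain ⟨x, hx, _⟩ := h
    exact Finset.card_pos.mpr ⟨x, hx⟩
  have hk₁ : 2 * (131 / 4 : ℝ) ^ 2 * Real.log (2 * (s₁.card : ℝ)) ≤ (59 / 16 : ℝ) ^ 2 * k := by
    have hlog : Real.log (2 * (s₁.card : ℝ)) ≤ Real.log (2 * (s.card : ℝ)) := by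
      apply Real.log_le_log
      · have : (0 : ℝ) < s₁.card := by exact_mod_cast hs₁pos
        positivity
      · have : (s₁.card : ℝ) ≤ s.card := by exact_mod_cast hs₁card
        linarith
    have hlog0 : 0 ≤ Real.log (2 * (s₁.card : ℝ)) := by
      apply Real.log_nonneg
      have : (1 : ℝ) ≤ s₁.card := by exact_mod_cast hs₁pos
      linarith
    nlinarith [hlog, hkR, hlog0]
  obtain ⟨T, hTc, hT⟩ := local_cover hK₁v hK₁c hK₁0 hYv hY0 hDY s₁ hcov (131 / 4)
    (by norm_num) hR (9 / 4) (by norm_num) (59 / 16) (by norm_num) k hk hk₁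
  refine ⟨T, ?_, ?_⟩
  · have hfl : ⌊2 * (131 / 4 : ℝ) / (9 / 4 - 2)⌋₊ + 1 = 263 := by
      have : (2 * (131 / 4 : ℝ) / (9 / 4 - 2)) = ((262 : ℕ) : ℝ) := by norm_num
      rw [this, Nat.floor_natCast]
    rw [hfl] at hTc
    exact hTc.trans (Nat.pow_le_pow_left (Nat.mul_le_mul_right 263 hs₁card) k)
  · have hpolK₁ : polarBody K₁ = c • polarBody K := polarBody_inv_smul K hcpos
    rw [hpolK₁, smul_smul] at hT
    have h8 : (9 / 4 + 59 / 16 + 2 : ℝ) * c = ρ / 4 := by
      rw [hc]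
      ring
    rw [h8] at hT
    exact hT

/-- Halving the radius of a cover of `L°` by translates of `ρ K°`, given a cover of
`(127/(4ρ)) K` by translates of `(L + K/ρ)/2`. -/
theorem halve_coverQ [CompleteSpace E] {K L : Set E}
    (hKv : Convex ℝ K) (hKc : IsClosed K) (hKs : ∀ x ∈ K, -x ∈ K) (hK0 : (0 : E) ∈ K)
    (hLs : ∀ x ∈ L, -x ∈ L)
    (ρ : ℝ) (hρpos : 0 < ρ) (s : Finset E)
    (hs : (127 / (4 * ρ)) • K ⊆ ⋃ x ∈ s, (x +ᵥ ((1 / 2 : ℝ) • L + (1 / (2 * ρ)) • K)))
    (k : ℕ) (hk : 0 < k) (hkR : 158 * Real.log (2 * (s.card : ℝ)) ≤ k)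
    (T : Finset E) (hT : polarBody L ⊆ ⋃ p ∈ T, (p +ᵥ (ρ • polarBody K))) :
    ∃ T' : Finset E, T'.card ≤ T.card * (s.card * 263) ^ k ∧
      polarBody L ⊆ ⋃ p ∈ T', (p +ᵥ ((ρ / 2) • polarBody K)) := by
  classical
  obtain ⟨U, hUc, hU⟩ := step_coverQ hKv hKc hKs hK0 hLs ρ hρpos s hs k hk hkR
  -- a point of `L°` in each translate that meets `L°`
  let z : E → E := fun p =>
    if h : ∃ y ∈ polarBody L, y ∈ p +ᵥ (ρ • polarBody K) then h.choose else 0
  refine ⟨(T ×ˢ U).image (fun pq => z pq.1 + (2 : ℝ) • pq.2), ?_, ?_⟩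
  · calc ((T ×ˢ U).image (fun pq => z pq.1 + (2 : ℝ) • pq.2)).card
        ≤ (T ×ˢ U).card := Finset.card_image_le
      _ = T.card * U.card := Finset.card_product T U
      _ ≤ T.card * (s.card * 263) ^ k := Nat.mul_le_mul_left _ hUc
  · intro y hy
    have hmem := hT hy
    simp only [mem_iUnion, exists_prop] at hmem
    obtain ⟨p, hp, hyp⟩ := hmem
    have hex : ∃ y' ∈ polarBody L, y' ∈ p +ᵥ (ρ • polarBody K) := ⟨y, hy, hyp⟩
    have hzp : z p = hex.choose := dif_pos hex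
    obtain ⟨hzL, hzp'⟩ := hex.choose_spec
    rw [← hzp] at hzL hzp'
    -- half of the difference lies in `L° ∩ ρ K°`
    have hv : (1 / 2 : ℝ) • (y - z p) ∈ polarBody L ∩ ρ • polarBody K := by
      constructor
      · have h := polarBody_convex L hy (polarBody_symm hLs _ hzL)
          (by norm_num : (0 : ℝ) ≤ 1 / 2) (by norm_num : (0 : ℝ) ≤ 1 / 2) (by norm_num)
        rw [smul_sub, sub_eq_add_neg, ← smul_neg]
        exact h
      · rw [mem_vadd_set] at hyp hzp'
        obtain ⟨a', ha', hya⟩ := hyp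
        obtain ⟨b', hb', hzb⟩ := hzp'
        rw [mem_smul_set] at ha' hb'
        obtain ⟨a, ha, rfl⟩ := ha'
        obtain ⟨b, hb, rfl⟩ := hb'
        rw [vadd_eq_add] at hya hzb
        rw [mem_smul_set]
        refine ⟨(1 / 2 : ℝ) • a + (1 / 2 : ℝ) • (-b), polarBody_convex K ha
          (polarBody_symm hKs b hb) (by norm_num) (by norm_num) (by norm_num), ?_⟩
        rw [← hya, ← hzb]
        simp only [smul_add, smul_neg, smul_sub, smul_smul]
        have e1 : ρ * (1 / 2) = 1 / 2 * ρ := by ring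
        rw [e1]
        abel
    have hmem2 := hU hv
    simp only [mem_iUnion, exists_prop] at hmem2
    obtain ⟨q, hq, hvq⟩ := hmem2
    rw [mem_vadd_set] at hvq
    obtain ⟨e', he', hve⟩ := hvq
    rw [mem_smul_set] at he'
    obtain ⟨e, he, rfl⟩ := he'
    rw [vadd_eq_add] at hve
    simp only [mem_iUnion, exists_prop]
    refine ⟨z p + (2 : ℝ) • q, Finset.mem_image_of_mem (fun pq : E × E => z pq.1 + (2 : ℝ) • pq.2)
      (Finset.mk_mem_product hp hq), ?_⟩
    rw [mem_vadd_set]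
    refine ⟨(ρ / 2) • e, smul_mem_smul_set he, ?_⟩
    rw [vadd_eq_add]
    have e2 : y = z p + (2 : ℝ) • ((1 / 2 : ℝ) • (y - z p)) := by
      rw [smul_smul]
      norm_num
    rw [e2, ← hve, smul_add, smul_smul]
    have e3 : (2 : ℝ) * (ρ / 4) = ρ / 2 := by ring
    rw [e3]
    abel

/-- Iterating the halving step from radius `ρ₀ 2^i` down to `ρ₀`, with a local cover `S j` at
each scale `ρ₀ 2^(j+1)`. -/
theorem chain_coverQ [CompleteSpace E] {K L : Set E}
    (hKv : Convex ℝ K) (hKc : IsClosed K) (hKs : ∀ x ∈ K, -x ∈ K) (hK0 : (0 : E) ∈ K)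
    (hLs : ∀ x ∈ L, -x ∈ L) (ρ₀ : ℝ) (hρ₀ : 0 < ρ₀) (S : ℕ → Finset E)
    (hS : ∀ j, (127 / (4 * (ρ₀ * 2 ^ (j + 1)))) • K ⊆
      ⋃ x ∈ S j, (x +ᵥ ((1 / 2 : ℝ) • L + (1 / (2 * (ρ₀ * 2 ^ (j + 1)))) • K)))
    (k : ℕ) (hk : 0 < k) (hkR : ∀ j, 158 * Real.log (2 * ((S j).card : ℝ)) ≤ k) (i : ℕ) :
    ∀ T : Finset E, polarBody L ⊆ ⋃ p ∈ T, (p +ᵥ ((ρ₀ * 2 ^ i : ℝ) • polarBody K)) →
      ∃ T' : Finset E,
        T'.card ≤ T.card * (263 ^ i * ∏ j ∈ Finset.range i, (S j).card) ^ k ∧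
        polarBody L ⊆ ⋃ p ∈ T', (p +ᵥ (ρ₀ • polarBody K)) := by
  induction i with
  | zero =>
    intro T hT
    refine ⟨T, by simp, ?_⟩
    simpa using hT
  | succ i ih =>
    intro T hT
    have hρ : (0 : ℝ) < ρ₀ * 2 ^ (i + 1) := by positivity
    obtain ⟨T₁, hT₁c, hT₁⟩ := halve_coverQ hKv hKc hKs hK0 hLs _ hρ (S i) (hS i) k hk (hkR i) T hT
    have e : ρ₀ * 2 ^ (i + 1) / 2 = ρ₀ * 2 ^ i := by
      rw [pow_succ]
      ring
    rw [e] at hT₁
    obtain ⟨T', hT'c, hT'⟩ := ih T₁ hT₁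
    refine ⟨T', ?_, hT'⟩
    calc T'.card ≤ T₁.card * (263 ^ i * ∏ j ∈ Finset.range i, (S j).card) ^ k := hT'c
      _ ≤ T.card * ((S i).card * 263) ^ k * (263 ^ i * ∏ j ∈ Finset.range i, (S j).card) ^ k :=
        Nat.mul_le_mul_right _ hT₁c
      _ = T.card * (263 ^ (i + 1) * ∏ j ∈ Finset.range (i + 1), (S j).card) ^ k := by
        have e' : (S i).card * 263 * (263 ^ i * ∏ j ∈ Finset.range i, (S j).card)
            = 263 ^ (i + 1) * ∏ j ∈ Finset.range (i + 1), (S j).card := by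
          rw [Finset.prod_range_succ, pow_succ]
          ring
        rw [mul_assoc, ← mul_pow, e']

omit [InnerProductSpace ℝ E] in
/-- A nonempty set that has a finite cover has covering number at least one. -/
theorem one_le_coveringNumber {A B : Set E} (hA : A.Nonempty) (T : Finset E)
    (hT : A ⊆ ⋃ x ∈ T, (x +ᵥ B)) : 1 ≤ coveringNumber A B := by
  have hne : {m : ℕ | ∃ s : Finset E, s.card = m ∧ A ⊆ ⋃ x ∈ s, (x +ᵥ B)}.Nonempty :=
    ⟨T.card, T, rfl, hT⟩
  obtain ⟨s0, hs0c, hs0⟩ := Nat.sInf_mem hne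
  obtain ⟨a, ha⟩ := hA
  have h := hs0 ha
  simp only [mem_iUnion, exists_prop] at h
  obtain ⟨x, hx, _⟩ := h
  have hpos : 0 < s0.card := Finset.card_pos.mpr ⟨x, hx⟩
  have hc : s0.card = coveringNumber A B := hs0c
  omega

omit [InnerProductSpace ℝ E] in
/-- Covering numbers are monotone in the covered set. -/
theorem coveringNumber_mono_left {A A' B : Set E} (hAA' : A ⊆ A') (hA' : IsCompact A')
    (hB : (interior B).Nonempty) : coveringNumber A B ≤ coveringNumber A' B := by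
  obtain ⟨s, hsc, hs⟩ := coveringNumber_spec hA' hB
  rw [← hsc]
  exact coveringNumber_le s (hAA'.trans hs)

/-- The packing lemma behind the telescoping: from a cover `t` of `(σ + 1/(4ρ)) K` by translates
of `L/4` one gets a cover `s` of `σ K` by translates of `(L + K/ρ)/2` with
`|s| N(K/(4ρ), L/4) ≤ |t|`. -/
theorem exists_local_cover {K L : Set E} (hKv : Convex ℝ K) (hKs : ∀ x ∈ K, -x ∈ K)
    (hK0 : (0 : E) ∈ K) (hLv : Convex ℝ L) (hLs : ∀ x ∈ L, -x ∈ L) (hL0 : (0 : E) ∈ L)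
    (σ ρ : ℝ) (hσ : 0 < σ) (hρ : 0 < ρ) (t : Finset E)
    (ht : (σ + 1 / (4 * ρ)) • K ⊆ ⋃ w ∈ t, (w +ᵥ ((1 / 4 : ℝ) • L))) :
    ∃ s : Finset E, σ • K ⊆ ⋃ z ∈ s, (z +ᵥ ((1 / 2 : ℝ) • L + (1 / (2 * ρ)) • K)) ∧
      s.card * coveringNumber ((1 / (4 * ρ)) • K) ((1 / 4 : ℝ) • L) ≤ t.card := by
  classical
  set D : Set E := (1 / 2 : ℝ) • L + (1 / (2 * ρ)) • K with hD
  set n₀ : ℕ := coveringNumber ((1 / (4 * ρ)) • K) ((1 / 4 : ℝ) • L) with hn₀
  have hδ : (0 : ℝ) < 1 / (4 * ρ) := by positivity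
  have hD0 : (0 : E) ∈ D :=
    ⟨(1 / 2 : ℝ) • (0 : E), smul_mem_smul_set hL0, (1 / (2 * ρ)) • (0 : E),
      smul_mem_smul_set hK0, by simp⟩
  have hDs : ∀ v ∈ D, -v ∈ D := by
    intro v hv
    rw [hD, Set.mem_add] at hv
    obtain ⟨a, ha, b, hb, rfl⟩ := hv
    rw [mem_smul_set] at ha hb
    obtain ⟨l0, hl0, rfl⟩ := ha
    obtain ⟨k0, hk0, rfl⟩ := hb
    exact ⟨(1 / 2 : ℝ) • (-l0), smul_mem_smul_set (hLs l0 hl0), (1 / (2 * ρ)) • (-k0),
      smul_mem_smul_set (hKs k0 hk0), by simp only [smul_neg]; abel⟩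
  -- the sum of the two scaled copies of `K`
  have hsumK : ∀ z ∈ σ • K, ∀ q ∈ (1 / (4 * ρ)) • K, z + q ∈ (σ + 1 / (4 * ρ)) • K := by
    intro z hz q hq
    rw [hKv.add_smul hσ.le hδ.le]
    exact Set.add_mem_add hz hq
  -- two centres whose small copies of `K` meet a common translate of `L/4` are `D`-close
  have hkey : ∀ z z' w : E,
      (∃ p, p ∈ w +ᵥ ((1 / 4 : ℝ) • L) ∧ p ∈ z +ᵥ ((1 / (4 * ρ)) • K)) →
      (∃ p, p ∈ w +ᵥ ((1 / 4 : ℝ) • L) ∧ p ∈ z' +ᵥ ((1 / (4 * ρ)) • K)) → z - z' ∈ D := by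
    rintro z z' w ⟨p, hpw, hpz⟩ ⟨p', hpw', hpz'⟩
    rw [mem_vadd_set] at hpw hpz hpw' hpz'
    obtain ⟨a, ha, rfl⟩ := hpw
    obtain ⟨b, hb, hbz⟩ := hpz
    obtain ⟨a', ha', rfl⟩ := hpw'
    obtain ⟨b', hb', hbz'⟩ := hpz'
    rw [mem_smul_set] at ha hb ha' hb'
    obtain ⟨l0, hl0, rfl⟩ := ha
    obtain ⟨k0, hk0, rfl⟩ := hb
    obtain ⟨l1, hl1, rfl⟩ := ha'
    obtain ⟨k1, hk1, rfl⟩ := hb'
    rw [vadd_eq_add, vadd_eq_add] at hbz hbz'
    refine ⟨(1 / 2 : ℝ) • ((1 / 2 : ℝ) • l0 + (1 / 2 : ℝ) • (-l1)),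
      smul_mem_smul_set (hLv hl0 (hLs l1 hl1) (by norm_num) (by norm_num) (by norm_num)),
      (1 / (2 * ρ)) • ((1 / 2 : ℝ) • k1 + (1 / 2 : ℝ) • (-k0)),
      smul_mem_smul_set (hKv hk1 (hKs k0 hk0) (by norm_num) (by norm_num) (by norm_num)), ?_⟩
    have hz : z = w + (1 / 4 : ℝ) • l0 - (1 / (4 * ρ)) • k0 := eq_sub_of_add_eq hbz
    have hz' : z' = w + (1 / 4 : ℝ) • l1 - (1 / (4 * ρ)) • k1 := eq_sub_of_add_eq hbz'
    rw [hz, hz']
    simp only [smul_add, smul_neg, smul_smul]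
    have e1 : (1 / 2 : ℝ) * (1 / 2) = 1 / 4 := by norm_num
    have e2 : 1 / (2 * ρ) * (1 / 2) = 1 / (4 * ρ) := by
      field_simp
      ring
    rw [e1, e2]
    abel
  -- separated sets
  set Sep : Finset E → Prop := fun s =>
    (∀ z ∈ s, z ∈ σ • K) ∧ ∀ z ∈ s, ∀ z' ∈ s, z ≠ z' → z - z' ∉ D with hSep
  have hcount : ∀ s, Sep s → s.card * n₀ ≤ t.card := by
    intro s hsSep
    obtain ⟨hsK, hsD⟩ := hsSep
    set f : E → Finset E := fun z => t.filter
      (fun w => ∃ p, p ∈ w +ᵥ ((1 / 4 : ℝ) • L) ∧ p ∈ z +ᵥ ((1 / (4 * ρ)) • K)) with hf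
    have h1 : ∀ z ∈ s, n₀ ≤ (f z).card := by
      intro z hz
      have hcov : (1 / (4 * ρ)) • K ⊆
          ⋃ w' ∈ (f z).image (fun w => w - z), (w' +ᵥ ((1 / 4 : ℝ) • L)) := by
        intro q hq
        have hmem := ht (hsumK z (hsK z hz) q hq)
        simp only [mem_iUnion, exists_prop] at hmem ⊢
        obtain ⟨w, hw, hzq⟩ := hmem
        refine ⟨w - z, Finset.mem_image_of_mem _ ?_, ?_⟩
        · simp only [hf, Finset.mem_filter]
          exact ⟨hw, z + q, hzq, by rw [mem_vadd_set]; exact ⟨q, hq, rfl⟩⟩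
        · rw [mem_vadd_set] at hzq ⊢
          obtain ⟨a, ha, hwa⟩ := hzq
          refine ⟨a, ha, ?_⟩
          rw [vadd_eq_add] at hwa ⊢
          rw [sub_add_eq_add_sub, hwa]
          abel
      exact (coveringNumber_le _ hcov).trans Finset.card_image_le
    have h2 : ∀ z ∈ s, ∀ z' ∈ s, z ≠ z' → Disjoint (f z) (f z') := by
      intro z hz z' hz' hne
      rw [Finset.disjoint_left]
      intro w hw hw'
      simp only [hf, Finset.mem_filter] at hw hw'
      exact hsD z hz z' hz' hne (hkey z z' w hw.2 hw'.2)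
    calc s.card * n₀ = ∑ _z ∈ s, n₀ := by rw [Finset.sum_const, smul_eq_mul]
      _ ≤ ∑ z ∈ s, (f z).card := Finset.sum_le_sum h1
      _ = (s.biUnion f).card := (Finset.card_biUnion h2).symm
      _ ≤ t.card := Finset.card_le_card (by
          intro w hw
          rw [Finset.mem_biUnion] at hw
          obtain ⟨z, _, hwz⟩ := hw
          simp only [hf, Finset.mem_filter] at hwz
          exact hwz.1)
  have hn₀pos : 1 ≤ n₀ := by
    have hsub : (1 / (4 * ρ)) • K ⊆ ⋃ w ∈ t, (w +ᵥ ((1 / 4 : ℝ) • L)) := by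
      intro q hq
      have h0 : (0 : E) ∈ σ • K := ⟨0, hK0, smul_zero _⟩
      have h := hsumK 0 h0 q hq
      rw [zero_add] at h
      exact ht h
    exact one_le_coveringNumber ⟨0, 0, hK0, smul_zero _⟩ t hsub
  -- a separated set of maximal cardinality
  set P : ℕ → Prop := fun n => ∃ s, Sep s ∧ s.card = n with hP
  have hP0 : P 0 := ⟨∅, ⟨by simp, by simp⟩, rfl⟩
  have hPle : ∀ n, P n → n ≤ t.card := by
    rintro n ⟨s, hs, rfl⟩
    have h := hcount s hs
    nlinarith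
  obtain ⟨s, hs, hcard⟩ := Nat.findGreatest_spec (Nat.zero_le t.card) hP0
  refine ⟨s, ?_, hcount s hs⟩
  intro p hp
  by_contra hcon
  simp only [mem_iUnion, exists_prop, not_exists, not_and] at hcon
  have hpD : ∀ z ∈ s, p - z ∉ D := by
    intro z hz hmem
    exact hcon z hz (by rw [mem_vadd_set]; exact ⟨p - z, hmem, by simp⟩)
  have hps : p ∉ s := by
    intro hps
    exact hpD p hps (by rw [sub_self]; exact hD0)
  have hSep' : Sep (insert p s) := by
    refine ⟨?_, ?_⟩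
    · intro z hz
      rw [Finset.mem_insert] at hz
      rcases hz with rfl | hz
      · exact hp
      · exact hs.1 z hz
    · intro z hz z' hz' hne
      rw [Finset.mem_insert] at hz hz'
      rcases hz with hz | hz <;> rcases hz' with hz' | hz'
      · rw [hz, hz'] at hne
        exact absurd rfl hne
      · rw [hz]
        exact hpD z' hz'
      · rw [hz']
        intro hmem
        apply hpD z hz
        have h := hDs _ hmem
        rwa [neg_sub] at h
      · exact hs.2 z hz z' hz' hne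
  have hPn : P (Nat.findGreatest P t.card + 1) :=
    ⟨insert p s, hSep', by rw [Finset.card_insert_of_notMem hps, hcard]⟩
  have hle := hPle _ hPn
  have h := Nat.le_findGreatest hle hPn
  omega

/-- Telescoping products: if `m j a (j+7) ≤ a j` for an antitone sequence `a ≥ 1`, then every
finite product of the `m j` is at most `a 0 ^ 7`. -/
theorem prod_le_of_shift (m a : ℕ → ℕ) (ha1 : ∀ i, 1 ≤ a i) (ha : ∀ i, a (i + 1) ≤ a i)
    (h : ∀ j, m j * a (j + 7) ≤ a j) (I : ℕ) : ∏ j ∈ Finset.range I, m j ≤ a 0 ^ 7 := by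
  have key : ∀ I, (∏ j ∈ Finset.range I, m j) * ∏ i ∈ Finset.range 7, a (I + i) ≤
      ∏ i ∈ Finset.range 7, a i := by
    intro I
    induction I with
    | zero => simp
    | succ I ih =>
      have e1 : ∏ i ∈ Finset.range 7, a (I + 1 + i) =
          (∏ i ∈ Finset.range 6, a (I + 1 + i)) * a (I + 7) :=
        Finset.prod_range_succ (fun i => a (I + 1 + i)) 6
      have e2 : ∏ i ∈ Finset.range 7, a (I + i) =
          (∏ i ∈ Finset.range 6, a (I + 1 + i)) * a I := by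
        have h2 := Finset.prod_range_succ' (fun i => a (I + i)) 6
        have h3 : ∏ i ∈ Finset.range 6, a (I + (i + 1)) = ∏ i ∈ Finset.range 6, a (I + 1 + i) :=
          Finset.prod_congr rfl (fun i _ => by congr 1; omega)
        rw [h3] at h2
        exact h2
      calc (∏ j ∈ Finset.range (I + 1), m j) * ∏ i ∈ Finset.range 7, a (I + 1 + i)
          = (∏ j ∈ Finset.range I, m j) * ((∏ i ∈ Finset.range 6, a (I + 1 + i)) *
              (m I * a (I + 7))) := by
            rw [Finset.prod_range_succ, e1]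
            ring
        _ ≤ (∏ j ∈ Finset.range I, m j) * ((∏ i ∈ Finset.range 6, a (I + 1 + i)) * a I) :=
            Nat.mul_le_mul_left _ (Nat.mul_le_mul_left _ (h I))
        _ = (∏ j ∈ Finset.range I, m j) * ∏ i ∈ Finset.range 7, a (I + i) := by rw [e2]
        _ ≤ ∏ i ∈ Finset.range 7, a i := ih
  have hanti : ∀ i, a i ≤ a 0 := by
    intro i
    induction i with
    | zero => exact le_rfl
    | succ i ih => exact (ha i).trans ih
  have hpos : 0 < ∏ i ∈ Finset.range 7, a (I + i) := Finset.prod_pos (fun i _ => ha1 _)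
  calc ∏ j ∈ Finset.range I, m j
      ≤ (∏ j ∈ Finset.range I, m j) * ∏ i ∈ Finset.range 7, a (I + i) :=
        Nat.le_mul_of_pos_right _ hpos
    _ ≤ ∏ i ∈ Finset.range 7, a i := key I
    _ ≤ a 0 ^ (Finset.range 7).card := Finset.prod_le_pow_card _ _ _ (fun i _ => hanti i)
    _ = a 0 ^ 7 := by rw [Finset.card_range]

/-- Natural-number form of the quadratic duality bound. -/
theorem quad_duality_nat [FiniteDimensional ℝ E] {K L : Set E}
    (hKc : IsCompact K) (hKv : Convex ℝ K) (hKi : (interior K).Nonempty)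
    (hKs : ∀ x ∈ K, -x ∈ K) (hLv : Convex ℝ L) (hLi : (interior L).Nonempty)
    (hLs : ∀ x ∈ L, -x ∈ L) :
    1 ≤ coveringNumber K L ∧
    coveringNumber (polarBody L) ((32 : ℝ) • polarBody K) ≤
      (263 ^ (Nat.clog 2 (coveringNumber K L) + 1) * coveringNumber K L ^ 8) ^
        ⌈158 * Real.log (2 * (coveringNumber K L : ℝ))⌉₊ := by
  classical
  obtain ⟨s₀, hsc, hs₀⟩ := coveringNumber_spec hKc hLi
  have hK0 : (0 : E) ∈ K := zero_mem_of_convex_symm hKv hKi hKs
  have hL0 : (0 : E) ∈ L := zero_mem_of_convex_symm hLv hLi hLs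
  have hbal := balanced_of_convex_symm hKv hKs
  have hm1 : 1 ≤ s₀.card := by
    have h := hs₀ hK0
    simp only [mem_iUnion, exists_prop] at h
    obtain ⟨x, hx, _⟩ := h
    exact Finset.card_pos.mpr ⟨x, hx⟩
  -- the covering numbers at dyadic scales
  set a : ℕ → ℕ := fun i => coveringNumber (((1 / 2 : ℝ) ^ i) • K) L with ha_def
  have hcompact : ∀ c : ℝ, IsCompact (c • K) := fun c => hKc.smul c
  have ha0 : a 0 = coveringNumber K L := by simp [ha_def]
  have ha1 : ∀ i, 1 ≤ a i := by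
    intro i
    obtain ⟨t, _, ht⟩ := coveringNumber_spec (hcompact ((1 / 2 : ℝ) ^ i)) hLi
    exact one_le_coveringNumber ⟨0, 0, hK0, smul_zero _⟩ t ht
  have hanti : ∀ i, a (i + 1) ≤ a i := by
    intro i
    apply coveringNumber_mono_left _ (hcompact _) hLi
    intro x hx
    rw [mem_smul_set] at hx ⊢
    obtain ⟨k0, hk0, rfl⟩ := hx
    refine ⟨(1 / 2 : ℝ) • k0, hbal k0 hk0 _ (by rw [abs_of_pos] <;> norm_num), ?_⟩
    rw [smul_smul, pow_succ]
  have hanti0 : ∀ i, a i ≤ a 0 := by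
    intro i
    induction i with
    | zero => exact le_rfl
    | succ i ih => exact (hanti i).trans ih
  have hL4 : (interior ((1 / 4 : ℝ) • L)).Nonempty := by
    rw [interior_smul₀ (by norm_num : (1 / 4 : ℝ) ≠ 0)]
    exact hLi.smul_set
  -- local covers at the scales `64 * 2^(j+1)`
  have hloc : ∀ j : ℕ, ∃ s : Finset E,
      (127 / (4 * (64 * 2 ^ (j + 1) : ℝ))) • K ⊆
        ⋃ x ∈ s, (x +ᵥ ((1 / 2 : ℝ) • L + (1 / (2 * (64 * 2 ^ (j + 1) : ℝ))) • K)) ∧
      s.card * a (j + 7) ≤ a j := by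
    intro j
    set ρ : ℝ := 64 * 2 ^ (j + 1) with hρdef
    have hρ : 0 < ρ := by positivity
    set σ : ℝ := 127 / (4 * ρ) with hσdef
    have hσ : 0 < σ := by positivity
    obtain ⟨t, htc, ht⟩ := coveringNumber_spec (hcompact (σ + 1 / (4 * ρ))) hL4
    obtain ⟨s, hs, hcard⟩ := exists_local_cover hKv hKs hK0 hLv hLs hL0 σ ρ hσ hρ t ht
    refine ⟨s, hs, ?_⟩
    have e1 : coveringNumber ((1 / (4 * ρ)) • K) ((1 / 4 : ℝ) • L) = a (j + 7) := by
      have h : (1 / (4 * ρ)) • K = (1 / 4 : ℝ) • (((1 / 2 : ℝ) ^ (j + 7)) • K) := by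
        rw [smul_smul]
        congr 1
        rw [hρdef, one_div_pow]
        field_simp
        ring
      rw [h, coveringNumber_smul _ _ (by norm_num : (1 / 4 : ℝ) ≠ 0)]
    have e2 : t.card = a j := by
      rw [htc]
      have h : (σ + 1 / (4 * ρ)) • K = (1 / 4 : ℝ) • (((1 / 2 : ℝ) ^ j) • K) := by
        rw [smul_smul]
        congr 1
        rw [hσdef, hρdef, one_div_pow]
        field_simp
        ring
      rw [h, coveringNumber_smul _ _ (by norm_num : (1 / 4 : ℝ) ≠ 0)]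
    rw [e1, e2] at hcard
    exact hcard
  choose S hS hScard using hloc
  -- the local cover at scale `64`, obtained from the global cover
  set S0 : Finset E := s₀.image (fun x => (1 / 2 : ℝ) • x) with hS0
  have hS0cov : (127 / (4 * (64 : ℝ))) • K ⊆
      ⋃ x ∈ S0, (x +ᵥ ((1 / 2 : ℝ) • L + (1 / (2 * (64 : ℝ))) • K)) := by
    intro p hp
    rw [mem_smul_set] at hp
    obtain ⟨k0, hk0, rfl⟩ := hp
    have hk1 : (127 / 128 : ℝ) • k0 ∈ K :=
      hbal k0 hk0 _ (by rw [abs_of_pos] <;> norm_num)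
    have h := hs₀ hk1
    simp only [mem_iUnion, exists_prop] at h ⊢
    obtain ⟨x, hx, hxl⟩ := h
    rw [mem_vadd_set] at hxl
    obtain ⟨l0, hl0, hxl0⟩ := hxl
    refine ⟨(1 / 2 : ℝ) • x, Finset.mem_image_of_mem _ hx, ?_⟩
    rw [mem_vadd_set]
    refine ⟨(1 / 2 : ℝ) • l0 + (1 / (2 * (64 : ℝ))) • (0 : E),
      Set.add_mem_add (smul_mem_smul_set hl0) (smul_mem_smul_set hK0), ?_⟩
    rw [vadd_eq_add] at hxl0 ⊢
    rw [smul_zero, add_zero, ← smul_add, hxl0, smul_smul]
    norm_num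
  have hS0card : S0.card ≤ s₀.card := Finset.card_image_le
  rw [← hsc]
  refine ⟨hm1, ?_⟩
  rw [hsc]
  set M : ℕ := coveringNumber K L with hMdef
  have hM1 : 1 ≤ M := by
    rw [← hsc]
    exact hm1
  have hM1' : (1 : ℝ) ≤ M := by exact_mod_cast hM1
  set k : ℕ := ⌈158 * Real.log (2 * (M : ℝ))⌉₊ with hkdef
  have hlogpos : 0 < Real.log (2 * (M : ℝ)) := Real.log_pos (by linarith)
  have hk : 0 < k := Nat.ceil_pos.mpr (by positivity)
  have hkM : 158 * Real.log (2 * (M : ℝ)) ≤ k := Nat.le_ceil _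
  have hcardle : ∀ n : ℕ, n ≤ M → 158 * Real.log (2 * (n : ℝ)) ≤ k := by
    intro n hn
    rcases Nat.eq_zero_or_pos n with h0 | hpos
    · rw [h0]
      simp
    · have hn' : (n : ℝ) ≤ M := by exact_mod_cast hn
      have hpos' : (0 : ℝ) < n := by exact_mod_cast hpos
      have h : Real.log (2 * (n : ℝ)) ≤ Real.log (2 * (M : ℝ)) :=
        Real.log_le_log (by positivity) (by linarith)
      linarith
  have hSle : ∀ j, (S j).card ≤ M := by
    intro j
    calc (S j).card ≤ (S j).card * a (j + 7) := Nat.le_mul_of_pos_right _ (ha1 (j + 7))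
      _ ≤ a j := hScard j
      _ ≤ a 0 := hanti0 j
      _ = M := ha0
  -- the trivial cover at a large scale
  set I : ℕ := Nat.clog 2 M with hI
  have hinit : polarBody L ⊆
      ⋃ p ∈ ({0} : Finset E), (p +ᵥ ((64 * 2 ^ I : ℝ) • polarBody K)) := by
    intro y hy
    simp only [Finset.mem_singleton, iUnion_iUnion_eq_left]
    have hcpos : (0 : ℝ) < 64 * 2 ^ I := by positivity
    have hcm : (s₀.card : ℝ) ≤ 64 * 2 ^ I := by
      have h1 : M ≤ 2 ^ I := Nat.le_pow_clog (by norm_num) _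
      have h2 : (M : ℝ) ≤ 2 ^ I := by exact_mod_cast h1
      have h3 : (0 : ℝ) ≤ 2 ^ I := by positivity
      have h4 : (s₀.card : ℝ) = M := by exact_mod_cast hsc
      linarith
    rw [mem_vadd_set]
    refine ⟨y, ?_, by simp⟩
    rw [mem_smul_set_iff_inv_smul_mem₀ hcpos.ne']
    intro k0 hk0
    have h := (abs_le.mp (abs_inner_le_card hbal hLs s₀ hs₀ hy hk0)).2
    rw [real_inner_smul_right, inv_mul_le_iff₀ hcpos]
    linarith
  obtain ⟨T₁, hT₁c, hT₁⟩ := chain_coverQ hKv hKc.isClosed hKs hK0 hLs 64 (by norm_num) S hS k hk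
    (fun j => hcardle _ (hSle j)) I {0} hinit
  obtain ⟨T', hT'c, hT'⟩ := halve_coverQ hKv hKc.isClosed hKs hK0 hLs 64 (by norm_num) S0 hS0cov
    k hk (hcardle _ (hS0card.trans hsc.le)) T₁ hT₁
  have e32 : (64 : ℝ) / 2 = 32 := by norm_num
  rw [e32] at hT'
  refine (coveringNumber_le T' hT').trans ?_
  have hprod : ∏ j ∈ Finset.range I, (S j).card ≤ M ^ 7 := by
    have h := prod_le_of_shift (fun j => (S j).card) a ha1 hanti hScard I
    rwa [ha0] at h
  have e : 263 ^ I * M ^ 7 * (M * 263) = 263 ^ (I + 1) * M ^ 8 := by ring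
  calc T'.card ≤ T₁.card * (S0.card * 263) ^ k := hT'c
    _ ≤ (263 ^ I * M ^ 7) ^ k * (M * 263) ^ k := by
        apply Nat.mul_le_mul
        · calc T₁.card
              ≤ ({0} : Finset E).card * (263 ^ I * ∏ j ∈ Finset.range I, (S j).card) ^ k := hT₁c
            _ = (263 ^ I * ∏ j ∈ Finset.range I, (S j).card) ^ k := by
              rw [Finset.card_singleton, one_mul]
            _ ≤ (263 ^ I * M ^ 7) ^ k := Nat.pow_le_pow_left (Nat.mul_le_mul_left _ hprod) k
        · exact Nat.pow_le_pow_left (Nat.mul_le_mul_right _ (hS0card.trans hsc.le)) k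
    _ = (263 ^ (I + 1) * M ^ 8) ^ k := by rw [← mul_pow, e]

/-- The numerical estimate behind the final form of the quadratic bound. -/
theorem quad_bound (m : ℕ) (hm : 1 ≤ m) :
    Real.log (((263 ^ (Nat.clog 2 m + 1) * m ^ 8) ^ ⌈158 * Real.log (2 * (m : ℝ))⌉₊ : ℕ) : ℝ) ≤
      2600 * (1 + Real.log (m : ℝ)) ^ 2 := by
  have hm' : (1 : ℝ) ≤ m := by exact_mod_cast hm
  have hmpos : (0 : ℝ) < m := by linarith
  set ℓ : ℝ := Real.log (m : ℝ) with hℓ
  have hℓ0 : 0 ≤ ℓ := Real.log_nonneg hm'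
  have hl2a := Real.log_two_gt_d9
  have hl2b := Real.log_two_lt_d9
  have hlog2m : Real.log (2 * (m : ℝ)) = Real.log 2 + ℓ :=
    Real.log_mul (by norm_num) hmpos.ne'
  have hk : ((⌈158 * Real.log (2 * (m : ℝ))⌉₊ : ℕ) : ℝ) ≤ 158 * ℓ + 110.6 := by
    have h0 : 0 ≤ 158 * Real.log (2 * (m : ℝ)) := by
      rw [hlog2m]
      positivity
    have h1 := Nat.ceil_lt_add_one h0
    linarith [hlog2m]
  have hJ : ((Nat.clog 2 m : ℕ) : ℝ) ≤ 1.45 * ℓ + 1 := by
    have hJ' : ((Nat.clog 2 m : ℕ) : ℝ) * Real.log 2 ≤ ℓ + Real.log 2 := by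
      rcases Nat.lt_or_ge 1 m with h1 | h1
      · have h2 := Nat.pow_pred_clog_lt_self (by norm_num : 1 < 2) h1
        have h3 : ((2 : ℝ)) ^ (Nat.clog 2 m).pred < m := by exact_mod_cast h2
        have h4 : Real.log ((2 : ℝ) ^ (Nat.clog 2 m).pred) < ℓ :=
          Real.log_lt_log (by positivity) h3
        rw [Real.log_pow] at h4
        have h5 : ((Nat.clog 2 m : ℕ) : ℝ) ≤ ((Nat.clog 2 m).pred : ℕ) + 1 := by
          have : Nat.clog 2 m ≤ (Nat.clog 2 m).pred + 1 := by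
            rw [Nat.pred_eq_sub_one]
            omega
          exact_mod_cast this
        nlinarith
      · have hm1 : m = 1 := le_antisymm h1 hm
        rw [hm1]
        simp
        linarith
    have h6 : ℓ + Real.log 2 ≤ (1.45 * ℓ + 1) * Real.log 2 := by nlinarith
    exact le_of_mul_le_mul_right (hJ'.trans h6) (by linarith)
  have h263 : Real.log (263 : ℝ) ≤ 5.573 := by
    have h1 : Real.log (263 : ℝ) = Real.log (263 / 256) + Real.log 256 := by
      rw [← Real.log_mul (by norm_num) (by norm_num)]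
      norm_num
    have h2 : Real.log (263 / 256 : ℝ) ≤ 263 / 256 - 1 :=
      Real.log_le_sub_one_of_pos (by norm_num)
    have h3 : Real.log (256 : ℝ) = 8 * Real.log 2 := by
      rw [show (256 : ℝ) = 2 ^ 8 by norm_num, Real.log_pow]
      norm_num
    rw [h1, h3]
    linarith
  have h263' : 0 ≤ Real.log (263 : ℝ) := Real.log_nonneg (by norm_num)
  have hk0 : (0 : ℝ) ≤ ((⌈158 * Real.log (2 * (m : ℝ))⌉₊ : ℕ) : ℝ) := Nat.cast_nonneg _
  have hJ0 : (0 : ℝ) ≤ ((Nat.clog 2 m : ℕ) : ℝ) := Nat.cast_nonneg _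
  -- assemble
  have hcast : (((263 ^ (Nat.clog 2 m + 1) * m ^ 8) ^ ⌈158 * Real.log (2 * (m : ℝ))⌉₊ : ℕ) : ℝ)
      = ((263 : ℝ) ^ (Nat.clog 2 m + 1) * (m : ℝ) ^ 8) ^ ⌈158 * Real.log (2 * (m : ℝ))⌉₊ := by
    norm_cast
  have hlogeq : Real.log (((263 : ℝ) ^ (Nat.clog 2 m + 1) * (m : ℝ) ^ 8) ^
        ⌈158 * Real.log (2 * (m : ℝ))⌉₊)
      = ((⌈158 * Real.log (2 * (m : ℝ))⌉₊ : ℕ) : ℝ) *
        ((((Nat.clog 2 m : ℕ) : ℝ) + 1) * Real.log 263 + 8 * ℓ) := by
    rw [Real.log_pow, Real.log_mul (x := (263 : ℝ) ^ (Nat.clog 2 m + 1)) (y := (m : ℝ) ^ 8)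
      (by positivity) (by positivity), Real.log_pow, Real.log_pow]
    push_cast
    ring
  rw [hcast, hlogeq]
  have hinner : (((Nat.clog 2 m : ℕ) : ℝ) + 1) * Real.log 263 + 8 * ℓ
      ≤ (1.45 * ℓ + 2) * 5.573 + 8 * ℓ := by
    have h : (((Nat.clog 2 m : ℕ) : ℝ) + 1) * Real.log 263 ≤ (1.45 * ℓ + 2) * 5.573 :=
      mul_le_mul (by linarith) h263 h263' (by positivity)
    linarith
  calc ((⌈158 * Real.log (2 * (m : ℝ))⌉₊ : ℕ) : ℝ) *
        ((((Nat.clog 2 m : ℕ) : ℝ) + 1) * Real.log 263 + 8 * ℓ)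
      ≤ (158 * ℓ + 110.6) * ((1.45 * ℓ + 2) * 5.573 + 8 * ℓ) :=
        mul_le_mul hk hinner (by positivity) (by positivity)
    _ ≤ 2600 * (1 + ℓ) ^ 2 := by nlinarith [pow_nonneg hℓ0 2, hℓ0]

/-- **Dimension-free duality of metric entropy up to a quadratic loss**, first half:
`log N(L°, 32 K°) ≤ 2600 (1 + log N(K, L))^2`. -/
theorem quad_duality_left [FiniteDimensional ℝ E] {K L : Set E}
    (hKc : IsCompact K) (hKv : Convex ℝ K) (hKi : (interior K).Nonempty)
    (hKs : ∀ x ∈ K, -x ∈ K) (hLv : Convex ℝ L) (hLi : (interior L).Nonempty)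
    (hLs : ∀ x ∈ L, -x ∈ L) :
    Real.log (coveringNumber (polarBody L) ((32 : ℝ) • polarBody K) : ℝ) ≤
      2600 * (1 + Real.log (coveringNumber K L : ℝ)) ^ 2 := by
  obtain ⟨hm, hN⟩ := quad_duality_nat hKc hKv hKi hKs hLv hLi hLs
  have hb := quad_bound (coveringNumber K L) hm
  rcases Nat.eq_zero_or_pos (coveringNumber (polarBody L) ((32 : ℝ) • polarBody K)) with h0 | hpos
  · rw [h0]
    simp only [Nat.cast_zero, Real.log_zero]
    have : (0 : ℝ) ≤ Real.log (coveringNumber K L : ℝ) :=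
      Real.log_nonneg (by exact_mod_cast hm)
    positivity
  · refine le_trans (Real.log_le_log (by exact_mod_cast hpos) ?_) hb
    exact_mod_cast hN

/-- **Dimension-free duality of metric entropy up to a quadratic loss**, second half:
`log N(K, L) ≤ 2600 (1 + log N(L°, K°/32))^2`. -/
theorem quad_duality_right [FiniteDimensional ℝ E] {K L : Set E}
    (hKc : IsCompact K) (hKv : Convex ℝ K) (hKi : (interior K).Nonempty)
    (hKs : ∀ x ∈ K, -x ∈ K)
    (hLc : IsCompact L) (hLv : Convex ℝ L) (hLi : (interior L).Nonempty)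
    (hLs : ∀ x ∈ L, -x ∈ L) :
    Real.log (coveringNumber K L : ℝ) ≤
      2600 * (1 + Real.log (coveringNumber (polarBody L) ((32 : ℝ)⁻¹ • polarBody K) : ℝ)) ^ 2 := by
  have hLpc : IsCompact (polarBody L) := polarBody_isCompact hLv hLi hLs
  have hLpi : (interior (polarBody L)).Nonempty := by
    have h := interior_smul_polarBody_nonempty hLc (c := 1) one_pos
    rwa [one_smul] at h
  have hKpi : (interior ((32 : ℝ)⁻¹ • polarBody K)).Nonempty :=
    interior_smul_polarBody_nonempty hKc (by norm_num)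
  have hsymm : ∀ x ∈ (32 : ℝ)⁻¹ • polarBody K, -x ∈ (32 : ℝ)⁻¹ • polarBody K := by
    intro x hx
    rw [mem_smul_set] at hx ⊢
    obtain ⟨y, hy, rfl⟩ := hx
    exact ⟨-y, polarBody_symm hKs y hy, by rw [smul_neg]⟩
  have h := quad_duality_left hLpc (polarBody_convex L) hLpi (polarBody_symm hLs)
    ((polarBody_convex K).smul _) hKpi hsymm
  have h0K : (0 : E) ∈ K := zero_mem_of_convex_symm hKv hKi hKs
  have h0L : (0 : E) ∈ L := zero_mem_of_convex_symm hLv hLi hLs
  rw [polarBody_inv_smul _ (by norm_num : (0 : ℝ) < 32),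
    polarBody_polarBody hKv hKc.isClosed h0K, polarBody_polarBody hLv hLc.isClosed h0L,
    coveringNumber_smul K L (by norm_num : (32 : ℝ) ≠ 0)] at h
  exact h

end Vale.Agent.H34
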