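import Vale.Agent.H34.Entropy
import Vale.Agent.H34.Maurey

/-!
# Dimension-free duality of metric entropy up to a polylogarithmic loss

Supporting file for problem P126.
-/

namespace Vale.Agent.H34

open Set
open scoped Pointwise

variable {E : Type*} [NormedAddCommGroup E] [InnerProductSpace ℝ E]

/-- A convexly separated sequence with witnesses, stored with the latest element first:
each pair `(k, y)` has `k ∈ K`, `y ∈ Y`, and `⟨k, y - y'⟩ ≥ 4` for every earlier `y'`. -/
def SepSeq (K Y : Set E) (l : List (E × E)) : Prop :=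
  (∀ p ∈ l, p.1 ∈ K ∧ p.2 ∈ Y) ∧ l.Pairwise (fun a b => 4 ≤ inner ℝ a.1 (a.2 - b.2))

/-- Convexly separated sequences in the polar of `L'` are short when `K` is covered by few
translates of `L'` with centres of bounded norm. -/
theorem SepSeq.length_le {K L' : Set E} (hLs : ∀ x ∈ L', -x ∈ L') (s : Finset E)
    (hs : K ⊆ ⋃ x ∈ s, (x +ᵥ L')) (R : ℝ)
    (hR : ∀ x ∈ s, ∀ y ∈ polarBody L', |inner ℝ x y| ≤ R)
    (l : List (E × E)) (hl : SepSeq K (polarBody L') l) :
    l.length ≤ s.card * (⌊R⌋₊ + 1) := by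
  classical
  obtain ⟨hmem, hpair⟩ := hl
  rw [List.pairwise_iff_get] at hpair
  -- colour of each index
  have hcol : ∀ i : Fin l.length, ∃ x ∈ s, ∃ v ∈ L', x + v = (l.get i).1 := by
    intro i
    have h1 := hs (hmem (l.get i) (List.get_mem l i)).1
    simp only [mem_iUnion, exists_prop] at h1
    obtain ⟨x, hx, hxl⟩ := h1
    rw [mem_vadd_set] at hxl
    obtain ⟨v, hv, hxv⟩ := hxl
    exact ⟨x, hx, v, hv, hxv⟩
  choose col hcols v hvL hcolv using hcol
  have hy : ∀ i : Fin l.length, (l.get i).2 ∈ polarBody L' :=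
    fun i => (hmem (l.get i) (List.get_mem l i)).2
  set t : Fin l.length → ℝ := fun i => inner ℝ (col i) (l.get i).2 with ht
  have htR : ∀ i, |t i| ≤ R := fun i => hR (col i) (hcols i) _ (hy i)
  set φ : Fin l.length → E × ℕ := fun i => (col i, ⌊(t i + R) / 2⌋₊) with hφ
  -- strict separation within a colour class
  have hsep : ∀ i j : Fin l.length, i < j → φ i ≠ φ j := by
    intro i j hij heq
    have h4 := hpair i j hij
    have hc : col i = col j := congrArg Prod.fst heq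
    have hf : ⌊(t i + R) / 2⌋₊ = ⌊(t j + R) / 2⌋₊ := congrArg Prod.snd heq
    have hv1 := abs_inner_le_one_of_mem_polarBody hLs (hy i) (hvL i)
    have hv2 := abs_inner_le_one_of_mem_polarBody hLs (hy j) (hvL i)
    rw [abs_le] at hv1 hv2
    have hge : t j + 2 ≤ t i := by
      have e1 : inner ℝ (l.get i).1 ((l.get i).2 - (l.get j).2)
          = t i - inner ℝ (col i) (l.get j).2 + inner ℝ (v i) (l.get i).2
            - inner ℝ (v i) (l.get j).2 := by
        rw [← hcolv i, inner_sub_right, inner_add_left, inner_add_left]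
        ring
      have e2 : inner ℝ (col i) (l.get j).2 = t j := by rw [hc]
      rw [e1, e2] at h4
      linarith
    have hRj := abs_le.mp (htR j)
    have h0 : 0 ≤ (t j + R) / 2 := by linarith [hRj.1]
    have hfl : ⌊(t j + R) / 2⌋₊ + 1 ≤ ⌊(t i + R) / 2⌋₊ := by
      rw [← Nat.floor_add_one h0]
      exact Nat.floor_mono (by linarith)
    omega
  have hinj : Function.Injective φ := by
    intro i j heq
    rcases lt_trichotomy i j with h | h | h
    · exact absurd heq (hsep i j h)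
    · exact h
    · exact absurd heq.symm (hsep j i h)
  have hmaps : ∀ i ∈ (Finset.univ : Finset (Fin l.length)),
      φ i ∈ s ×ˢ Finset.range (⌊R⌋₊ + 1) := by
    intro i _
    rw [Finset.mem_product, Finset.mem_range]
    refine ⟨hcols i, Nat.lt_succ_of_le (Nat.floor_mono ?_)⟩
    have := abs_le.mp (htR i)
    linarith [this.2]
  have hcard := Finset.card_le_card_of_injOn φ hmaps (fun a _ b _ h => hinj h)
  rw [Finset.card_univ, Fintype.card_fin, Finset.card_product, Finset.card_range] at hcard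
  exact hcard

/-- A maximal convexly separated sequence exists when the lengths are bounded. -/
theorem exists_maximal_sepSeq {K Y : Set E} (hK0 : (0 : E) ∈ K) (hY0 : (0 : E) ∈ Y) (N : ℕ)
    (hN : ∀ l, SepSeq K Y l → l.length ≤ N) :
    ∃ l, SepSeq K Y l ∧ l ≠ [] ∧ ∀ p, ¬ SepSeq K Y (p :: l) := by
  classical
  set P : ℕ → Prop := fun n => ∃ l, SepSeq K Y l ∧ l.length = n with hP
  have h1 : P 1 := by
    refine ⟨[((0 : E), (0 : E))], ⟨?_, List.pairwise_singleton _ _⟩, rfl⟩
    intro p hp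
    rw [List.mem_singleton] at hp
    rw [hp]
    exact ⟨hK0, hY0⟩
  have hN1 : 1 ≤ N := by
    obtain ⟨l, hl, hlen⟩ := h1
    have := hN l hl
    omega
  obtain ⟨l, hl, hlen⟩ := Nat.findGreatest_spec hN1 h1
  have hge : 1 ≤ Nat.findGreatest P N := Nat.le_findGreatest hN1 h1
  refine ⟨l, hl, ?_, ?_⟩
  · intro h
    rw [h] at hlen
    simp at hlen
    omega
  · intro p hp
    have hPn : P (Nat.findGreatest P N + 1) := ⟨p :: l, hp, by simp [hlen]⟩
    have hle : Nat.findGreatest P N + 1 ≤ N := by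
      have := hN (p :: l) hp
      simp [hlen] at this
      exact this
    have := Nat.le_findGreatest hle hPn
    omega

/-- If a convexly separated sequence cannot be extended, then every point of `Y` lies in the
convex hull of the sequence plus `4 K°`. -/
theorem mem_convexHull_add_of_maximal [CompleteSpace E] [DecidableEq E] {K Y : Set E}
    (hKv : Convex ℝ K) (hKc : IsClosed K) (hK0 : (0 : E) ∈ K)
    (l : List (E × E)) (hl : SepSeq K Y l) (hne : l ≠ [])
    (hmax : ∀ p : E × E, ¬ SepSeq K Y (p :: l)) (y : E) (hy : y ∈ Y) :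
    y ∈ convexHull ℝ (↑(l.map Prod.snd).toFinset : Set E) + (4 : ℝ) • polarBody K := by
  by_contra hyC
  set F : Finset E := (l.map Prod.snd).toFinset with hF
  have hCconv : Convex ℝ (convexHull ℝ (↑F : Set E) + (4 : ℝ) • polarBody K) :=
    (convex_convexHull ℝ _).add ((polarBody_convex K).smul 4)
  have hCclosed : IsClosed (convexHull ℝ (↑F : Set E) + (4 : ℝ) • polarBody K) :=
    ((polarBody_isClosed K).smul_of_ne_zero (by norm_num)).add_left_of_isCompact
      (Set.Finite.isCompact_convexHull ℝ F.finite_toSet)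
  obtain ⟨f, u, hfu, hux⟩ := geometric_hahn_banach_closed_point hCconv hCclosed hyC
  set w : E := (InnerProductSpace.toDual ℝ E).symm f with hw
  have hwf : ∀ v : E, inner ℝ w v = f v := fun v => InnerProductSpace.toDual_symm_apply
  -- every point of the sequence plus `4 z` is in the convex set
  have hC : ∀ p ∈ l, ∀ z ∈ polarBody K, f p.2 + 4 * f z < u := by
    intro p hp z hz
    have hmem : p.2 + (4 : ℝ) • z ∈ convexHull ℝ (↑F : Set E) + (4 : ℝ) • polarBody K := by
      apply Set.add_mem_add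
      · apply subset_convexHull
        rw [Finset.mem_coe, hF, List.mem_toFinset, List.mem_map]
        exact ⟨p, hp, rfl⟩
      · exact Set.smul_mem_smul_set hz
    have := hfu _ hmem
    rw [map_add, map_smul, smul_eq_mul] at this
    exact this
  -- the element of the sequence closest to `y` in the direction `w`
  have hlne : l.toFinset.Nonempty := by
    obtain ⟨p, hp⟩ := List.exists_mem_of_ne_nil l hne
    exact ⟨p, List.mem_toFinset.mpr hp⟩
  obtain ⟨p0, hp0, hp0min⟩ := Finset.exists_min_image l.toFinset (fun p => f y - f p.2) hlne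
  rw [List.mem_toFinset] at hp0
  set μ : ℝ := f y - f p0.2 with hμ
  have hμpos : 0 < μ := by
    have := hC p0 hp0 0 (zero_mem_polarBody K)
    rw [map_zero, mul_zero, add_zero] at this
    linarith
  -- the new witness
  have hk'K : (4 / μ) • w ∈ K := by
    rw [← polarBody_polarBody hKv hKc hK0]
    intro z hz
    rw [real_inner_smul_right, real_inner_comm, hwf]
    have := hC p0 hp0 z hz
    rw [div_mul_eq_mul_div, div_le_one hμpos]
    linarith
  apply hmax ((4 / μ) • w, y)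
  refine ⟨?_, ?_⟩
  · intro p hp
    rw [List.mem_cons] at hp
    rcases hp with rfl | hp
    · exact ⟨hk'K, hy⟩
    · exact hl.1 p hp
  · rw [List.pairwise_cons]
    refine ⟨?_, hl.2⟩
    intro b hb
    have hmin := hp0min b (List.mem_toFinset.mpr hb)
    rw [real_inner_smul_left, hwf, map_sub]
    rw [div_mul_eq_mul_div, le_div_iff₀ hμpos]
    linarith

/-- The basic covering lemma: if `K` is covered by the translates of `L'` centred at `s`, and
all centres have norm at most `R` with respect to `L'`, then the polar of `L'` is covered by at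
most `(|s| (⌊R⌋ + 1))^k` translates of `8 K°`, where `k ≥ 2 R² log (2 |s|)`. -/
theorem basic_cover [CompleteSpace E] {K L' : Set E}
    (hKv : Convex ℝ K) (hKc : IsClosed K) (hK0 : (0 : E) ∈ K)
    (hLs : ∀ x ∈ L', -x ∈ L') (s : Finset E) (hs : K ⊆ ⋃ x ∈ s, (x +ᵥ L'))
    (R : ℝ) (hRpos : 0 < R) (hR : ∀ x ∈ s, ∀ y ∈ polarBody L', |inner ℝ x y| ≤ R)
    (k : ℕ) (hk : 0 < k) (hkR : 2 * R ^ 2 * Real.log (2 * (s.card : ℝ)) ≤ k) :
    ∃ T : Finset E, T.card ≤ (s.card * (⌊R⌋₊ + 1)) ^ k ∧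
      polarBody L' ⊆ ⋃ q ∈ T, (q +ᵥ ((8 : ℝ) • polarBody K)) := by
  classical
  have hkpos : (0 : ℝ) < k := by exact_mod_cast hk
  obtain ⟨l, hl, hne, hmax⟩ := exists_maximal_sepSeq hK0 (zero_mem_polarBody L')
    (s.card * (⌊R⌋₊ + 1)) (fun l hl => SepSeq.length_le hLs s hs R hR l hl)
  set F : Finset E := (l.map Prod.snd).toFinset with hF
  have hFcard : F.card ≤ s.card * (⌊R⌋₊ + 1) := by
    calc F.card ≤ (l.map Prod.snd).length := List.toFinset_card_le _
      _ = l.length := List.length_map _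
      _ ≤ s.card * (⌊R⌋₊ + 1) := SepSeq.length_le hLs s hs R hR l hl
  have hFpol : ∀ q ∈ F, q ∈ polarBody L' := by
    intro q hq
    rw [hF, List.mem_toFinset, List.mem_map] at hq
    obtain ⟨p, hp, rfl⟩ := hq
    exact (hl.1 p hp).2
  refine ⟨(Finset.univ : Finset (Fin k → F)).image
    (fun τ => (k : ℝ)⁻¹ • ∑ t, (τ t : E)), ?_, ?_⟩
  · calc ((Finset.univ : Finset (Fin k → F)).image (fun τ => (k : ℝ)⁻¹ • ∑ t, (τ t : E))).card
        ≤ (Finset.univ : Finset (Fin k → F)).card := Finset.card_image_le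
      _ = F.card ^ k := by
        rw [Finset.card_univ, Fintype.card_fun, Fintype.card_fin, Fintype.card_coe]
      _ ≤ (s.card * (⌊R⌋₊ + 1)) ^ k := Nat.pow_le_pow_left hFcard k
  · intro y hy
    have hyC := mem_convexHull_add_of_maximal hKv hKc hK0 l hl hne hmax y hy
    rw [Set.mem_add] at hyC
    obtain ⟨q, hq, z4, hz4, hyq⟩ := hyC
    rw [mem_smul_set] at hz4
    obtain ⟨z, hz, rfl⟩ := hz4
    have hqpol : q ∈ polarBody L' :=
      convexHull_min (fun q hq => hFpol q (Finset.mem_coe.mp hq)) (polarBody_convex L') hq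
    rw [← hF, Finset.mem_convexHull'] at hq
    obtain ⟨wt, hwt0, hwt1, hwtq⟩ := hq
    -- Maurey's empirical method on the coordinates given by the centres
    have hw1 : ∑ j : F, wt j = 1 := by
      rw [Finset.sum_coe_sort F wt]
      exact hwt1
    have hM := maurey_sup (J := F) (ι := s) (fun j => wt j) (fun j => hwt0 j j.2) hw1
      (fun j x => inner ℝ (x : E) (j : E)) R hRpos (fun j x => hR x x.2 j (hFpol j j.2))
      2 (by norm_num) k hk (by
        rw [Fintype.card_coe]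
        nlinarith [hkR])
    obtain ⟨τ, hτ⟩ := hM
    simp only [mem_iUnion, exists_prop]
    refine ⟨(k : ℝ)⁻¹ • ∑ t, (τ t : E), Finset.mem_image_of_mem _ (Finset.mem_univ τ), ?_⟩
    set q' : E := (k : ℝ)⁻¹ • ∑ t, (τ t : E) with hq'
    -- the two points of the hull are close in the gauge of `K°`
    have hz' : (4 : ℝ)⁻¹ • (q - q') ∈ polarBody K := by
      intro k0 hk0
      have hmem := hs hk0
      simp only [mem_iUnion, exists_prop] at hmem
      obtain ⟨x, hx, hxl⟩ := hmem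
      rw [mem_vadd_set] at hxl
      obtain ⟨v, hv, hxv⟩ := hxl
      rw [vadd_eq_add] at hxv
      have hxq : inner ℝ x q = ∑ j : F, wt j * inner ℝ x (j : E) := by
        rw [← hwtq, inner_sum, ← Finset.sum_coe_sort F]
        apply Finset.sum_congr rfl
        intro j _
        rw [real_inner_smul_right]
      have hxq' : inner ℝ x q' = (∑ t, inner ℝ x (τ t : E)) / k := by
        rw [hq', real_inner_smul_right, inner_sum]
        field_simp
      have hm := hτ ⟨x, hx⟩
      simp only at hm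
      rw [← hxq, ← hxq'] at hm
      have hm' := (abs_le.mp hm).2
      have hvq := (abs_le.mp (abs_inner_le_one_of_mem_polarBody hLs hqpol hv)).2
      have hvq' : -1 ≤ inner ℝ v q' := by
        rw [hq', real_inner_smul_right, inner_sum]
        have hterm : ∀ t ∈ (Finset.univ : Finset (Fin k)), (-1 : ℝ) ≤ inner ℝ v (τ t : E) :=
          fun t _ => (abs_le.mp (abs_inner_le_one_of_mem_polarBody hLs
            (hFpol (τ t) (τ t).2) hv)).1
        have hsum : ∑ _t : Fin k, (-1 : ℝ) ≤ ∑ t, inner ℝ v (τ t : E) :=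
          Finset.sum_le_sum hterm
        rw [Finset.sum_const, Finset.card_univ, Fintype.card_fin, nsmul_eq_mul] at hsum
        rw [le_inv_mul_iff₀ hkpos]
        linarith
      rw [real_inner_smul_right, ← hxv, inner_add_left, inner_sub_right, inner_sub_right]
      linarith
    rw [mem_vadd_set]
    refine ⟨(8 : ℝ) • ((1 / 2 : ℝ) • z + (1 / 2 : ℝ) • ((4 : ℝ)⁻¹ • (q - q'))), ?_, ?_⟩
    · exact Set.smul_mem_smul_set
        (polarBody_convex K hz hz' (by norm_num) (by norm_num) (by norm_num))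
    · rw [vadd_eq_add, ← hyq, smul_add, smul_smul, smul_smul, smul_smul]
      norm_num
      abel

/-- One step at scale `ρ ≥ 32`: the part of `L°` inside `ρ K°` is covered by few translates of
`(ρ/4) K°`. -/
theorem step_cover [CompleteSpace E] {K L : Set E}
    (hKv : Convex ℝ K) (hKc : IsClosed K) (hKs : ∀ x ∈ K, -x ∈ K) (hK0 : (0 : E) ∈ K)
    (hLs : ∀ x ∈ L, -x ∈ L) (s : Finset E) (hs : K ⊆ ⋃ x ∈ s, (x +ᵥ L))
    (k : ℕ) (hk : 0 < k) (hkR : 2178 * Real.log (2 * (s.card : ℝ)) ≤ k)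
    (ρ : ℝ) (hρ : 32 ≤ ρ) :
    ∃ T : Finset E, T.card ≤ (s.card * 34) ^ k ∧
      polarBody L ∩ (ρ • polarBody K) ⊆ ⋃ q ∈ T, (q +ᵥ ((ρ / 4) • polarBody K)) := by
  classical
  have hρpos : 0 < ρ := by linarith
  set c : ℝ := ρ / 32 with hc
  have hcpos : 0 < c := by positivity
  have hc1 : 1 ≤ c := by
    rw [hc, le_div_iff₀ (by norm_num)]
    linarith
  set K₁ : Set E := c⁻¹ • K with hK₁
  set L₁ : Set E := L ∪ ρ⁻¹ • K with hL₁
  set s₁ : Finset E := s.filter (fun x => ∃ k₁ ∈ K₁, k₁ ∈ x +ᵥ L) with hs₁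
  have hbal := balanced_of_convex_symm hKv hKs
  have hK₁K : K₁ ⊆ K := by
    intro k₁ hk₁
    rw [hK₁, mem_smul_set] at hk₁
    obtain ⟨k0, hk0, rfl⟩ := hk₁
    apply hbal k0 hk0
    rw [abs_of_pos (inv_pos.mpr hcpos)]
    exact inv_le_one_of_one_le₀ hc1
  have hK₁v : Convex ℝ K₁ := hKv.smul _
  have hK₁c : IsClosed K₁ := hKc.smul_of_ne_zero (inv_ne_zero hcpos.ne')
  have hK₁0 : (0 : E) ∈ K₁ := by
    rw [hK₁, mem_smul_set]
    exact ⟨0, hK0, smul_zero _⟩
  have hL₁s : ∀ x ∈ L₁, -x ∈ L₁ := by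
    intro x hx
    rcases hx with hx | hx
    · exact Or.inl (hLs x hx)
    · right
      rw [mem_smul_set] at hx ⊢
      obtain ⟨k0, hk0, rfl⟩ := hx
      exact ⟨-k0, hKs k0 hk0, by rw [smul_neg]⟩
  have hcov : K₁ ⊆ ⋃ x ∈ s₁, (x +ᵥ L₁) := by
    intro k₁ hk₁
    have h := hs (hK₁K hk₁)
    simp only [mem_iUnion, exists_prop] at h ⊢
    obtain ⟨x, hx, hxl⟩ := h
    refine ⟨x, ?_, ?_⟩
    · rw [hs₁, Finset.mem_filter]
      exact ⟨hx, k₁, hk₁, hxl⟩
    · rw [mem_vadd_set] at hxl ⊢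
      obtain ⟨v, hv, hxv⟩ := hxl
      exact ⟨v, Or.inl hv, hxv⟩
  have hpolL₁ : polarBody L₁ = polarBody L ∩ ρ • polarBody K := by
    rw [← polarBody_inv_smul K hρpos]
    ext y
    constructor
    · intro hy
      exact ⟨fun x hx => hy x (Or.inl hx), fun x hx => hy x (Or.inr hx)⟩
    · rintro ⟨h1, h2⟩ x (hx | hx)
      · exact h1 x hx
      · exact h2 x hx
  have hpolK₁ : polarBody K₁ = c • polarBody K := polarBody_inv_smul K hcpos
  have hR : ∀ x ∈ s₁, ∀ y ∈ polarBody L₁, |inner ℝ x y| ≤ (33 : ℝ) := by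
    intro x hx y hy
    rw [hs₁, Finset.mem_filter] at hx
    obtain ⟨_, k₁, hk₁, hk₁x⟩ := hx
    rw [mem_vadd_set] at hk₁x
    obtain ⟨v, hv, hxv⟩ := hk₁x
    rw [vadd_eq_add] at hxv
    rw [hK₁, mem_smul_set] at hk₁
    obtain ⟨k0, hk0, hk0eq⟩ := hk₁
    have h1 : |inner ℝ (ρ⁻¹ • k0) y| ≤ 1 :=
      abs_inner_le_one_of_mem_polarBody hL₁s hy (Or.inr (smul_mem_smul_set hk0))
    have h2 : |inner ℝ v y| ≤ 1 := abs_inner_le_one_of_mem_polarBody hL₁s hy (Or.inl hv)
    have h3 : inner ℝ x y = 32 * inner ℝ (ρ⁻¹ • k0) y - inner ℝ v y := by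
      have hx' : x = k₁ - v := eq_sub_of_add_eq hxv
      rw [hx', ← hk0eq, inner_sub_left, real_inner_smul_left, real_inner_smul_left, hc]
      field_simp
    rw [h3]
    have h1' := abs_le.mp h1
    have h2' := abs_le.mp h2
    rw [abs_le]
    constructor <;> linarith
  have hs₁card : s₁.card ≤ s.card := Finset.card_filter_le _ _
  have hs₁pos : 0 < s₁.card := by
    have h := hcov hK₁0
    simp only [mem_iUnion, exists_prop] at h
    obtain ⟨x, hx, _⟩ := h
    exact Finset.card_pos.mpr ⟨x, hx⟩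
  have hk₁ : 2 * (33 : ℝ) ^ 2 * Real.log (2 * (s₁.card : ℝ)) ≤ k := by
    have hlog : Real.log (2 * (s₁.card : ℝ)) ≤ Real.log (2 * (s.card : ℝ)) := by
      apply Real.log_le_log
      · have : (0 : ℝ) < s₁.card := by exact_mod_cast hs₁pos
        positivity
      · have : (s₁.card : ℝ) ≤ s.card := by exact_mod_cast hs₁card
        linarith
    nlinarith [hlog, hkR]
  obtain ⟨T, hTc, hT⟩ := basic_cover hK₁v hK₁c hK₁0 hL₁s s₁ hcov 33 (by norm_num) hR k hk hk₁
  refine ⟨T, ?_, ?_⟩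
  · have hfl : ⌊(33 : ℝ)⌋₊ + 1 = 34 := by
      have : ⌊(33 : ℝ)⌋₊ = 33 := by
        rw [show (33 : ℝ) = ((33 : ℕ) : ℝ) by norm_num, Nat.floor_natCast]
      rw [this]
    rw [hfl] at hTc
    exact hTc.trans (Nat.pow_le_pow_left (Nat.mul_le_mul_right 34 hs₁card) k)
  · rw [hpolL₁, hpolK₁, smul_smul] at hT
    have h8 : 8 * c = ρ / 4 := by
      rw [hc]
      ring
    rw [h8] at hT
    exact hT

/-- Halving the radius of a cover of `L°` by translates of `ρ K°`, for `ρ ≥ 32`. -/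
theorem halve_cover [CompleteSpace E] {K L : Set E}
    (hKv : Convex ℝ K) (hKc : IsClosed K) (hKs : ∀ x ∈ K, -x ∈ K) (hK0 : (0 : E) ∈ K)
    (hLs : ∀ x ∈ L, -x ∈ L) (s : Finset E) (hs : K ⊆ ⋃ x ∈ s, (x +ᵥ L))
    (k : ℕ) (hk : 0 < k) (hkR : 2178 * Real.log (2 * (s.card : ℝ)) ≤ k)
    (ρ : ℝ) (hρ : 32 ≤ ρ) (T : Finset E)
    (hT : polarBody L ⊆ ⋃ p ∈ T, (p +ᵥ (ρ • polarBody K))) :
    ∃ T' : Finset E, T'.card ≤ T.card * (s.card * 34) ^ k ∧
      polarBody L ⊆ ⋃ p ∈ T', (p +ᵥ ((ρ / 2) • polarBody K)) := by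
  classical
  have hρpos : 0 < ρ := by linarith
  obtain ⟨U, hUc, hU⟩ := step_cover hKv hKc hKs hK0 hLs s hs k hk hkR ρ hρ
  -- a point of `L°` in each translate that meets `L°`
  let z : E → E := fun p =>
    if h : ∃ y ∈ polarBody L, y ∈ p +ᵥ (ρ • polarBody K) then h.choose else 0
  refine ⟨(T ×ˢ U).image (fun pq => z pq.1 + (2 : ℝ) • pq.2), ?_, ?_⟩
  · calc ((T ×ˢ U).image (fun pq => z pq.1 + (2 : ℝ) • pq.2)).card
        ≤ (T ×ˢ U).card := Finset.card_image_le
      _ = T.card * U.card := Finset.card_product T U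
      _ ≤ T.card * (s.card * 34) ^ k := Nat.mul_le_mul_left _ hUc
  · intro y hy
    have hmem := hT hy
    simp only [mem_iUnion, exists_prop] at hmem
    obtain ⟨p, hp, hyp⟩ := hmem
    have hex : ∃ y' ∈ polarBody L, y' ∈ p +ᵥ (ρ • polarBody K) := ⟨y, hy, hyp⟩
    have hzp : z p = hex.choose := dif_pos hex
    obtain ⟨hzL, hzp'⟩ := hex.choose_spec
    rw [← hzp] at hzL hzp'
    -- half of the difference lies in `L° ∩ ρ K°`
    have hv : (1 / 2 : ℝ) • (y - z p) ∈ polarBody L ∩ ρ • polarBody K := by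
      constructor
      · have h := polarBody_convex L hy (polarBody_symm hLs _ hzL)
          (by norm_num : (0 : ℝ) ≤ 1 / 2) (by norm_num : (0 : ℝ) ≤ 1 / 2) (by norm_num)
        rw [smul_sub, sub_eq_add_neg, ← smul_neg]
        exact h
      · rw [mem_vadd_set] at hyp hzp'
        obtain ⟨a', ha', hya⟩ := hyp
        obtain ⟨b', hb', hzb⟩ := hzp'
        rw [mem_smul_set] at ha' hb'
        obtain ⟨a, ha, rfl⟩ := ha'
        obtain ⟨b, hb, rfl⟩ := hb'
        rw [vadd_eq_add] at hya hzb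
        rw [mem_smul_set]
        refine ⟨(1 / 2 : ℝ) • a + (1 / 2 : ℝ) • (-b), polarBody_convex K ha
          (polarBody_symm hKs b hb) (by norm_num) (by norm_num) (by norm_num), ?_⟩
        rw [← hya, ← hzb]
        simp only [smul_add, smul_neg, smul_sub, smul_smul]
        have e1 : ρ * (1 / 2) = 1 / 2 * ρ := by ring
        rw [e1]
        abel
    have hmem2 := hU hv
    simp only [mem_iUnion, exists_prop] at hmem2
    obtain ⟨q, hq, hvq⟩ := hmem2
    rw [mem_vadd_set] at hvq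
    obtain ⟨e', he', hve⟩ := hvq
    rw [mem_smul_set] at he'
    obtain ⟨e, he, rfl⟩ := he'
    rw [vadd_eq_add] at hve
    simp only [mem_iUnion, exists_prop]
    refine ⟨z p + (2 : ℝ) • q, Finset.mem_image_of_mem (fun pq : E × E => z pq.1 + (2 : ℝ) • pq.2)
      (Finset.mk_mem_product hp hq), ?_⟩
    rw [mem_vadd_set]
    refine ⟨(ρ / 2) • e, smul_mem_smul_set he, ?_⟩
    rw [vadd_eq_add]
    have e2 : y = z p + (2 : ℝ) • ((1 / 2 : ℝ) • (y - z p)) := by
      rw [smul_smul]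
      norm_num
    rw [e2, ← hve, smul_add, smul_smul]
    have e3 : (2 : ℝ) * (ρ / 4) = ρ / 2 := by ring
    rw [e3]
    abel

/-- Iterating the halving step. -/
theorem chain_cover [CompleteSpace E] {K L : Set E}
    (hKv : Convex ℝ K) (hKc : IsClosed K) (hKs : ∀ x ∈ K, -x ∈ K) (hK0 : (0 : E) ∈ K)
    (hLs : ∀ x ∈ L, -x ∈ L) (s : Finset E) (hs : K ⊆ ⋃ x ∈ s, (x +ᵥ L))
    (k : ℕ) (hk : 0 < k) (hkR : 2178 * Real.log (2 * (s.card : ℝ)) ≤ k) (i : ℕ) :
    ∀ T : Finset E, polarBody L ⊆ ⋃ p ∈ T, (p +ᵥ ((32 * 2 ^ i : ℝ) • polarBody K)) →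
      ∃ T' : Finset E, T'.card ≤ T.card * ((s.card * 34) ^ k) ^ i ∧
        polarBody L ⊆ ⋃ p ∈ T', (p +ᵥ ((32 : ℝ) • polarBody K)) := by
  induction i with
  | zero =>
    intro T hT
    refine ⟨T, by simp, ?_⟩
    simpa using hT
  | succ i ih =>
    intro T hT
    have hρ : (32 : ℝ) ≤ 32 * 2 ^ (i + 1) := by
      have : (1 : ℝ) ≤ 2 ^ (i + 1) := one_le_pow₀ (by norm_num)
      linarith
    obtain ⟨T₁, hT₁c, hT₁⟩ := halve_cover hKv hKc hKs hK0 hLs s hs k hk hkR _ hρ T hT
    have e : (32 : ℝ) * 2 ^ (i + 1) / 2 = 32 * 2 ^ i := by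
      rw [pow_succ]
      ring
    rw [e] at hT₁
    obtain ⟨T', hT'c, hT'⟩ := ih T₁ hT₁
    refine ⟨T', ?_, hT'⟩
    calc T'.card ≤ T₁.card * ((s.card * 34) ^ k) ^ i := hT'c
      _ ≤ T.card * (s.card * 34) ^ k * ((s.card * 34) ^ k) ^ i := Nat.mul_le_mul_right _ hT₁c
      _ = T.card * ((s.card * 34) ^ k) ^ (i + 1) := by
        rw [pow_succ]
        ring

/-- Natural-number form of the quasi-polynomial duality bound. -/
theorem polylog_duality_nat [FiniteDimensional ℝ E] {K L : Set E}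
    (hKc : IsCompact K) (hKv : Convex ℝ K) (hKi : (interior K).Nonempty)
    (hKs : ∀ x ∈ K, -x ∈ K) (hLi : (interior L).Nonempty) (hLs : ∀ x ∈ L, -x ∈ L) :
    1 ≤ coveringNumber K L ∧
    coveringNumber (polarBody L) ((32 : ℝ) • polarBody K) ≤
      ((coveringNumber K L * 34) ^ ⌈2178 * Real.log (2 * (coveringNumber K L : ℝ))⌉₊) ^
        Nat.clog 2 (coveringNumber K L) := by
  classical
  obtain ⟨s, hsc, hs⟩ := coveringNumber_spec hKc hLi
  have hK0 : (0 : E) ∈ K := zero_mem_of_convex_symm hKv hKi hKs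
  have hbal := balanced_of_convex_symm hKv hKs
  have hm1 : 1 ≤ s.card := by
    have h := hs hK0
    simp only [mem_iUnion, exists_prop] at h
    obtain ⟨x, hx, _⟩ := h
    exact Finset.card_pos.mpr ⟨x, hx⟩
  rw [← hsc]
  refine ⟨hm1, ?_⟩
  have hm1' : (1 : ℝ) ≤ s.card := by exact_mod_cast hm1
  set k : ℕ := ⌈2178 * Real.log (2 * (s.card : ℝ))⌉₊ with hkdef
  have hlogpos : 0 < Real.log (2 * (s.card : ℝ)) := Real.log_pos (by linarith)
  have hk : 0 < k := Nat.ceil_pos.mpr (by positivity)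
  have hkR : 2178 * Real.log (2 * (s.card : ℝ)) ≤ k := Nat.le_ceil _
  -- the trivial cover at a large scale
  have hinit : polarBody L ⊆
      ⋃ p ∈ ({0} : Finset E), (p +ᵥ ((32 * 2 ^ Nat.clog 2 s.card : ℝ) • polarBody K)) := by
    intro y hy
    simp only [Finset.mem_singleton, iUnion_iUnion_eq_left]
    have hcpos : (0 : ℝ) < 32 * 2 ^ Nat.clog 2 s.card := by positivity
    have hcm : (s.card : ℝ) ≤ 32 * 2 ^ Nat.clog 2 s.card := by
      have h1 : s.card ≤ 2 ^ Nat.clog 2 s.card := Nat.le_pow_clog (by norm_num) _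
      have h2 : (s.card : ℝ) ≤ 2 ^ Nat.clog 2 s.card := by exact_mod_cast h1
      have h3 : (0 : ℝ) ≤ 2 ^ Nat.clog 2 s.card := by positivity
      linarith
    rw [mem_vadd_set]
    refine ⟨y, ?_, by simp⟩
    rw [mem_smul_set_iff_inv_smul_mem₀ hcpos.ne']
    intro k0 hk0
    have h := (abs_le.mp (abs_inner_le_card hbal hLs s hs hy hk0)).2
    rw [real_inner_smul_right, inv_mul_le_iff₀ hcpos]
    linarith
  obtain ⟨T', hT'c, hT'⟩ := chain_cover hKv hKc.isClosed hKs hK0 hLs s hs k hk hkR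
    (Nat.clog 2 s.card) {0} hinit
  rw [Finset.card_singleton, one_mul] at hT'c
  exact (coveringNumber_le T' hT').trans hT'c

/-- The numerical estimate behind the final form of the bound. -/
theorem polylog_bound (m : ℕ) (hm : 1 ≤ m) :
    Real.log ((((m * 34) ^ ⌈2178 * Real.log (2 * (m : ℝ))⌉₊) ^ Nat.clog 2 m : ℕ) : ℝ) ≤
      7000 * (1 + Real.log (m : ℝ)) ^ 3 := by
  have hm' : (1 : ℝ) ≤ m := by exact_mod_cast hm
  have hmpos : (0 : ℝ) < m := by linarith
  set ℓ : ℝ := Real.log (m : ℝ) with hℓ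
  have hℓ0 : 0 ≤ ℓ := Real.log_nonneg hm'
  have hl2a := Real.log_two_gt_d9
  have hl2b := Real.log_two_lt_d9
  have hlog2m : Real.log (2 * (m : ℝ)) = Real.log 2 + ℓ :=
    Real.log_mul (by norm_num) hmpos.ne'
  -- the three factors
  have hk : ((⌈2178 * Real.log (2 * (m : ℝ))⌉₊ : ℕ) : ℝ) ≤ 2178 * ℓ + 1511 := by
    have h0 : 0 ≤ 2178 * Real.log (2 * (m : ℝ)) := by
      rw [hlog2m]
      positivity
    have h1 := Nat.ceil_lt_add_one h0
    linarith [hlog2m]
  have hJ : ((Nat.clog 2 m : ℕ) : ℝ) ≤ 1.45 * ℓ + 1 := by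
    have hJ' : ((Nat.clog 2 m : ℕ) : ℝ) * Real.log 2 ≤ ℓ + Real.log 2 := by
      rcases Nat.lt_or_ge 1 m with h1 | h1
      · have h2 := Nat.pow_pred_clog_lt_self (by norm_num : 1 < 2) h1
        have h3 : ((2 : ℝ)) ^ (Nat.clog 2 m).pred < m := by exact_mod_cast h2
        have h4 : Real.log ((2 : ℝ) ^ (Nat.clog 2 m).pred) < ℓ :=
          Real.log_lt_log (by positivity) h3
        rw [Real.log_pow] at h4
        have h5 : ((Nat.clog 2 m : ℕ) : ℝ) ≤ ((Nat.clog 2 m).pred : ℕ) + 1 := by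
          have : Nat.clog 2 m ≤ (Nat.clog 2 m).pred + 1 := by
            rw [Nat.pred_eq_sub_one]
            omega
          exact_mod_cast this
        nlinarith
      · have hm1 : m = 1 := le_antisymm h1 hm
        rw [hm1]
        simp
        linarith
    have h6 : ℓ + Real.log 2 ≤ (1.45 * ℓ + 1) * Real.log 2 := by nlinarith
    exact le_of_mul_le_mul_right (hJ'.trans h6) (by linarith)
  have h34 : Real.log ((m : ℝ) * 34) ≤ ℓ + 4.16 := by
    rw [Real.log_mul hmpos.ne' (by norm_num)]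
    have h1 : Real.log (34 : ℝ) ≤ Real.log ((2 : ℝ) ^ 6) :=
      Real.log_le_log (by norm_num) (by norm_num)
    rw [Real.log_pow] at h1
    push_cast at h1
    linarith
  have h34' : 0 ≤ Real.log ((m : ℝ) * 34) := Real.log_nonneg (by linarith)
  -- assemble
  push_cast
  rw [Real.log_pow, Real.log_pow]
  have hk0 : (0 : ℝ) ≤ ((⌈2178 * Real.log (2 * (m : ℝ))⌉₊ : ℕ) : ℝ) := Nat.cast_nonneg _
  have hJ0 : (0 : ℝ) ≤ ((Nat.clog 2 m : ℕ) : ℝ) := Nat.cast_nonneg _
  calc ((Nat.clog 2 m : ℕ) : ℝ) *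
        (((⌈2178 * Real.log (2 * (m : ℝ))⌉₊ : ℕ) : ℝ) * Real.log ((m : ℝ) * 34))
      ≤ (1.45 * ℓ + 1) * ((2178 * ℓ + 1511) * (ℓ + 4.16)) := by
        apply mul_le_mul hJ _ (by positivity) (by positivity)
        exact mul_le_mul hk h34 h34' (by positivity)
    _ ≤ 7000 * (1 + ℓ) ^ 3 := by
        nlinarith [pow_nonneg hℓ0 2, pow_nonneg hℓ0 3, hℓ0]

/-- Covering numbers are invariant under a common nonzero dilation. -/
theorem coveringNumber_smul (A B : Set E) {c : ℝ} (hc : c ≠ 0) :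
    coveringNumber (c • A) (c • B) = coveringNumber A B := by
  classical
  have key : ∀ (A B : Set E) (c : ℝ), c ≠ 0 → ∀ m : ℕ,
      (∃ s : Finset E, s.card = m ∧ A ⊆ ⋃ x ∈ s, (x +ᵥ B)) →
      ∃ s : Finset E, s.card = m ∧ c • A ⊆ ⋃ x ∈ s, (x +ᵥ (c • B)) := by
    intro A B c hc m ⟨s, hsm, hs⟩
    refine ⟨s.image (fun x => c • x), ?_, ?_⟩
    · rw [Finset.card_image_of_injective _ (smul_right_injective E hc), hsm]
    · intro y hy
      rw [mem_smul_set] at hy
      obtain ⟨a, ha, rfl⟩ := hy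
      have h := hs ha
      simp only [mem_iUnion, exists_prop] at h ⊢
      obtain ⟨x, hx, hax⟩ := h
      refine ⟨c • x, Finset.mem_image_of_mem _ hx, ?_⟩
      rw [mem_vadd_set] at hax ⊢
      obtain ⟨b, hb, rfl⟩ := hax
      exact ⟨c • b, smul_mem_smul_set hb, by simp [smul_add]⟩
  unfold coveringNumber
  congr 1
  ext m
  constructor
  · intro h
    have h2 := key (c • A) (c • B) c⁻¹ (inv_ne_zero hc) m h
    rw [inv_smul_smul₀ hc, inv_smul_smul₀ hc] at h2
    exact h2
  · exact key A B c hc m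

/-- **Dimension-free duality of metric entropy up to a polylogarithmic loss**, first half:
`log N(L°, 32 K°) ≤ 7000 (1 + log N(K, L))^3`. -/
theorem polylog_duality_left [FiniteDimensional ℝ E] {K L : Set E}
    (hKc : IsCompact K) (hKv : Convex ℝ K) (hKi : (interior K).Nonempty)
    (hKs : ∀ x ∈ K, -x ∈ K) (hLi : (interior L).Nonempty) (hLs : ∀ x ∈ L, -x ∈ L) :
    Real.log (coveringNumber (polarBody L) ((32 : ℝ) • polarBody K) : ℝ) ≤
      7000 * (1 + Real.log (coveringNumber K L : ℝ)) ^ 3 := by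
  obtain ⟨hm, hN⟩ := polylog_duality_nat hKc hKv hKi hKs hLi hLs
  have hb := polylog_bound (coveringNumber K L) hm
  rcases Nat.eq_zero_or_pos (coveringNumber (polarBody L) ((32 : ℝ) • polarBody K)) with h0 | hpos
  · rw [h0]
    simp only [Nat.cast_zero, Real.log_zero]
    have : (0 : ℝ) ≤ Real.log (coveringNumber K L : ℝ) :=
      Real.log_nonneg (by exact_mod_cast hm)
    positivity
  · refine le_trans (Real.log_le_log (by exact_mod_cast hpos) ?_) hb
    exact_mod_cast hN

/-- **Dimension-free duality of metric entropy up to a polylogarithmic loss**, second half: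
`log N(K, L) ≤ 7000 (1 + log N(L°, K°/32))^3`. -/
theorem polylog_duality_right [FiniteDimensional ℝ E] {K L : Set E}
    (hKc : IsCompact K) (hKv : Convex ℝ K) (hKi : (interior K).Nonempty)
    (hKs : ∀ x ∈ K, -x ∈ K)
    (hLc : IsCompact L) (hLv : Convex ℝ L) (hLi : (interior L).Nonempty)
    (hLs : ∀ x ∈ L, -x ∈ L) :
    Real.log (coveringNumber K L : ℝ) ≤
      7000 * (1 + Real.log (coveringNumber (polarBody L) ((32 : ℝ)⁻¹ • polarBody K) : ℝ)) ^ 3 := by
  have hLpc : IsCompact (polarBody L) := polarBody_isCompact hLv hLi hLs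
  have hLpi : (interior (polarBody L)).Nonempty := by
    have h := interior_smul_polarBody_nonempty hLc (c := 1) one_pos
    rwa [one_smul] at h
  have hKpi : (interior ((32 : ℝ)⁻¹ • polarBody K)).Nonempty :=
    interior_smul_polarBody_nonempty hKc (by norm_num)
  have hsymm : ∀ x ∈ (32 : ℝ)⁻¹ • polarBody K, -x ∈ (32 : ℝ)⁻¹ • polarBody K := by
    intro x hx
    rw [mem_smul_set] at hx ⊢
    obtain ⟨y, hy, rfl⟩ := hx
    exact ⟨-y, polarBody_symm hKs y hy, by rw [smul_neg]⟩
  have h := polylog_duality_left hLpc (polarBody_convex L) hLpi (polarBody_symm hLs) hKpi hsymm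
  have h0K : (0 : E) ∈ K := zero_mem_of_convex_symm hKv hKi hKs
  have h0L : (0 : E) ∈ L := zero_mem_of_convex_symm hLv hLi hLs
  rw [polarBody_inv_smul _ (by norm_num : (0 : ℝ) < 32),
    polarBody_polarBody hKv hKc.isClosed h0K, polarBody_polarBody hLv hLc.isClosed h0L,
    coveringNumber_smul K L (by norm_num : (32 : ℝ) ≠ 0)] at h
  exact h

end Vale.Agent.H34
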