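import Vale.Agent.H34.BoundedDuality

/-!
# Near-optimality of the entropy duality inequality for coordinatewise bounded sets

The sign vectors `{±1}ⁿ` against a normalised Walsh (Hadamard) system show that the factor
`(R/ε)²` in `bounded_duality_sets` cannot be improved by more than a logarithm.
-/

namespace Vale.Agent.H34

open Finset
open scoped Pointwise

/-- The Walsh sign `(-1)^{|x ∩ y|}` of two bit strings. -/
noncomputable def walsh {m : ℕ} (x y : Fin m → Bool) : ℝ :=
  ∏ i, (if x i && y i then (-1 : ℝ) else 1)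

theorem walsh_abs {m : ℕ} (x y : Fin m → Bool) : |walsh x y| = 1 := by
  unfold walsh
  rw [Finset.abs_prod]
  apply Finset.prod_eq_one
  intro i _
  split_ifs <;> simp

/-- Orthogonality of the Walsh system. -/
theorem walsh_orth {m : ℕ} (y y' : Fin m → Bool) :
    ∑ x : Fin m → Bool, walsh x y * walsh x y' = if y = y' then (2 : ℝ) ^ m else 0 := by
  have h1 : ∀ x : Fin m → Bool, walsh x y * walsh x y' =
      ∏ i, ((if x i && y i then (-1 : ℝ) else 1) * (if x i && y' i then (-1 : ℝ) else 1)) := by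
    intro x
    unfold walsh
    rw [Finset.prod_mul_distrib]
  simp_rw [h1]
  rw [← Fintype.prod_sum (fun (i : Fin m) (b : Bool) =>
    (if b && y i then (-1 : ℝ) else 1) * (if b && y' i then (-1 : ℝ) else 1))]
  have h2 : ∀ i : Fin m, ∑ b : Bool,
      ((if b && y i then (-1 : ℝ) else 1) * (if b && y' i then (-1 : ℝ) else 1)) =
        if y i = y' i then 2 else 0 := by
    intro i
    rw [Fintype.sum_bool]
    cases y i <;> cases y' i <;> norm_num
  simp_rw [h2]
  split_ifs with h
  · subst h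
    simp
  · have hex : ∃ i, y i ≠ y' i := by
      by_contra hcon
      exact h (funext fun i => by_contra fun hi => hcon ⟨i, hi⟩)
    obtain ⟨i, hi⟩ := hex
    apply Finset.prod_eq_zero (Finset.mem_univ i)
    simp [hi]

/-- Parseval's identity for a square matrix with orthogonal columns of squared length `c`. -/
theorem parseval_of_orth {n : ℕ} (H : Fin n → Fin n → ℝ) (c : ℝ)
    (hH : ∀ i i', ∑ j, H j i * H j i' = if i = i' then c else 0) (u : Fin n → ℝ) :
    ∑ j, (∑ i, H j i * u i) ^ 2 = c * ∑ i, u i ^ 2 := by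
  have h1 : ∀ j, (∑ i, H j i * u i) ^ 2 = ∑ i, ∑ i', (u i * u i') * (H j i * H j i') := by
    intro j
    rw [sq, Finset.sum_mul_sum]
    apply Finset.sum_congr rfl
    intro i _
    apply Finset.sum_congr rfl
    intro i' _
    ring
  simp_rw [h1]
  rw [Finset.sum_comm]
  have h2 : ∀ i, ∑ j, ∑ i', (u i * u i') * (H j i * H j i') = c * u i ^ 2 := by
    intro i
    rw [Finset.sum_comm]
    simp_rw [← Finset.mul_sum, hH]
    simp only [mul_ite, mul_zero, Finset.sum_ite_eq, Finset.mem_univ, if_true]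
    ring
  simp_rw [h2, ← Finset.mul_sum]

/-- A Hamming ball of radius `r` in `{0,1}^{16 r}` has at most `64 ^ r` points. -/
theorem card_hamming_ball_le {n r : ℕ} (hn : n = 16 * r) (σ0 : Fin n → Bool) :
    (Finset.univ.filter (fun σ : Fin n → Bool =>
      (Finset.univ.filter (fun i => σ i ≠ σ0 i)).card ≤ r)).card ≤ 64 ^ r := by
  have key : ∑ σ : Fin n → Bool,
      ((1 : ℝ) / 8) ^ (Finset.univ.filter (fun i => σ i ≠ σ0 i)).card = (9 / 8 : ℝ) ^ n := by
    have h1 : ∀ σ : Fin n → Bool,
        ((1 : ℝ) / 8) ^ (Finset.univ.filter (fun i => σ i ≠ σ0 i)).card =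
          ∏ i, (if σ i ≠ σ0 i then (1 : ℝ) / 8 else 1) := by
      intro σ
      rw [Finset.prod_ite, Finset.prod_const, Finset.prod_const_one, mul_one]
    simp_rw [h1]
    rw [← Fintype.prod_sum (fun (i : Fin n) (b : Bool) => if b ≠ σ0 i then (1 : ℝ) / 8 else 1)]
    have h2 : ∀ i : Fin n, ∑ b : Bool, (if b ≠ σ0 i then (1 : ℝ) / 8 else 1) = 9 / 8 := by
      intro i
      rw [Fintype.sum_bool]
      cases σ0 i <;> norm_num
    simp_rw [h2]
    rw [Finset.prod_const, Finset.card_univ, Fintype.card_fin]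
  set S := Finset.univ.filter (fun σ : Fin n → Bool =>
      (Finset.univ.filter (fun i => σ i ≠ σ0 i)).card ≤ r) with hS
  have h3 : (S.card : ℝ) * ((1 : ℝ) / 8) ^ r ≤ (9 / 8 : ℝ) ^ n := by
    rw [← key]
    calc (S.card : ℝ) * ((1 : ℝ) / 8) ^ r = ∑ σ ∈ S, ((1 : ℝ) / 8) ^ r := by simp
      _ ≤ ∑ σ ∈ S, ((1 : ℝ) / 8) ^ (Finset.univ.filter (fun i => σ i ≠ σ0 i)).card := by
          apply Finset.sum_le_sum
          intro σ hσ
          have hle : (Finset.univ.filter (fun i => σ i ≠ σ0 i)).card ≤ r :=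
            (Finset.mem_filter.mp hσ).2
          exact pow_le_pow_of_le_one (by norm_num) (by norm_num) hle
      _ ≤ ∑ σ : Fin n → Bool,
            ((1 : ℝ) / 8) ^ (Finset.univ.filter (fun i => σ i ≠ σ0 i)).card := by
          apply Finset.sum_le_sum_of_subset_of_nonneg (Finset.subset_univ _)
          intro σ _ _
          positivity
  have h4 : ((9 : ℝ) / 8) ^ n ≤ 8 ^ r := by
    rw [hn, pow_mul]
    apply pow_le_pow_left₀ (by norm_num)
    norm_num
  have h5 : (S.card : ℝ) ≤ 64 ^ r := by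
    have h8 : (0 : ℝ) < (1 / 8) ^ r := by positivity
    have h6 : (S.card : ℝ) * ((1 : ℝ) / 8) ^ r ≤ 64 ^ r * (1 / 8) ^ r := by
      calc (S.card : ℝ) * ((1 : ℝ) / 8) ^ r ≤ (9 / 8 : ℝ) ^ n := h3
        _ ≤ 8 ^ r := h4
        _ = 64 ^ r * (1 / 8) ^ r := by
            rw [← mul_pow]
            norm_num
    exact le_of_mul_le_mul_right h6 h8
  exact_mod_cast h5

/-- The sign vector of a bit string. -/
noncomputable def signVec {n : ℕ} (σ : Fin n → Bool) : EuclideanSpace ℝ (Fin n) :=
  WithLp.toLp 2 (fun i => if σ i then (1 : ℝ) else -1)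

theorem signVec_apply {n : ℕ} (σ : Fin n → Bool) (i : Fin n) :
    signVec σ i = if σ i then (1 : ℝ) else -1 := rfl

/-- The extremal instance: sign vectors against the normalised Walsh system in dimension
`n = 16^(j+1)`. -/
theorem tight_instance (j : ℕ) :
    ∃ (n : ℕ) (A B : Set (EuclideanSpace ℝ (Fin n))),
      n = 16 ^ (j + 1) ∧
      (∀ x ∈ A, ∀ i, |x i| ≤ 1) ∧ (∀ y ∈ B, ∀ i, |y i| ≤ 1 / (n : ℝ)) ∧
      (∀ ε : ℝ, 0 < ε → ε ≤ 1 / 4 ^ (j + 2) →
        10 * 16 ^ j * Real.log 2 ≤
          Real.log (coveringNumber A {z | ∀ y ∈ B, |inner ℝ y z| ≤ ε} : ℝ)) ∧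
      (∀ δ : ℝ, 0 ≤ δ →
        Real.log (coveringNumber B {z | ∀ x ∈ A, |inner ℝ x z| ≤ δ} : ℝ) ≤ Real.log n) := by
  classical
  set r : ℕ := 16 ^ j with hr
  set n : ℕ := 16 ^ (j + 1) with hn
  have hn16 : n = 16 * r := by
    rw [hn, hr, pow_succ]
    ring
  have hnpos : 0 < n := by positivity
  have hnR : (0 : ℝ) < n := by exact_mod_cast hnpos
  set m : ℕ := 4 * (j + 1) with hm
  have hcard : Fintype.card (Fin m → Bool) = n := by
    rw [Fintype.card_pi]
    simp only [Fintype.card_bool, Finset.prod_const, Finset.card_univ, Fintype.card_fin]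
    rw [hm, hn, pow_mul]
    norm_num
  let e : Fin n ≃ (Fin m → Bool) := (Fintype.equivFinOfCardEq hcard).symm
  let H : Fin n → Fin n → ℝ := fun a i => walsh (e a) (e i)
  have hH : ∀ i i', ∑ a, H a i * H a i' = if i = i' then (n : ℝ) else 0 := by
    intro i i'
    have h1 := Equiv.sum_comp e (fun x => walsh x (e i) * walsh x (e i'))
    have h2 : ((2 : ℝ) ^ m) = n := by
      rw [hm, hn]
      push_cast
      rw [pow_mul]
      norm_num
    rw [show (∑ a, H a i * H a i') = ∑ a, walsh (e a) (e i) * walsh (e a) (e i') from rfl, h1,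
      walsh_orth]
    by_cases h : i = i'
    · simp [h, h2]
    · have hne : e i ≠ e i' := fun hh => h (e.injective hh)
      simp [h, hne]
  let bvec : Fin n → EuclideanSpace ℝ (Fin n) :=
    fun a => WithLp.toLp 2 (fun i => H a i / (n : ℝ))
  have hbvec : ∀ a i, bvec a i = H a i / (n : ℝ) := fun _ _ => rfl
  refine ⟨n, Set.range signVec, Set.range bvec, rfl, ?_, ?_, ?_, ?_⟩
  · rintro x ⟨σ, rfl⟩ i
    rw [signVec_apply]
    split_ifs <;> simp
  · rintro y ⟨a, rfl⟩ i
    rw [hbvec, abs_div, walsh_abs, Nat.abs_cast]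
  · -- lower bound
    intro ε hε hε2
    set U : Set (EuclideanSpace ℝ (Fin n)) :=
      {z | ∀ y ∈ Set.range bvec, |inner ℝ y z| ≤ ε} with hU
    have h0U : (0 : EuclideanSpace ℝ (Fin n)) ∈ U := by
      intro y _
      simp [hε.le]
    have hε3 : ε ^ 2 * (16 * n) ≤ 1 := by
      have h4 : (4 : ℝ) ^ (j + 2) * ε ≤ 1 := by
        have h5 := hε2
        rwa [le_div_iff₀ (by positivity), mul_comm] at h5
      have h16 : (16 * (n : ℝ)) = ((4 : ℝ) ^ (j + 2)) ^ 2 := by
        rw [hn]
        push_cast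
        rw [← pow_mul, mul_comm (j + 2) 2, pow_mul]
        norm_num
        ring
      have h6 : 0 ≤ (4 : ℝ) ^ (j + 2) * ε := by positivity
      calc ε ^ 2 * (16 * n) = ((4 : ℝ) ^ (j + 2) * ε) ^ 2 := by
            rw [h16]
            ring
        _ ≤ 1 := pow_le_one₀ h6 h4
    have hkey : ∀ s : Finset (EuclideanSpace ℝ (Fin n)),
        Set.range signVec ⊆ ⋃ x ∈ s, (x +ᵥ U) → 2 ^ (10 * r) ≤ s.card := by
      intro s hs
      have hc : ∀ σ : Fin n → Bool, ∃ c ∈ s, signVec σ ∈ c +ᵥ U := by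
        intro σ
        have h1 := hs (Set.mem_range_self σ)
        obtain ⟨c, hc1, hc2⟩ := Set.mem_iUnion₂.mp h1
        exact ⟨c, hc1, hc2⟩
      choose c hcs hcU using hc
      have hfib : ∀ b ∈ Finset.univ.image c,
          (Finset.univ.filter (fun σ => c σ = b)).card ≤ 64 ^ r := by
        intro b _
        rcases (Finset.univ.filter (fun σ => c σ = b)).eq_empty_or_nonempty with hemp | ⟨σ0, hσ0⟩
        · rw [hemp]
          simp
        · have hσ0b : c σ0 = b := (Finset.mem_filter.mp hσ0).2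
          refine le_trans (Finset.card_le_card ?_) (card_hamming_ball_le hn16 σ0)
          intro σ hσ
          have hσb : c σ = b := (Finset.mem_filter.mp hσ).2
          rw [Finset.mem_filter]
          refine ⟨Finset.mem_univ _, ?_⟩
          have hm1 : -b +ᵥ signVec σ ∈ U := by
            have h1 := hcU σ
            rw [hσb] at h1
            exact Set.mem_vadd_set_iff_neg_vadd_mem.mp h1
          have hm0 : -b +ᵥ signVec σ0 ∈ U := by
            have h1 := hcU σ0
            rw [hσ0b] at h1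
            exact Set.mem_vadd_set_iff_neg_vadd_mem.mp h1
          set u : Fin n → ℝ := fun i => signVec σ i - signVec σ0 i with hu
          have hrow : ∀ a : Fin n, (∑ i, H a i * u i) ^ 2 ≤ (2 * ε * n) ^ 2 := by
            intro a
            have e1 := hm1 (bvec a) (Set.mem_range_self a)
            have e0 := hm0 (bvec a) (Set.mem_range_self a)
            rw [vadd_eq_add, inner_add_right] at e1 e0
            have e2 : |inner ℝ (bvec a) (signVec σ) - inner ℝ (bvec a) (signVec σ0)| ≤ 2 * ε := by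
              have h1 := abs_le.mp e1
              have h0 := abs_le.mp e0
              rw [abs_le]
              constructor <;> linarith [h1.1, h1.2, h0.1, h0.2]
            have e3 : inner ℝ (bvec a) (signVec σ) - inner ℝ (bvec a) (signVec σ0) =
                (∑ i, H a i * u i) / n := by
              rw [inner_eq_sum_mul, inner_eq_sum_mul, ← Finset.sum_sub_distrib, Finset.sum_div]
              apply Finset.sum_congr rfl
              intro i _
              rw [hbvec, hu]
              ring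
            rw [e3, abs_div, Nat.abs_cast, div_le_iff₀ hnR] at e2
            calc (∑ i, H a i * u i) ^ 2 = |∑ i, H a i * u i| ^ 2 := (sq_abs _).symm
              _ ≤ (2 * ε * n) ^ 2 := pow_le_pow_left₀ (abs_nonneg _) e2 2
          have hpars := parseval_of_orth H n hH u
          have hsum : (n : ℝ) * ∑ i, u i ^ 2 ≤ n * (2 * ε * n) ^ 2 := by
            rw [← hpars]
            calc ∑ a, (∑ i, H a i * u i) ^ 2 ≤ ∑ _a : Fin n, (2 * ε * n) ^ 2 :=
                  Finset.sum_le_sum (fun a _ => hrow a)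
              _ = n * (2 * ε * n) ^ 2 := by simp
          have hu2 : ∑ i, u i ^ 2 =
              4 * ((Finset.univ.filter (fun i => σ i ≠ σ0 i)).card : ℝ) := by
            have h1 : ∀ i, u i ^ 2 = if σ i ≠ σ0 i then (4 : ℝ) else 0 := by
              intro i
              simp only [hu, signVec_apply]
              cases σ i <;> cases σ0 i <;> norm_num
            simp_rw [h1]
            rw [Finset.sum_ite, Finset.sum_const, Finset.sum_const_zero, add_zero, nsmul_eq_mul,
              mul_comm]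
          have hfinal : ((Finset.univ.filter (fun i => σ i ≠ σ0 i)).card : ℝ) ≤ r := by
            have h7 : ∑ i, u i ^ 2 ≤ (2 * ε * n) ^ 2 := le_of_mul_le_mul_left hsum hnR
            rw [hu2] at h7
            have hnr : (n : ℝ) = 16 * r := by exact_mod_cast hn16
            nlinarith [mul_le_mul_of_nonneg_right hε3 hnR.le]
          exact_mod_cast hfinal
      have h1 := Finset.card_le_mul_card_image (f := c) Finset.univ (64 ^ r) hfib
      have h2 : (Finset.univ.image c).card ≤ s.card := by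
        apply Finset.card_le_card
        intro b hb
        obtain ⟨σ, _, rfl⟩ := Finset.mem_image.mp hb
        exact hcs σ
      have h3 : (Finset.univ : Finset (Fin n → Bool)).card = 2 ^ n := by
        rw [Finset.card_univ, Fintype.card_pi]
        simp
      have h4 : 2 ^ n = 2 ^ (10 * r) * 64 ^ r := by
        rw [hn16, show (64 : ℕ) = 2 ^ 6 by norm_num, ← pow_mul, ← pow_add]
        congr 1
        ring
      have h5 : 2 ^ (10 * r) * 64 ^ r ≤ s.card * 64 ^ r := by
        calc 2 ^ (10 * r) * 64 ^ r = 2 ^ n := h4.symm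
          _ = (Finset.univ : Finset (Fin n → Bool)).card := h3.symm
          _ ≤ 64 ^ r * (Finset.univ.image c).card := h1
          _ ≤ 64 ^ r * s.card := Nat.mul_le_mul_left _ h2
          _ = s.card * 64 ^ r := mul_comm _ _
      exact Nat.le_of_mul_le_mul_right h5 (by positivity)
    have hne : {k : ℕ | ∃ s : Finset (EuclideanSpace ℝ (Fin n)), s.card = k ∧
        Set.range signVec ⊆ ⋃ x ∈ s, (x +ᵥ U)}.Nonempty := by
      refine ⟨_, Finset.univ.image signVec, rfl, ?_⟩
      rintro x ⟨σ, rfl⟩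
      refine Set.mem_iUnion₂.mpr ⟨signVec σ, Finset.mem_image_of_mem _ (Finset.mem_univ _), ?_⟩
      exact ⟨0, h0U, by simp⟩
    have hN : 2 ^ (10 * r) ≤ coveringNumber (Set.range signVec) U := by
      unfold coveringNumber
      apply le_csInf hne
      rintro k ⟨s, rfl, hs⟩
      exact hkey s hs
    have hlog : Real.log ((2 : ℝ) ^ (10 * r)) ≤
        Real.log (coveringNumber (Set.range signVec) U : ℝ) := by
      apply Real.log_le_log (by positivity)
      exact_mod_cast hN
    calc 10 * 16 ^ j * Real.log 2 = Real.log ((2 : ℝ) ^ (10 * r)) := by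
          rw [Real.log_pow, hr]
          push_cast
          ring
      _ ≤ _ := hlog
  · -- upper bound
    intro δ hδ
    set V : Set (EuclideanSpace ℝ (Fin n)) :=
      {z | ∀ x ∈ Set.range signVec, |inner ℝ x z| ≤ δ} with hV
    have h0V : (0 : EuclideanSpace ℝ (Fin n)) ∈ V := by
      intro x _
      simp [hδ]
    have hN : coveringNumber (Set.range bvec) V ≤ n := by
      unfold coveringNumber
      have hmem : (Finset.univ.image bvec).card ∈
          {k : ℕ | ∃ s : Finset (EuclideanSpace ℝ (Fin n)), s.card = k ∧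
            Set.range bvec ⊆ ⋃ x ∈ s, (x +ᵥ V)} := by
        refine ⟨Finset.univ.image bvec, rfl, ?_⟩
        rintro y ⟨a, rfl⟩
        refine Set.mem_iUnion₂.mpr ⟨bvec a, Finset.mem_image_of_mem _ (Finset.mem_univ _), ?_⟩
        exact ⟨0, h0V, by simp⟩
      refine le_trans (Nat.sInf_le hmem) ?_
      refine le_trans Finset.card_image_le ?_
      simp
    rcases Nat.eq_zero_or_pos (coveringNumber (Set.range bvec) V) with h0 | hpos
    · rw [h0]
      simp only [Nat.cast_zero, Real.log_zero]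
      exact Real.log_nonneg (by exact_mod_cast hnpos)
    · apply Real.log_le_log (by exact_mod_cast hpos)
      exact_mod_cast hN

/-- **Near-optimality of the bounded-set entropy duality.**  For every `ε ∈ (0, 1/16]` there are
sets `A, B ⊆ ℝⁿ` with coordinate bounds `α, β`, `∑ α i * β i = 1`, such that
`log N(A, {z : |⟨y,z⟩| ≤ ε ∀ y ∈ B}) ≥ 1/(640 ε²)` while
`log N(B, {z : |⟨x,z⟩| ≤ ε/8 ∀ x ∈ A}) ≤ 2 log(1/ε)`. -/
theorem bounded_sets_tight (ε : ℝ) (hε : 0 < ε) (hε' : ε ≤ 1 / 16) :
    ∃ (n : ℕ) (A B : Set (EuclideanSpace ℝ (Fin n))) (α β : Fin n → ℝ),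
      (∀ x ∈ A, ∀ i, |x i| ≤ α i) ∧ (∀ y ∈ B, ∀ i, |y i| ≤ β i) ∧ ∑ i, α i * β i = 1 ∧
      1 / (640 * ε ^ 2) ≤
        Real.log (coveringNumber A {z | ∀ y ∈ B, |inner ℝ y z| ≤ ε} : ℝ) ∧
      Real.log (coveringNumber B {z | ∀ x ∈ A, |inner ℝ x z| ≤ ε / 8} : ℝ) ≤
        2 * Real.log (1 / ε) := by
  have hinv : (16 : ℝ) ≤ 1 / ε := by
    rw [le_div_iff₀ hε]
    linarith
  have hinv0 : (0 : ℝ) ≤ 1 / ε := by positivity
  set N0 : ℕ := ⌊1 / ε⌋₊ with hN0
  have hN16 : 16 ≤ N0 := Nat.le_floor (by exact_mod_cast hinv)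
  have hN0ne : N0 ≠ 0 := by omega
  set L : ℕ := Nat.log 4 N0 with hL
  have hL2 : 2 ≤ L := Nat.le_log_of_pow_le (by norm_num) (by norm_num; exact hN16)
  obtain ⟨j, hj⟩ : ∃ j, L = j + 2 := ⟨L - 2, by omega⟩
  have h1 : (4 : ℝ) ^ (j + 2) ≤ 1 / ε := by
    have h2 : 4 ^ L ≤ N0 := Nat.pow_log_le_self 4 hN0ne
    have h3 : ((4 ^ L : ℕ) : ℝ) ≤ N0 := by exact_mod_cast h2
    rw [hj] at h3
    push_cast at h3
    exact h3.trans (Nat.floor_le hinv0)
  have h2 : 1 / ε < (4 : ℝ) ^ (j + 3) := by
    have h3 : N0 < 4 ^ (L + 1) := Nat.lt_pow_succ_log_self (by norm_num) N0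
    have h4 : N0 + 1 ≤ 4 ^ (L + 1) := h3
    have h5 : ((N0 + 1 : ℕ) : ℝ) ≤ ((4 ^ (L + 1) : ℕ) : ℝ) := by exact_mod_cast h4
    rw [hj] at h5
    push_cast at h5
    exact lt_of_lt_of_le (Nat.lt_floor_add_one _) h5
  obtain ⟨n, A, B, hn, hA, hB, hlow, hup⟩ := tight_instance j
  have hnpos : 0 < n := by
    rw [hn]
    positivity
  have hnR : (0 : ℝ) < n := by exact_mod_cast hnpos
  refine ⟨n, A, B, fun _ => 1, fun _ => 1 / (n : ℝ), hA, hB, ?_, ?_, ?_⟩
  · simp only [one_mul, Finset.sum_const, Finset.card_univ, Fintype.card_fin, nsmul_eq_mul]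
    field_simp
  · have hε2 : ε ≤ 1 / 4 ^ (j + 2) := by
      rw [le_div_iff₀ (by positivity)]
      have h3 := (le_div_iff₀ hε).mp h1
      linarith
    refine le_trans ?_ (hlow ε hε hε2)
    have h3 : (1 / ε) ^ 2 < ((4 : ℝ) ^ (j + 3)) ^ 2 :=
      pow_lt_pow_left₀ h2 hinv0 (by norm_num)
    have h4 : ((4 : ℝ) ^ (j + 3)) ^ 2 = 4096 * 16 ^ j := by
      rw [← pow_mul, mul_comm (j + 3) 2, pow_mul, pow_add]
      norm_num
      ring
    have h5 : 1 / (640 * ε ^ 2) = (1 / ε) ^ 2 / 640 := by
      field_simp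
    have h6 : (0 : ℝ) < 16 ^ j := by positivity
    have h7 := Real.log_two_gt_d9
    rw [h5]
    rw [h4] at h3
    nlinarith
  · refine le_trans (hup (ε / 8) (by positivity)) ?_
    have h3 : (n : ℝ) ≤ (1 / ε) ^ 2 := by
      have h4 : (n : ℝ) ≤ ((4 : ℝ) ^ (j + 2)) ^ 2 := by
        rw [hn]
        push_cast
        rw [← pow_mul, mul_comm (j + 2) 2, pow_mul]
        norm_num
        apply pow_le_pow_right₀ (by norm_num)
        omega
      exact h4.trans (pow_le_pow_left₀ (by positivity) h1 2)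
    calc Real.log n ≤ Real.log ((1 / ε) ^ 2) := Real.log_le_log hnR h3
      _ = 2 * Real.log (1 / ε) := by
          rw [Real.log_pow]
          push_cast
          ring

end Vale.Agent.H34
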